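import Mathlib

namespace Vale.Agent.P162

open Finset

/-- uniform average over a finite type -/
noncomputable def av {α : Type} [Fintype α] (f : α → ℝ) : ℝ := (∑ x, f x) / Fintype.card α

section
variable {α β : Type} [Fintype α] [Fintype β]

lemma av_congr {f g : α → ℝ} (h : ∀ x, f x = g x) : av f = av g := by
  rw [funext h]

lemma av_mono {f g : α → ℝ} (h : ∀ x, f x ≤ g x) : av f ≤ av g :=
  div_le_div_of_nonneg_right (sum_le_sum fun x _ => h x) (by positivity)

lemma av_nonneg {f : α → ℝ} (h : ∀ x, 0 ≤ f x) : 0 ≤ av f :=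
  div_nonneg (sum_nonneg fun x _ => h x) (by positivity)

lemma av_const [Nonempty α] (c : ℝ) : av (fun _ : α => c) = c := by
  have : (Fintype.card α : ℝ) ≠ 0 := by positivity
  simp [av]

lemma av_le [Nonempty α] {f : α → ℝ} {c : ℝ} (h : ∀ x, f x ≤ c) : av f ≤ c :=
  (av_mono h).trans (av_const c).le

lemma av_mul_left (c : ℝ) (f : α → ℝ) : av (fun x => c * f x) = c * av f := by
  simp only [av, ← mul_sum]; ring

lemma av_mul_right (c : ℝ) (f : α → ℝ) : av (fun x => f x * c) = av f * c := by
  simp only [av, ← sum_mul]; ring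

lemma av_div (c : ℝ) (f : α → ℝ) : av (fun x => f x / c) = av f / c := by
  simp only [div_eq_mul_inv, av_mul_right]

lemma av_add (f g : α → ℝ) : av (fun x => f x + g x) = av f + av g := by
  simp only [av, sum_add_distrib]; ring

lemma av_sub (f g : α → ℝ) : av (fun x => f x - g x) = av f - av g := by
  simp only [av, sum_sub_distrib]; ring

lemma av_zero : av (fun _ : α => (0 : ℝ)) = 0 := by simp [av]

lemma av_sum {ι : Type} (s : Finset ι) (f : α → ι → ℝ) :
    av (fun x => ∑ i ∈ s, f x i) = ∑ i ∈ s, av (fun x => f x i) := by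
  simp only [av]; rw [sum_comm, sum_div]

lemma av_comm (f : α → β → ℝ) :
    av (fun x => av (fun y => f x y)) = av (fun y => av (fun x => f x y)) := by
  simp only [av, ← sum_div]; rw [sum_comm]; ring

lemma av_prod (f : α × β → ℝ) : av f = av (fun x => av (fun y => f (x, y))) := by
  simp only [av, ← sum_div, Fintype.sum_prod_type, Fintype.card_prod]; push_cast
  rw [div_div, mul_comm]

lemma av_equiv (e : α ≃ β) (f : β → ℝ) : av (fun x => f (e x)) = av f := by
  simp only [av, Fintype.card_congr e]; rw [e.sum_comp]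

lemma av_mul_av (f : α → ℝ) (g : β → ℝ) :
    av (fun x => av (fun y => f x * g y)) = av f * av g := by
  simp only [av_mul_left, av_mul_right]

lemma av_pi {ι : Type} [Fintype ι] [DecidableEq ι] (g : ι → β → ℝ) :
    av (fun f : ι → β => ∏ i, g i (f i)) = ∏ i, av (g i) := by
  simp only [av, prod_div_distrib, prod_univ_sum, Fintype.piFinset_univ, Fintype.card_pi,
    Nat.cast_prod]

lemma av_bool (f : Bool → ℝ) : av f = (f false + f true) / 2 := by
  simp [av, add_comm]

lemma av_mul_group {G : Type} [Fintype G] [Group G] (g : G) (f : G → ℝ) :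
    av (fun x => f (g * x)) = av f := av_equiv (Equiv.mulLeft g) f

lemma av_mul_group' {G : Type} [Fintype G] [Group G] (g : G) (f : G → ℝ) :
    av (fun x => f (x * g)) = av f := av_equiv (Equiv.mulRight g) f

/-- Hoelder / Jensen with an indicator-like weight -/
lemma av_rpow_le [Nonempty α] (w f : α → ℝ) (hw : ∀ x, 0 ≤ w x) (hf : ∀ x, 0 ≤ f x) (δ : ℝ)
    (hδ : 0 ≤ δ) :
    av (fun x => w x * f x) ^ (1 + δ) ≤ av w ^ δ * av (fun x => w x * f x ^ (1 + δ)) := by
  have hc : (0 : ℝ) < Fintype.card α := by positivity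
  have h := Real.inner_le_weight_mul_Lp_of_nonneg univ (p := 1 + δ) (by linarith)
    (fun x => w x / Fintype.card α) f (fun x => div_nonneg (hw x) hc.le) hf
  have e1 : ∀ g : α → ℝ, ∑ x, w x / Fintype.card α * g x = av (fun x => w x * g x) := by
    intro g; simp only [av, sum_div]; exact sum_congr rfl fun x _ => by ring
  have e2 : ∑ x, w x / Fintype.card α = av w := by simp only [av, sum_div]
  rw [e1, e1, e2] at h
  have h0 : 0 ≤ av (fun x => w x * f x) := av_nonneg fun x => mul_nonneg (hw x) (hf x)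
  have h1 : 0 ≤ av w := av_nonneg hw
  have h2 : 0 ≤ av (fun x => w x * f x ^ (1 + δ)) :=
    av_nonneg fun x => mul_nonneg (hw x) (Real.rpow_nonneg (hf x) _)
  refine (Real.rpow_le_rpow h0 h (by linarith)).trans (le_of_eq ?_)
  have h3 : (1 + δ) ≠ 0 := by linarith
  rw [Real.mul_rpow (Real.rpow_nonneg h1 _) (Real.rpow_nonneg h2 _), ← Real.rpow_mul h1,
    ← Real.rpow_mul h2, inv_mul_cancel₀ h3, Real.rpow_one]
  congr 2; field_simp; ring

lemma av_sq_le [Nonempty α] (f : α → ℝ) : av f ^ 2 ≤ av (fun x => f x ^ 2) := by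
  have hc : (0 : ℝ) < Fintype.card α := by positivity
  have := sq_sum_le_card_mul_sum_sq (s := univ) (f := f)
  simp only [av, div_pow, card_univ] at this ⊢
  rw [div_le_div_iff₀ (by positivity) hc]; nlinarith

end

/-- indicator -/
noncomputable def ind (p : Prop) : ℝ := by classical exact if p then 1 else 0

lemma ind_nonneg (p : Prop) : 0 ≤ ind p := by unfold ind; split_ifs <;> norm_num
lemma ind_le_one (p : Prop) : ind p ≤ 1 := by unfold ind; split_ifs <;> norm_num
lemma ind_pos {p : Prop} (h : p) : ind p = 1 := by simp [ind, h]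
lemma ind_neg {p : Prop} (h : ¬ p) : ind p = 0 := by simp [ind, h]
lemma ind_and (p q : Prop) : ind (p ∧ q) = ind p * ind q := by
  by_cases hp : p <;> by_cases hq : q <;> simp [ind, hp, hq]
lemma ind_congr {p q : Prop} (h : p ↔ q) : ind p = ind q := by rw [propext h]
lemma ind_mono {p q : Prop} (h : p → q) : ind p ≤ ind q := by
  by_cases hp : p
  · rw [ind_pos hp, ind_pos (h hp)]
  · rw [ind_neg hp]; exact ind_nonneg _
lemma ind_eq_ite (p : Prop) [Decidable p] : ind p = if p then 1 else 0 := by
  by_cases hp : p <;> simp [ind, hp]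
lemma sum_ind_eq {α : Type} [Fintype α] (a : α) (f : α → ℝ) : ∑ x, ind (a = x) * f x = f a := by
  classical
  simp [ind_eq_ite]
lemma ind_forall {ι : Type} [Fintype ι] (p : ι → Prop) : ind (∀ i, p i) = ∏ i, ind (p i) := by
  by_cases h : ∀ i, p i
  · rw [ind_pos h]; exact (prod_eq_one fun i _ => ind_pos (h i)).symm
  · rw [ind_neg h]
    obtain ⟨i, hi⟩ := not_forall.1 h
    exact (prod_eq_zero (mem_univ i) (ind_neg hi)).symm

end Vale.Agent.P162
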