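import Vale.Agent.P162.HighB

namespace Vale.Agent.P162

open Finset Matrix Equiv

lemma KB_eq (d : ℕ) : KB d = avM fun b => avM fun a => Lm ((bf d a)⁻¹ * bf d b) := by
  rw [KB, XB, mul_avM, avM_T]; simp only [avM_mul, Lm_T, Lm_mul]

lemma KB_T (d : ℕ) : (KB d)ᵀ = KB d := by simp [KB]
lemma KB_psd (d : ℕ) : (KB d).PosSemidef := posSemidef_conjTranspose_mul_self (XB d)
lemma KB_LT (d : ℕ) : LT (KB d) := KB_eq d ▸ LT_avM fun _ => LT_avM fun _ => LT_Lm _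
lemma KB_PB (d : ℕ) (B : Finset (Pos d)) : PB B * KB d = KB d * PB B := by
  simp only [KB_eq, mul_avM, avM_mul, PB_Lm]

lemma tr_low2 (l : ℕ) (hl : 1 ≤ l) (t k : ℕ) (c1 : (2 : ℝ) ^ (4 * l) * (k + 1) ≤ 2 ^ t)
    (B : Finset (Pos (20 * l + t))) (hB : B.card ≤ (k + 1) * 2 ^ l) :
    trace ((KB (20 * l + t) * PB B) ^ 64) ≤ Real.exp (126 * (k + 1)) := by
  rw [← KT_true]
  refine (tr_low l hl t B).trans (Real.exp_le_exp.2 ?_)
  have hB' : (B.card : ℝ) ≤ (k + 1) * 2 ^ l := by exact_mod_cast hB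
  have a1 : ((2 : ℝ) ^ l * B.card) ^ 2 / 2 ^ t ≤ k + 1 := by
    rw [div_le_iff₀ (by positivity)]
    calc ((2 : ℝ) ^ l * B.card) ^ 2 ≤ (2 ^ l * (((k : ℝ) + 1) * 2 ^ l)) ^ 2 := by gcongr
      _ = ((k : ℝ) + 1) * (2 ^ (4 * l) * (k + 1)) := by ring
      _ ≤ _ := by gcongr
  have a2 : ((1 : ℝ) / 8) ^ l * 2 ^ l ≤ 1 / 2 := by
    rw [← mul_pow]
    exact (pow_le_pow_of_le_one (by norm_num) (by norm_num) hl).trans (by norm_num)
  have a3 : ((1 : ℝ) / 8) ^ l * B.card ≤ (k + 1) * ((1 / 8) ^ l * 2 ^ l) := by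
    rw [mul_left_comm]; gcongr
  have a4 := mul_le_mul_of_nonneg_left a2 (show (0 : ℝ) ≤ k + 1 by positivity)
  rw [mul_assoc]
  linarith only [a1, a3, a4]

lemma KB_W (d k : ℕ) : ∀ f ∈ VL (Pos d) (k + 1) ⊓ perp (VL (Pos d) k),
    KB d *ᵥ f ∈ VL (Pos d) (k + 1) ⊓ perp (VL (Pos d) k) := fun f hf =>
  ⟨VL_inv (KB_PB _) f hf.1, perp_inv (KB_T _) (VL_inv (KB_PB _)) f hf.2⟩

lemma low_main (L : ℕ) (hL : 400 ≤ L) (d k : ℕ) (hk : 2 ^ (24 * L) * (k + 1) ≤ 2 ^ d) :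
    ∃ β : ℝ, 0 < β ∧ (∀ f ∈ VL (Pos d) (k + 1) ⊓ perp (VL (Pos d) k),
      f ⬝ᵥ KB d *ᵥ f ≤ β * f ⬝ᵥ f) ∧ ∀ M, 3200 ≤ M → β ^ (2 * M) *
      ∑ B ∈ powersetCard (k + 1) (univ : Finset (Pos d)), trace ((KB d * PB B) ^ 64) ≤
        (1 / 16) ^ (k + 1) := by
  have k0 : (0 : ℝ) < k + 1 := by positivity
  have e2 : (2 : ℝ) ≤ Real.exp 1 := by linarith [Real.add_one_le_exp 1]
  have e3 : ∀ a : ℕ, (2 : ℝ) ^ a ≤ Real.exp a := fun a => by
    simpa [← Real.exp_nat_mul] using pow_le_pow_left₀ (by norm_num) e2 a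
  obtain ⟨l, hl⟩ : ∃ l, l = Nat.log (2 ^ 24) (2 ^ d / (k + 1)) := ⟨_, rfl⟩
  have p1 : 1 < 2 ^ 24 := by norm_num
  have h0 : (2 ^ 24) ^ L ≤ 2 ^ d / (k + 1) := by
    rw [← pow_mul, Nat.le_div_iff_mul_le k.succ_pos]; exact hk
  have h1 : 400 ≤ l := hL.trans (hl ▸ Nat.le_log_of_pow_le p1 h0)
  have h2 : 2 ^ (24 * l) * (k + 1) ≤ 2 ^ d := by
    rw [← Nat.le_div_iff_mul_le k.succ_pos, pow_mul, hl]
    exact Nat.pow_log_le_self _ (((Nat.pow_pos (by norm_num)).trans_le h0).ne')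
  have h3 : 2 ^ d ≤ 2 ^ (24 * (l + 1)) * (k + 1) := by
    rw [pow_mul, hl]
    exact ((Nat.div_lt_iff_lt_mul k.succ_pos).1 (Nat.lt_pow_succ_log_self p1 _)).le
  have h4 : 24 * l ≤ d := (Nat.pow_le_pow_iff_right (by norm_num : 1 < 2)).1
    ((Nat.le_mul_of_pos_right _ k.succ_pos).trans h2)
  have b1 : ((2 ^ d : ℕ) : ℝ) ≤ Real.exp (24 * (l + 1)) * (k + 1) := by
    have := e3 (24 * (l + 1))
    push_cast at this
    exact le_trans (by exact_mod_cast h3) (mul_le_mul_of_nonneg_right this k0.le)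
  clear hl h0 hk hL p1 h3
  obtain ⟨t, rfl⟩ : ∃ t, d = 20 * l + t := ⟨d - 20 * l, by omega⟩
  have c1 : (2 : ℝ) ^ (4 * l) * (k + 1) ≤ 2 ^ t := by
    have : 2 ^ (20 * l) * (2 ^ (4 * l) * (k + 1)) ≤ 2 ^ (20 * l) * 2 ^ t := by
      rw [← mul_assoc, ← pow_add, ← pow_add, ← add_mul]; exact h2
    exact_mod_cast Nat.le_of_mul_le_mul_left this (by positivity)
  have tr := tr_low2 l (by omega) t k c1
  have l0 : (400 : ℝ) ≤ l := by exact_mod_cast h1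
  refine ⟨Real.exp (-((k + 1) * l / 256)), Real.exp_pos _, eig _ (KB_T _) _ (KB_W _ k) _
    fun x v hv v0 h => ?_, fun M hM => ?_⟩
  · obtain ⟨m, hm⟩ : ∃ m, 2 ^ l = m + 1 := ⟨2 ^ l - 1, by have := Nat.one_le_two_pow (n := l); omega⟩
    have a1 : 2 ^ 1 ≤ 2 ^ l := Nat.pow_le_pow_right (by norm_num) (by omega)
    have a2 : 2 ^ (l + 1) ≤ 2 ^ (24 * l) := Nat.pow_le_pow_right (by norm_num) (by omega)
    have := low _ (KB_LT _) (KB_T _) (KB_PB _) k m (by omega) (by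
      rw [card_pos]; exact (Nat.mul_le_mul_right _ (by omega)).trans h2) _
      (fun B hB => tr B (by rw [hB, hm])) x v hv v0 h
    have a3 : Real.exp (l * (0.69 : ℝ)) ≤ m + 1 := by
      have : (m : ℝ) + 1 = 2 ^ l := by exact_mod_cast hm.symm
      rw [this, Real.exp_nat_mul]
      refine pow_le_pow_left₀ (Real.exp_pos _).le ?_ _
      rw [← Real.le_log_iff_exp_le (by norm_num)]; linarith [Real.log_two_gt_d9]
    refine pow_root (le_of_mul_le_mul_left (this.trans ?_) (by positivity))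
    refine (mul_le_mul_of_nonneg_right (e3 _) (Real.exp_pos _).le).trans (le_trans ?_
      (mul_le_mul_of_nonneg_right (pow_le_pow_left₀ (Real.exp_pos _).le a3 _) (Real.exp_pos _).le))
    rw [← Real.exp_nat_mul, ← Real.exp_add, ← Real.exp_add, Real.exp_le_exp]
    push_cast; nlinarith
  · have a1 := sum_le_card_nsmul (powersetCard (k + 1) (univ : Finset (Pos (20 * l + t)))) _ _
      fun B hB => tr B (by rw [mem_powersetCard_univ.1 hB]; exact Nat.le_mul_of_pos_right _ (by positivity))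
    rw [card_powersetCard, card_univ, card_pos, nsmul_eq_mul] at a1
    have a2 : (((2 ^ (20 * l + t)).choose (k + 1) : ℕ) : ℝ) ≤
        Real.exp ((24 * (l + 1) + 1) * (k + 1)) := by
      refine (Nat.choose_le_pow_div _ _).trans ?_
      have b2 := Real.pow_div_factorial_le_exp (k + 1 : ℝ) k0.le (k + 1)
      refine (div_le_div_of_nonneg_right (pow_le_pow_left₀ (by positivity) b1 _)
        (by positivity)).trans ?_
      rw [mul_pow, mul_div_assoc]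
      refine (mul_le_mul_of_nonneg_left b2 (by positivity)).trans (le_of_eq ?_)
      rw [← Real.exp_nat_mul, ← Real.exp_add]; push_cast; ring_nf
    have a3 : Real.exp (-3) ≤ 1 / 16 := by
      have := pow_le_pow_left₀ (by norm_num) Real.exp_one_gt_d9.le 3
      rw [← Real.exp_nat_mul] at this
      rw [Real.exp_neg, one_div]
      exact inv_anti₀ (by norm_num) (le_trans (by norm_num) (this.trans_eq (by norm_num)))
    refine (mul_le_mul_of_nonneg_left (a1.trans (mul_le_mul_of_nonneg_right a2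
      (Real.exp_pos _).le)) (by positivity)).trans
      (le_trans ?_ (pow_le_pow_left₀ (Real.exp_pos _).le a3 _))
    rw [← Real.exp_nat_mul, ← Real.exp_nat_mul, ← Real.exp_add, ← Real.exp_add, Real.exp_le_exp]
    have M0 : (3200 : ℝ) ≤ M := by exact_mod_cast hM
    push_cast
    nlinarith [mul_le_mul_of_nonneg_left M0 (show (0 : ℝ) ≤ (k + 1) * l by positivity)]

variable {Q : Type} [Fintype Q] [DecidableEq Q]

lemma pyth {n : Type} [Fintype n] {a b : n → ℝ} (h : a ⬝ᵥ b = 0) :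
    (a + b) ⬝ᵥ (a + b) = a ⬝ᵥ a + b ⬝ᵥ b := by
  simp only [add_dotProduct, dotProduct_add, h, dotProduct_comm b a]; ring

lemma levels (S : Matrix (Perm Q) (Perm Q) ℝ) (hS : Sᵀ = S) (hP : ∀ B, PB B * S = S * PB B)
    (k0 : ℕ) (hk0 : k0 ≤ Fintype.card Q) (b : ℕ → ℝ) (b0 : ∀ k, 0 ≤ b k) (c : ℝ) (c0 : 0 ≤ c)
    (hb : ∀ k < k0, ∀ f ∈ VL Q (k + 1) ⊓ perp (VL Q k), S *ᵥ f ⬝ᵥ S *ᵥ f ≤ b k * f ⬝ᵥ f)
    (hc : ∀ f ∈ perp (VL Q k0), S *ᵥ f ⬝ᵥ S *ᵥ f ≤ c * f ⬝ᵥ f) (f : Perm Q → ℝ) (i : ℕ) :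
    ∀ k, k + i = k0 → ∀ p ∈ VL Q k, f - p ∈ perp (VL Q k) → S *ᵥ (f - p) ⬝ᵥ S *ᵥ (f - p) ≤
      ∑ q ∈ Ico k k0, b q * (∑ B ∈ powersetCard (q + 1) (univ : Finset Q), PB B *ᵥ f ⬝ᵥ PB B *ᵥ f) +
        c * f ⬝ᵥ f := by
  induction i with
  | zero =>
    rintro k rfl p hp h
    have := pyth (h p hp)
    rw [add_sub_cancel] at this
    refine (hc _ h).trans ?_
    rw [add_zero, Ico_self, sum_empty, zero_add]
    exact mul_le_mul_of_nonneg_left (by linarith [dot_nonneg p]) c0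
  | succ i ih =>
    intro k hk p hp h
    obtain ⟨p', hp', h'⟩ := proj (VL Q (k + 1)) f
    have m := VL_mono (Q := Q) k.le_succ
    have hw : p' - p ∈ VL Q (k + 1) ⊓ perp (VL Q k) := ⟨Submodule.sub_mem _ hp' (m hp), by
      rw [← sub_sub_sub_cancel_left p p' f]
      exact Submodule.sub_mem _ h fun u hu => h' u (m hu)⟩
    have hW : RI (VL Q (k + 1) ⊓ perp (VL Q k)) := (RI_VL _).inf (RI_VL k).perp
    rw [← sub_add_sub_cancel' p' p f, mulVec_add,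
      pyth (perp_inv hS (VL_inv hP) _ h' _ (VL_inv hP _ hw.1)), sum_eq_sum_Ico_succ_bot (by omega),
      add_assoc]
    refine add_le_add ((hb k (by omega) _ hw).trans (mul_le_mul_of_nonneg_left
      ((frame k (by omega) _ hw).trans (sum_le_sum fun B _ => ?_)) (b0 k)))
      (ih (k + 1) (by omega) p' hp' h')
    have e : f = (p' - p) + (p + (f - p')) := by abel
    have w := hW.PB_mem B hw
    conv_rhs => rw [e, mulVec_add, pyth (by
      rw [mulVec_add, dotProduct_add, dotProduct_comm, w.2 _ ((RI_VL k).PB_mem B hp),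
        (RI_VL (k + 1)).perp.PB_mem B h' _ w.1, add_zero])]
    linarith [dot_nonneg (PB B *ᵥ (p + (f - p')))]

lemma sub_pow_idem {R : Type} [Ring R] {A U : R} (h1 : U * U = U) (h2 : A * U = U) (h3 : U * A = U)
    (m : ℕ) : (A - U) ^ (m + 1) = A ^ (m + 1) - U ∧ A ^ m * U = U ∧ U * A ^ m = U := by
  induction m with
  | zero => simp
  | succ m ih =>
    refine ⟨?_, by rw [pow_succ, mul_assoc, h2, ih.2.1], by rw [pow_succ, ← mul_assoc, ih.2.2, h3]⟩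
    rw [pow_succ, ih.1, sub_mul, mul_sub, mul_sub, h1, h3, pow_succ A m, mul_assoc _ A U, h2, ih.2.1,
      ← pow_succ, ← pow_succ]
    simp

lemma sum_cols {n : Type} [Fintype n] [DecidableEq n] (M : Matrix n n ℝ) :
    trace (Mᵀ * M) = ∑ σ, M *ᵥ Pi.single σ 1 ⬝ᵥ M *ᵥ Pi.single σ 1 := by
  simp [trace, mul_apply, dotProduct]

lemma PB_empty (π σ : Perm Q) : PB (∅ : Finset Q) π σ = 1 / Fintype.card (Perm Q) := by
  simp [PB, NB, ind_pos]

lemma chi : ∃ N d0 : ℕ, ∀ d, d0 ≤ d → ∀ ρ : Perm (Pos d),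
    ∑ σ, ∑ π, (((Lm ρ * XB d) ^ N) π σ - 1 / Fintype.card (Perm (Pos d))) ^ 2 ≤ 1 / 4 := by
  obtain ⟨L, hL⟩ : ∃ L, 400 ≤ L := ⟨_, le_rfl⟩
  obtain ⟨γ, B, s, g0, g1, hh⟩ := high_main (24 * L)
  obtain ⟨M1, hM1⟩ := exists_pow_lt_of_lt_one (Real.exp_pos (-(B + 1))) g1
  obtain ⟨i, hi⟩ : ∃ i, i = M1 + 3200 + 32 := ⟨_, rfl⟩
  obtain ⟨M, hM⟩ : ∃ M, 2 ^ i = M + 32 := ⟨2 ^ i - 32, by have := i.lt_two_pow_self; omega⟩
  have M0 : M1 + 3200 ≤ M := by have := i.lt_two_pow_self; omega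
  refine ⟨2 ^ (i + 1), 24 * L + s + (2 * M + 3), fun d hd ρ => ?_⟩
  obtain ⟨u, rfl⟩ : ∃ u, d = 24 * L + s + u := ⟨d - (24 * L + s), by omega⟩
  obtain ⟨t1, t2⟩ := hh u
  have lw := fun k (hk : k < 2 ^ (s + u)) => low_main L hL (24 * L + s + u) k (by
    rw [add_assoc, pow_add]; exact Nat.mul_le_mul_left _ hk)
  have kc : 2 ^ (s + u) ≤ Fintype.card (Pos (24 * L + s + u)) := by
    rw [card_pos]; exact Nat.pow_le_pow_right (by norm_num) (by omega)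
  have hu : 2 * M + 3 ≤ u := by omega
  clear hd
  generalize 24 * L + s + u = d at *
  choose! β b0 b1 b2 using lw
  obtain ⟨U, hU⟩ : ∃ U, U = PB (∅ : Finset (Pos d)) := ⟨_, rfl⟩
  have u1 : U * U = U := hU ▸ PB_PB _
  have uT : Uᵀ = U := hU ▸ PB_T _
  have u2 : ∀ g, Lm g * U = U := fun g => by
    ext π σ; rw [Lm_mul_apply, hU, PB_empty, PB_empty]
  have u3 : ∀ g, U * Lm g = U := fun g => by rw [hU, PB_Lm, ← hU, u2]
  have x2 : Lm ρ * XB d * U = U := by simp only [XB, mul_assoc, avM_mul, u2, avM_const]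
  have x3 : U * (Lm ρ * XB d) = U := by simp only [XB, ← mul_assoc, mul_avM, u3, avM_const]
  have k2 : KB d * U = U := by simp only [KB_eq, avM_mul, u2, avM_const]
  have k3 : U * KB d = U := by simp only [KB_eq, mul_avM, u3, avM_const]
  have e1 : (Lm ρ * XB d - U)ᵀ * (Lm ρ * XB d - U) = KB d - U := by
    have : (Lm ρ * XB d)ᵀ * U = U := by rw [← uT, ← transpose_mul, uT, x3, uT]
    rw [transpose_sub, uT, sub_mul, mul_sub, mul_sub, u1, x3, this, transpose_mul, Lm_T, mul_assoc,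
      ← mul_assoc (Lm _), Lm_mul, inv_mul_cancel, Lm_one, one_mul, sub_self, sub_zero, KB]
  have c := chess (i + 1) 0 (Lm ρ * XB d - U)
  obtain ⟨N, hN⟩ : ∃ N, 2 ^ (i + 1) = N + 1 := ⟨2 ^ (i + 1) - 1, by have := i.lt_two_pow_self; omega⟩
  have hT : ∀ m, (KB d ^ m)ᵀ = KB d ^ m := fun m => by rw [transpose_pow, KB_T]
  have e2 : (KB d - U) ^ 2 ^ (i + 1) = (KB d ^ (M + 32) - U)ᵀ * (KB d ^ (M + 32) - U) := by
    rw [transpose_sub, hT, uT, ← (sub_pow_idem u1 k2 k3 (M + 31)).1, ← pow_add]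
    congr 1; omega
  rw [pow_zero, pow_one, zero_add, e1, e2, hN, (sub_pow_idem u1 x2 x3 N).1, sum_cols _] at c
  rw [hN]
  refine le_trans (le_of_eq ?_) (c.trans ?_)
  · simp [hU, PB_empty, dotProduct, sq]
  have cP : ∀ m B, PB B * KB d ^ m = KB d ^ m * PB B := fun m B =>
    (Commute.pow_right (KB_PB d B) m).eq
  have lv := fun σ => levels (KB d ^ M) (hT M) (cP M) _ kc (fun k => β k ^ (2 * M))
    (fun k => by rw [pow_mul]; positivity) ((2 * γ ^ 2 ^ u) ^ (2 * M)) (by positivity)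
    (fun k hk => norm_pow_le _ (KB_psd d) _ (KB_W d k) _ (b0 k hk) (b1 k hk) M)
    (norm_pow_le _ (KB_psd d) _ (perp_inv (KB_T _) (VL_inv (KB_PB _))) _ (by positivity) t2 M)
    (KB d ^ 32 *ᵥ Pi.single σ 1) _ 0 (zero_add _) (U *ᵥ (KB d ^ 32 *ᵥ Pi.single σ 1))
    (hU ▸ VB_le le_rfl (PB_VB _ _)) (fun v hv => by
      have : U *ᵥ v - v ∈ (⊥ : Submodule ℝ _) := VL_ind (mulVecLin U - LinearMap.id) ⊥
        (fun B hB f hf => by
          rw [card_eq_zero.1 (Nat.le_zero.1 hB)] at hf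
          simp [hU, PB_fix hf]) v hv
      rw [dotProduct_sub, dot_symm uT v, sub_eq_zero.1 this, sub_self])
  rw [sum_cols]
  have e3 : ∀ f, (KB d ^ (M + 32) - U) *ᵥ f = KB d ^ M *ᵥ (KB d ^ 32 *ᵥ f - U *ᵥ (KB d ^ 32 *ᵥ f)) :=
    fun f => by
      simp only [mulVec_sub, mulVec_mulVec, sub_mulVec, ← pow_add, (sub_pow_idem u1 k2 k3 _).2]
  simp only [e3]
  refine (sum_le_sum fun σ _ => lv σ).trans ?_
  rw [sum_add_distrib, ← mul_sum, ← sum_cols, hT, ← pow_add, sum_comm]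
  have f1 : ∀ q ∈ Ico 0 (2 ^ (s + u)), ∑ σ, β q ^ (2 * M) *
      ∑ B ∈ powersetCard (q + 1) (univ : Finset (Pos d)), PB B *ᵥ (KB d ^ 32 *ᵥ Pi.single σ 1) ⬝ᵥ
        PB B *ᵥ (KB d ^ 32 *ᵥ Pi.single σ 1) ≤ (1 / 16) ^ (q + 1) := by
    intro q hq
    refine le_trans (le_of_eq ?_) (b2 q (mem_Ico.1 hq).2 M (by omega))
    rw [← mul_sum, sum_comm]
    refine congrArg _ (sum_congr rfl fun B _ => ?_)
    simp only [mulVec_mulVec, ← sum_cols]
    rw [Commute.mul_pow (KB_PB d B).symm, IsIdempotentElem.pow_succ_eq 63 (PB_PB B), transpose_mul,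
      hT, PB_T, mul_assoc, ← mul_assoc (PB B), PB_PB, cP, ← mul_assoc, ← pow_add]
  have f2 : ∀ m, ∑ q ∈ Ico 0 m, ((1 : ℝ) / 16) ^ (q + 1) ≤ 1 / 15 - (1 / 16) ^ m / 15 := by
    intro m
    induction m with
    | zero => simp
    | succ m ih => rw [sum_Ico_succ_top m.zero_le, pow_succ]; linarith
  have f3 : (2 * γ ^ 2 ^ u) ^ (2 * M) * Real.exp (B * 2 ^ u) ≤ 1 / 8 := by
    have a1 : γ ^ (2 * M) ≤ Real.exp (-(B + 1)) :=
      (pow_le_pow_of_le_one g0.le g1.le (by omega)).trans hM1.le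
    have a2 := pow_le_pow_left₀ (by positivity) a1 (2 ^ u)
    have a3 : (2 : ℝ) ^ (2 * M + 3) ≤ Real.exp 1 ^ 2 ^ u :=
      (pow_le_pow_right₀ (by norm_num) (hu.trans u.lt_two_pow_self.le)).trans
        (pow_le_pow_left₀ (by norm_num) (by linarith [Real.add_one_le_exp 1]) _)
    rw [mul_pow, pow_right_comm γ, mul_assoc]
    refine (mul_le_mul_of_nonneg_left (mul_le_mul_of_nonneg_right a2 (Real.exp_pos _).le)
      (by positivity)).trans ?_
    rw [← Real.exp_nat_mul] at a3 ⊢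
    rw [← Real.exp_add, show ((2 ^ u : ℕ) : ℝ) * -(B + 1) + B * 2 ^ u = -((2 ^ u : ℕ) * 1) by
      push_cast; ring, Real.exp_neg, ← div_eq_mul_inv, div_le_iff₀ (Real.exp_pos _)]
    rw [pow_add] at a3; linarith
  have f4 := (sum_le_sum f1).trans (f2 _)
  have f5 := (mul_le_mul_of_nonneg_left t1 (by positivity)).trans f3
  have : (0 : ℝ) ≤ (1 / 16) ^ 2 ^ (s + u) := by positivity
  linarith

end Vale.Agent.P162
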