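import Vale.Agent.P162.Av

namespace Vale.Agent.P162

open Finset Equiv

variable {Q : Type}

def sw (ε : Q → Bool) : Perm (Q × Bool) :=
  Function.Involutive.toPerm (fun x => (x.1, xor x.2 (ε x.1))) (by rintro ⟨u, c⟩; simp)

def osum (α β : Perm Q) : Perm (Q × Bool) := Equiv.prodCongrLeft fun c => cond c β α

@[simp] lemma sw_apply (ε : Q → Bool) (u : Q) (c : Bool) : sw ε (u, c) = (u, xor c (ε u)) := rfl
@[simp] lemma osum_apply (α β : Perm Q) (u : Q) (c : Bool) :
    osum α β (u, c) = ((cond c β α) u, c) := rfl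
lemma sw_inv (ε : Q → Bool) : (sw ε)⁻¹ = sw ε := rfl
lemma osum_mul (α β α' β' : Perm Q) : osum α β * osum α' β' = osum (α * α') (β * β') := by
  ext ⟨u, c⟩ <;> cases c <;> simp
lemma osum_one : osum (1 : Perm Q) 1 = 1 := by ext ⟨u, c⟩ <;> cases c <;> simp
lemma osum_inv (α β : Perm Q) : (osum α β)⁻¹ = osum α⁻¹ β⁻¹ := by
  rw [inv_eq_iff_mul_eq_one, osum_mul]; simp [osum_one]

lemma psd {Ω Ω' R : Type} [Fintype Ω] [Fintype Ω'] [Fintype R] (φ : Ω → R) (ψ : Ω' → R)
    (g : Ω → ℝ) (h : Ω' → ℝ) :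
    av (fun ω => av fun ω' => ind (φ ω = ψ ω') * (g ω * h ω')) ≤
      (av (fun ω => av fun ω' => ind (φ ω = φ ω') * (g ω * g ω')) +
       av (fun ω => av fun ω' => ind (ψ ω = ψ ω') * (h ω * h ω'))) / 2 := by
  have key : ∀ {A B : Type} [Fintype A] [Fintype B] (φ : A → R) (ψ : B → R) (g : A → ℝ)
      (h : B → ℝ), av (fun ω => av fun ω' => ind (φ ω = ψ ω') * (g ω * h ω')) =
      ∑ r, av (fun ω => ind (φ ω = r) * g ω) * av (fun ω => ind (ψ ω = r) * h ω) := by
    intro A B _ _ φ ψ g h
    simp only [← av_mul_av, ← av_sum]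
    refine av_congr fun ω => av_congr fun ω' => ?_
    rw [ind_congr eq_comm, ← sum_ind_eq (φ ω) (fun r => ind (ψ ω' = r) * (g ω * h ω'))]
    exact sum_congr rfl fun r _ => by ring
  rw [key, key, key, ← sum_add_distrib, sum_div]
  exact sum_le_sum fun r _ => by nlinarith [sq_nonneg (av (fun ω => ind (φ ω = r) * g ω) -
    av (fun ω => ind (ψ ω = r) * h ω))]

variable [Fintype Q] [DecidableEq Q] (C : Type) [Fintype C] [DecidableEq C] [AddCommGroup C]

def wt {C : Type} [DecidableEq C] [Zero C] (w : Q → ℝ) (v : Q → C) : ℝ :=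
  ∏ p, if v p = 0 then 1 else w p

omit [DecidableEq Q] [Fintype C] in
lemma wt_nonneg {w : Q → ℝ} (hw : ∀ p, 0 ≤ w p) (v : Q → C) : 0 ≤ wt w v :=
  prod_nonneg fun p _ => by split_ifs; exacts [zero_le_one, hw p]

noncomputable def Zc {Ω : Type} [Fintype Ω] (a : Ω → Perm Q) (w : Q → ℝ) : ℝ :=
  ∑ v : Q → C, wt w v * av fun ω => av fun ω' => ind (v ∘ a ω = v ∘ a ω')

def Bd {Ω : Type} [Fintype Ω] (a : Ω → Perm Q) (z : ℝ) : Prop :=
  ∀ w : Q → ℝ, (∀ p, 0 ≤ w p) → (∀ p, w p ≤ 1) → Zc C a w ≤ Real.exp (z * ∑ p, w p)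

lemma bd_base {Ω : Type} [Fintype Ω] [Nonempty Ω] (a : Ω → Perm Q) :
    Bd C a (Fintype.card C) := by
  intro w h0 _
  refine (sum_le_sum fun v _ => mul_le_of_le_one_right (wt_nonneg C h0 v)
    (av_le fun ω => av_le fun ω' => ind_le_one _)).trans ?_
  unfold wt
  rw [← Fintype.piFinset_univ, ← prod_univ_sum (fun _ => univ)
    (fun p (c : C) => if c = 0 then (1 : ℝ) else w p), mul_sum, Real.exp_sum]
  refine prod_le_prod (fun p _ => sum_nonneg fun c _ => by split_ifs; exacts [zero_le_one, h0 p])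
    fun p _ => le_trans ?_ (Real.add_one_le_exp _)
  have : ∀ c : C, (if c = 0 then (1 : ℝ) else w p) ≤ w p + if c = 0 then 1 else 0 := by
    intro c; have := h0 p; split_ifs <;> linarith
  refine (sum_le_sum fun c _ => this c).trans ?_
  simp [sum_add_distrib]

lemma inj_sum (γ : Perm Q) (U : Q → Prop) (w : Q → ℝ) (h0 : ∀ p, 0 ≤ w p) (h1 : ∀ p, w p ≤ 1)
    (s : Q → C) :
    ∑ v : Q → C, wt w v * ind ((∀ q, U q → v q = s q) ∧ ∀ q, ¬ U q → v (γ q) = v q) ≤
    ∑ v : Q → C, wt w v * ind ((∀ q, U q → v q = 0) ∧ ∀ q, v (γ q) = v q) := by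
  classical
  let R : Q → Prop := fun q => ∀ q', γ.SameCycle q q' → ¬ U q'
  let φ : (Q → C) → Q → C := fun v q => if R q then v q else 0
  simp only [ind_eq_ite, mul_ite, mul_one, mul_zero, ← sum_filter]
  have hinj : Set.InjOn φ (univ.filter fun v : Q → C =>
      (∀ q, U q → v q = s q) ∧ ∀ q, ¬ U q → v (γ q) = v q) := by
    intro v hv v' hv' h
    simp only [coe_filter, mem_univ, true_and, Set.mem_ofPred_eq] at hv hv'
    funext q
    by_contra hq
    have hn : ∀ n : ℕ, v ((γ ^ n) q) ≠ v' ((γ ^ n) q) := by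
      intro n
      induction n with
      | zero => simpa using hq
      | succ n ih =>
        have : ¬ U ((γ ^ n) q) := fun hU => ih ((hv.1 _ hU).trans (hv'.1 _ hU).symm)
        rw [pow_succ', Perm.mul_apply, hv.2 _ this, hv'.2 _ this]; exact ih
    have hR : R q := by
      intro q' hs hU
      obtain ⟨n, -, rfl⟩ := hs.exists_pow_eq'
      exact hn n ((hv.1 _ hU).trans (hv'.1 _ hU).symm)
    have := congrFun h q
    simp only [φ, if_pos hR] at this
    exact hq this
  refine le_trans (sum_le_sum (g := fun v => wt w (φ v)) fun v _ => ?_) ?_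
  · refine prod_le_prod (fun p _ => by split_ifs; exacts [zero_le_one, h0 p]) fun p _ => ?_
    have := h1 p
    by_cases hR : R p <;> simp only [φ, hR, if_true, if_false, le_refl]
    split_ifs <;> linarith
  rw [← sum_image hinj]
  refine sum_le_sum_of_subset_of_nonneg ?_ fun v _ _ => wt_nonneg C h0 v
  intro u hu
  obtain ⟨v, hv, rfl⟩ := mem_image.1 hu
  simp only [mem_filter, mem_univ, true_and] at hv ⊢
  refine ⟨fun q hU => if_neg fun hR => hR q (Perm.SameCycle.refl _ _) hU, fun q => ?_⟩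
  have : R (γ q) ↔ R q := by simp only [R, Perm.sameCycle_apply_left]
  by_cases hR : R q
  · simp only [φ, this, hR, if_true]
    exact hv.2 q (hR q (Perm.SameCycle.refl _ _))
  · simp only [φ, this, hR, if_false]

def mask {C : Type} [Zero C] (η : Q → Bool) (c : Bool) (f : Q → C) : Q → C :=
  fun p => if η p = c then f p else 0

noncomputable def rho {Ω : Type} [Fintype Ω] (a : Ω → Perm Q) (w : Q → ℝ) (η : Q → Bool)
    (s t : Q → C) : ℝ :=
  ∑ v : Q → C, wt w v * av fun ω => av fun ω' =>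
    ind (mask η false (v ∘ a ω) = mask η false (v ∘ a ω')) *
      (ind (mask η true (v ∘ a ω) = s) * ind (mask η true (v ∘ a ω') = t))

lemma rho_sq {Ω : Type} [Fintype Ω] (a : Ω → Perm Q) (w : Q → ℝ) (h0 : ∀ p, 0 ≤ w p)
    (h1 : ∀ p, w p ≤ 1) :
    av (fun η => ∑ s, ∑ t, rho C a w η s t ^ 2) ≤ Zc C a w * Zc C a (fun p => w p / 2) := by
  have r0 : ∀ η s t, 0 ≤ rho C a w η s t := fun η s t => sum_nonneg fun v _ =>
    mul_nonneg (wt_nonneg C h0 v) (av_nonneg fun _ => av_nonneg fun _ =>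
      mul_nonneg (ind_nonneg _) (mul_nonneg (ind_nonneg _) (ind_nonneg _)))
  have r1 : ∀ η s t, rho C a w η s t ≤ (rho C a w η s s + rho C a w η t t) / 2 := by
    intro η s t
    unfold rho
    rw [← sum_add_distrib, sum_div]
    refine sum_le_sum fun v _ => ?_
    have := mul_le_mul_of_nonneg_left (psd (fun ω => mask η false (v ∘ a ω))
      (fun ω => mask η false (v ∘ a ω)) (fun ω => ind (mask η true (v ∘ a ω) = s))
      (fun ω => ind (mask η true (v ∘ a ω) = t))) (wt_nonneg C h0 v)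
    linarith
  have r2 : ∀ η, ∑ s, rho C a w η s s = Zc C a w := by
    intro η
    unfold rho Zc
    rw [sum_comm]
    refine sum_congr rfl fun v _ => ?_
    simp only [← mul_sum, ← av_sum]
    congr 1
    refine av_congr fun ω => av_congr fun ω' => ?_
    rw [sum_ind_eq, ← ind_and]
    refine ind_congr ⟨fun h => funext fun p => ?_, fun h => by rw [h]; exact ⟨rfl, rfl⟩⟩
    have h1 := congrFun h.1 p
    have h2 := congrFun h.2 p
    cases hp : η p <;> simp_all [mask]
  have r5 : ∀ η s t, rho C a w η s t = rho C a w η t s := by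
    intro η s t
    unfold rho
    refine sum_congr rfl fun v _ => ?_
    rw [av_comm]
    congr 1
    exact av_congr fun ω => av_congr fun ω' => by rw [ind_congr eq_comm, mul_comm (ind (_ = s))]
  obtain ⟨RS, hRS⟩ : ∃ RS : (Q → Bool) → ℝ, ∀ η, RS η = ∑ v : Q → C, wt w v *
    av fun ω => av fun ω' => ind (v ∘ a ω = v ∘ a ω') * ind (∀ q, η ((a ω)⁻¹ q) = true → v q = 0) :=
    ⟨_, fun _ => rfl⟩
  have r3 : ∀ η s, ∑ t, rho C a w η s t ≤ RS η := by
    intro η s
    rw [hRS]
    unfold rho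
    rw [sum_comm]
    simp only [← mul_sum, ← av_sum, ← av_mul_left]
    refine av_mono fun ω => av_mono fun ω' => ?_
    refine le_trans (sum_le_sum fun v _ => ?_) ((inj_sum C (a ω' * (a ω)⁻¹)
      (fun q => η ((a ω)⁻¹ q) = true) w h0 h1 (fun q => s ((a ω)⁻¹ q))).trans
      (sum_le_sum fun v _ => ?_))
    · refine mul_le_mul_of_nonneg_left ?_ (wt_nonneg C h0 v)
      have := sum_ind_eq (mask η true (v ∘ a ω')) (fun _ => 1)
      simp only [mul_one] at this
      rw [this, mul_one, ← ind_and]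
      refine ind_mono fun h => ⟨fun q hq => ?_, fun q hq => ?_⟩
      · have := congrFun h.2 ((a ω)⁻¹ q)
        simp only [mask, if_pos hq] at this
        simpa using this
      · have := congrFun h.1 ((a ω)⁻¹ q)
        simp only [Bool.not_eq_true] at hq
        simp only [mask, if_pos hq] at this
        simpa using this.symm
    · refine mul_le_mul_of_nonneg_left ?_ (wt_nonneg C h0 v)
      rw [← ind_and]
      refine ind_mono fun h => ⟨funext fun p => ?_, h.1⟩
      simpa using (h.2 (a ω p)).symm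
  have r4 : av RS = Zc C a (fun p => w p / 2) := by
    rw [funext hRS, av_sum]
    refine sum_congr rfl fun v _ => ?_
    rw [av_mul_left, av_comm, ← av_mul_left, ← av_mul_left]
    refine av_congr fun ω => ?_
    rw [av_comm, ← av_mul_left, ← av_mul_left]
    refine av_congr fun ω' => ?_
    rw [av_mul_left, mul_left_comm, mul_comm]
    congr 1
    have e : ∀ η : Q → Bool, ind (∀ q, η ((a ω)⁻¹ q) = true → v q = 0) =
        ∏ p, ind (η p = true → v (a ω p) = 0) := by
      intro η
      rw [← ind_forall]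
      exact ind_congr ⟨fun h p hp => h _ (by simpa using hp), fun h q hq => by simpa using h _ hq⟩
    rw [funext e, av_pi (fun p c => ind (c = true → v (a ω p) = 0)),
      (a ω).prod_comp univ (fun q => av fun c => ind (c = true → v q = 0)) (by simp)]
    unfold wt
    rw [← prod_mul_distrib]
    refine prod_congr rfl fun p _ => ?_
    by_cases h : v p = 0 <;> simp [av_bool, ind_eq_ite, h, div_eq_mul_inv]
    norm_num
  rw [← r4, ← av_mul_left]
  refine av_mono fun η => ?_
  have h2 : ∑ s, ∑ t, rho C a w η s t ^ 2 ≤ ∑ s, ∑ t, (rho C a w η s t * rho C a w η s s / 2 +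
      rho C a w η t s * rho C a w η t t / 2) :=
    sum_le_sum fun s _ => sum_le_sum fun t _ => by
      rw [r5 η t s]; nlinarith [r0 η s t, r1 η s t]
  simp only [sum_add_distrib] at h2
  rw [sum_comm (f := fun s t => rho C a w η t s * rho C a w η t t / 2)] at h2
  have h3 : ∑ s, ∑ t, rho C a w η s t * rho C a w η s s / 2 ≤ Zc C a w * RS η / 2 := by
    rw [← r2 η, sum_mul, sum_div]
    refine sum_le_sum fun s _ => ?_
    rw [← sum_div, ← sum_mul, mul_comm]
    have := mul_le_mul_of_nonneg_left (r3 η s) (r0 η s s)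
    linarith
  linarith

lemma sum_comm4 {A B D E : Type} [Fintype A] [Fintype B] [Fintype D] [Fintype E]
    (F : A → B → D → E → ℝ) :
    ∑ a, ∑ b, ∑ c, ∑ d, F a b c d = ∑ c, ∑ d, ∑ a, ∑ b, F a b c d := by
  have := sum_comm (s := univ) (t := univ) (f := fun (x : A × B) (y : D × E) => F x.1 x.2 y.1 y.2)
  simpa only [Fintype.sum_prod_type] using this

def xorE (ε : Q → Bool) : (Q → Bool) ≃ (Q → Bool) where
  toFun := fun η u => xor (ε u) (η u)
  invFun := fun η u => xor (ε u) (η u)
  left_inv := fun η => by ext u; simp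
  right_inv := fun η => by ext u; simp

lemma bd_step {Ω0 Ω1 : Type} [Fintype Ω0] [Fintype Ω1] (α : Ω0 → Perm Q) (β : Ω1 → Perm Q)
    (z : ℝ) (hα : Bd C α z) (hβ : Bd C β z) :
    Bd C (fun ω : (Q → Bool) × Ω0 × Ω1 => osum (α ω.2.1) (β ω.2.2) * sw ω.1) (3 / 4 * z) := by
  intro w h0 h1
  let e : (Q → C) × (Q → C) ≃ (Q × Bool → C) :=
    { toFun := fun v x => cond x.2 v.2 v.1 x.1
      invFun := fun v => (fun u => v (u, false), fun u => v (u, true))
      left_inv := fun v => rfl
      right_inv := fun v => funext fun ⟨u, c⟩ => by cases c <;> rfl }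
  let w0 : Q → ℝ := fun u => w (u, false)
  let w1 : Q → ℝ := fun u => w (u, true)
  have key : Zc C (fun ω : (Q → Bool) × Ω0 × Ω1 => osum (α ω.2.1) (β ω.2.2) * sw ω.1) w ≤
      av fun η => ∑ s, ∑ t, rho C α w0 η s t * rho C β w1 η t s := by
    unfold Zc rho
    rw [← e.sum_comp, Fintype.sum_prod_type]
    simp only [sum_mul_sum]
    rw [av_congr (fun η => sum_comm4 _), av_sum]
    refine sum_le_sum fun v0 _ => ?_
    rw [av_sum]
    refine sum_le_sum fun v1 _ => ?_
    have hw : wt w (e (v0, v1)) = wt w0 v0 * wt w1 v1 := by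
      simp only [wt, Fintype.prod_prod_type, Fintype.prod_bool, prod_mul_distrib, e, w0, w1,
        Equiv.coe_fn_mk, cond_true, cond_false, mul_comm]
    simp only [fun x y : ℝ => mul_mul_mul_comm (wt w0 v0) x (wt w1 v1) y]
    simp only [← mul_sum, av_mul_left]
    rw [hw]
    refine mul_le_mul_of_nonneg_left ?_
      (mul_nonneg (wt_nonneg C (fun _ => h0 _) _) (wt_nonneg C (fun _ => h0 _) _))
    simp only [av_prod]
    refine av_le fun ε => ?_
    rw [av_congr (fun a => av_comm _), av_comm, ← av_equiv (xorE ε) (fun η => ∑ s, ∑ t, _)]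
    refine av_mono fun ε' => ?_
    simp only [← av_mul_right]
    simp only [← av_mul_left, ← av_sum]
    refine av_mono fun a => ?_
    rw [av_comm]
    refine av_mono fun a' => av_mono fun b => av_mono fun b' => ?_
    by_cases h : e (v0, v1) ∘ ⇑(osum (α a) (β b) * sw ε) = e (v0, v1) ∘ ⇑(osum (α a') (β b') * sw ε')
    swap
    · rw [ind_neg h]
      exact sum_nonneg fun s _ => sum_nonneg fun t _ => mul_nonneg
        (mul_nonneg (ind_nonneg _) (mul_nonneg (ind_nonneg _) (ind_nonneg _)))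
        (mul_nonneg (ind_nonneg _) (mul_nonneg (ind_nonneg _) (ind_nonneg _)))
    have k : ∀ u, (xorE ε ε' u = false → v0 (α a u) = v0 (α a' u) ∧ v1 (β b u) = v1 (β b' u)) ∧
        (xorE ε ε' u = true → v0 (α a u) = v1 (β b' u) ∧ v1 (β b u) = v0 (α a' u)) := by
      intro u
      have k0 := congrFun h (u, false)
      have k1 := congrFun h (u, true)
      simp only [xorE, Equiv.coe_fn_mk]
      cases h1 : ε u <;> cases h2 : ε' u <;> simp_all [e]
    have m1 : mask (xorE ε ε') false (v0 ∘ α a) = mask (xorE ε ε') false (v0 ∘ α a') :=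
      funext fun u => by by_cases hu : xorE ε ε' u = false <;> simp [mask, hu, (k u).1]
    have m2 : mask (xorE ε ε') false (v1 ∘ β b) = mask (xorE ε ε') false (v1 ∘ β b') :=
      funext fun u => by by_cases hu : xorE ε ε' u = false <;> simp [mask, hu, (k u).1]
    have m3 : mask (xorE ε ε') true (v0 ∘ α a) = mask (xorE ε ε') true (v1 ∘ β b') :=
      funext fun u => by by_cases hu : xorE ε ε' u = true <;> simp [mask, hu, (k u).2]
    have m4 : mask (xorE ε ε') true (v1 ∘ β b) = mask (xorE ε ε') true (v0 ∘ α a') :=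
      funext fun u => by by_cases hu : xorE ε ε' u = true <;> simp [mask, hu, (k u).2]
    rw [ind_pos h, ind_pos m1, ind_pos m2, m3, m4]
    classical
    simp [ind_eq_ite]
  refine key.trans ?_
  have hz : ∀ {Ω : Type} [Fintype Ω] (a : Ω → Perm Q) (w : Q → ℝ), Bd C a z → (∀ p, 0 ≤ w p) →
      (∀ p, w p ≤ 1) → av (fun η => ∑ s, ∑ t, rho C a w η s t ^ 2) ≤
        Real.exp (3 / 4 * z * ∑ p, w p) ^ 2 := by
    intro Ω _ a w ha h0 h1
    refine (rho_sq C a w h0 h1).trans ?_
    have e1 := ha w h0 h1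
    have e2 := ha (fun p => w p / 2) (fun p => by have := h0 p; linarith)
      (fun p => by have := h1 p; linarith)
    have e3 : 0 ≤ Zc C a (fun p => w p / 2) := sum_nonneg fun v _ => mul_nonneg
      (wt_nonneg C (fun p => by have := h0 p; linarith) _)
      (av_nonneg fun _ => av_nonneg fun _ => ind_nonneg _)
    refine (mul_le_mul e1 e2 e3 (Real.exp_pos _).le).trans (le_of_eq ?_)
    rw [← Real.exp_add, sq, ← Real.exp_add, ← sum_div]; congr 1; ring
  have a0 := hz α w0 hα (fun _ => h0 _) (fun _ => h1 _)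
  have a1 := hz β w1 hβ (fun _ => h0 _) (fun _ => h1 _)
  have hs : ∑ p, w p = ∑ u, w0 u + ∑ u, w1 u := by
    simp only [Fintype.sum_prod_type, Fintype.sum_bool, sum_add_distrib, w0, w1, add_comm]
  rw [hs, mul_add, Real.exp_add]
  have pA := Real.exp_pos (3 / 4 * z * ∑ p, w0 p)
  have pB := Real.exp_pos (3 / 4 * z * ∑ p, w1 p)
  generalize Real.exp (3 / 4 * z * ∑ p, w0 p) = A at *
  generalize Real.exp (3 / 4 * z * ∑ p, w1 p) = B at *
  have : av (fun η => ∑ s, ∑ t, rho C α w0 η s t * rho C β w1 η t s) ≤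
      av (fun η => B / A / 2 * (∑ s, ∑ t, rho C α w0 η s t ^ 2) +
        A / B / 2 * (∑ s, ∑ t, rho C β w1 η s t ^ 2)) := by
    refine av_mono fun η => ?_
    rw [sum_comm (f := fun s t => rho C β w1 η s t ^ 2)]
    simp only [mul_sum, ← sum_add_distrib]
    refine sum_le_sum fun s _ => sum_le_sum fun t _ => ?_
    generalize rho C α w0 η s t = x
    generalize rho C β w1 η t s = y
    have : B / A / 2 * x ^ 2 + A / B / 2 * y ^ 2 - x * y = (B * x - A * y) ^ 2 / (2 * A * B) := by
      field_simp; ring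
    have h2 : 0 ≤ (B * x - A * y) ^ 2 / (2 * A * B) := by positivity
    linarith
  refine this.trans ?_
  rw [av_add, av_mul_left, av_mul_left]
  have : B / A / 2 * A ^ 2 + A / B / 2 * B ^ 2 = A * B := by field_simp; ring
  rw [← this]
  gcongr

end Vale.Agent.P162
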