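import Mathlib

namespace Vale.Agent.P162

/-- `σ` is the permutation of positions (numbered from 0) made by one Thorp shuffle of `n` cards
with coins `c`: the cards in positions `i` and `n/2 + i` go to positions `2i` and `2i + 1`,
in the order chosen by the coin `c i`. -/
def IsThorp (n : ℕ) (c : Fin (n / 2) → Bool) (σ : Equiv.Perm (Fin n)) : Prop :=
  ∀ (i : Fin (n / 2)) (p : Fin n),
    (p.val = i.val → (σ p).val = 2 * i.val + (if c i then 1 else 0)) ∧
    (p.val = n / 2 + i.val → (σ p).val = 2 * i.val + (if c i then 0 else 1))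

/-- the law of one Thorp shuffle: the `n/2` coins are fair and independent -/
noncomputable def thorpLaw (n : ℕ) (σ : Equiv.Perm (Fin n)) : ℝ :=
  (Nat.card {c : Fin (n / 2) → Bool // IsThorp n c σ} : ℝ) / 2 ^ (n / 2)

/-- convolution on a finite group -/
noncomputable def conv {G : Type} [Group G] [Fintype G] (μ ν : G → ℝ) (g : G) : ℝ :=
  ∑ h : G, μ (g * h⁻¹) * ν h

/-- convolution powers -/
noncomputable def convPow {G : Type} [Group G] [Fintype G] [DecidableEq G] (μ : G → ℝ) :
    ℕ → G → ℝ
  | 0 => fun g => if g = 1 then 1 else 0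
  | t + 1 => conv (convPow μ t) μ

/-- total variation distance -/
noncomputable def tvDist {G : Type} [Fintype G] (μ ν : G → ℝ) : ℝ := (1 / 2) * ∑ g : G, |μ g - ν g|

/-- uniform law -/
noncomputable def unif (G : Type) [Fintype G] : G → ℝ := fun _ => 1 / (Fintype.card G : ℝ)

/-- the times at which the Thorp shuffle of `n` cards is within 1/4 of uniform -/
def mixedTimes (n : ℕ) : Set ℕ :=
  {t | tvDist (convPow (thorpLaw n) t) (unif (Equiv.Perm (Fin n))) ≤ 1 / 4}

/-- the mixing time -/
noncomputable def tmix (n : ℕ) : ℕ := sInf (mixedTimes n)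

end Vale.Agent.P162
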