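import Vale.Agent.P162.Tree

namespace Vale.Agent.P162

open Finset Matrix Equiv

lemma bf_default (d : ℕ) : bf d default = 1 := by
  induction d with
  | zero => rfl
  | succ d ih =>
    change (osum (bf d default) (bf d default) * sw (fun _ => false) : Perm (Pos d × Bool)) = 1
    rw [ih, osum_one]; ext ⟨u, c⟩ <;> simp

lemma sw_false {Q : Type} : sw (fun _ : Q => false) = 1 := by ext ⟨u, c⟩ <;> simp

lemma swap_L {Q : Type} [DecidableEq Q] (u v : Q) :
    Equiv.swap (u, false) (v, false) = osumL (Equiv.swap u v) := by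
  ext1 ⟨x, c⟩
  change _ = osum _ _ _
  cases c <;> simp [swap_apply_def]
  split_ifs <;> rfl

lemma swap_R {Q : Type} [DecidableEq Q] (u v : Q) :
    Equiv.swap (u, true) (v, true) = osumR (Equiv.swap u v) := by
  ext1 ⟨x, c⟩
  change _ = osum _ _ _
  cases c <;> simp [swap_apply_def]
  split_ifs <;> rfl

lemma bf_gen (d : ℕ) (H : Subgroup (Perm (Pos d))) (h : ∀ a, bf d a ∈ H) : H = ⊤ := by
  induction d with
  | zero => exact eq_top_iff.2 fun g _ => by rw [Subsingleton.elim g 1]; exact H.one_mem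
  | succ d ih =>
    have e : ∀ ε a b, bf (d + 1) (ε, a, b) = osumL (bf d a) * osumR (bf d b) * sw ε :=
      fun ε a b => congrArg (· * sw ε) (osum_LR _ _)
    have hL : ∀ α, osumL α ∈ H := fun α => (ih (H.comap osumL) (fun a => by
      have := h (fun _ => false, a, default)
      rw [e, bf_default, map_one, sw_false, mul_one, mul_one] at this
      exact this)).ge (Subgroup.mem_top α)
    have hR : ∀ α, osumR α ∈ H := fun α => (ih (H.comap osumR) (fun a => by
      have := h (fun _ => false, default, a)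
      rw [e, bf_default, map_one, sw_false, mul_one, one_mul] at this
      exact this)).ge (Subgroup.mem_top α)
    have hS : ∀ u v : Pos d, Equiv.swap (u, false) (v, true) ∈ H := by
      intro u v
      have := h (fun x => decide (x = u), default, default)
      rw [e, bf_default, map_one, map_one, one_mul, one_mul] at this
      have e2 : sw (fun x => decide (x = u)) = Equiv.swap (u, false) (u, true) := by
        ext1 ⟨x, c⟩
        by_cases hx : x = u <;> cases c <;> simp [swap_apply_def, hx]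
      have k := H.mul_mem (H.mul_mem (hR (Equiv.swap u v)) this) (H.inv_mem (hR (Equiv.swap u v)))
      rw [e2, ← Equiv.swap_apply_apply] at k
      convert k using 2
      · rfl
      · change _ = osum _ _ _; simp
    rw [eq_top_iff, ← Perm.closure_isSwap, Subgroup.closure_le]
    rintro _ ⟨⟨u, c⟩, ⟨v, c'⟩, -, rfl⟩
    cases c <;> cases c'
    · exact swap_L u v ▸ hL _
    · exact hS u v
    · exact Equiv.swap_comm (v, false) (u, true) ▸ hS v u
    · exact swap_R u v ▸ hR _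

lemma le_card_av {α : Type} [Fintype α] (f : α → ℝ) (h : ∀ x, 0 ≤ f x) (x : α) :
    f x ≤ Fintype.card α * av f := by
  have : (0 : ℝ) < Fintype.card α := by exact_mod_cast Fintype.card_pos_iff.2 ⟨x⟩
  rw [av, mul_div_cancel₀ _ this.ne']
  exact single_le_sum (fun x _ => h x) (mem_univ x)

variable (j : ℕ) {Γ : Type} [Fintype Γ] [DecidableEq Γ] [Group Γ]

omit [DecidableEq Γ] [Fintype Γ] in
lemma Kl_false (ψ : Perm (Pos j) →* Γ) : Kl j false ψ = avM fun h => Lm (ψ h) := by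
  ext π σ
  simp only [Kl, avM, of_apply, av_prod, net, inp, Bool.false_eq_true, if_false, av_const]
  rw [av_comm]
  exact (av_congr fun a => av_mul_group _ (fun h => Lm (ψ h) π σ)).trans (av_const _)

omit [DecidableEq Γ] [Fintype Γ] in
lemma Kl_true (ψ : Perm (Pos j) →* Γ) :
    Kl j true ψ = avM fun b => avM fun a => Lm (ψ ((bf j a)⁻¹ * bf j b)) := by
  ext π σ
  simp only [Kl, avM, of_apply, av_prod, net, inp, if_true, av_const]
  rfl

omit [DecidableEq Γ] in
lemma Kl_Cm (b : Bool) : Cm j (Kl (Γ := Γ) j b) := fun _ _ h => comm_avM fun _ => comm_avM fun _ => h _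

omit [DecidableEq Γ] in
lemma U_psd {H Ω : Type} [Fintype H] [Group H] [Fintype Ω] [Nonempty Ω] (ψ : H →* Γ) (a : Ω → H)
    (U X : Matrix Γ Γ ℝ) (hU : U = avM fun h => Lm (ψ h)) (hX : X = avM fun ω => Lm (ψ (a ω))) :
    Uᵀ = U ∧ U * U = U ∧ (X - U)ᵀ * (X - U) = Xᵀ * X - U := by
  have l1 : ∀ g, Lm (ψ g) * U = U := fun g => by
    rw [hU, mul_avM]; simp only [Lm_mul, ← map_mul]
    ext π σ; exact av_mul_group g (fun h => Lm (ψ h) π σ)
  have l2 : ∀ g, U * Lm (ψ g) = U := fun g => by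
    rw [hU, avM_mul]; simp only [Lm_mul, ← map_mul]
    ext π σ; exact av_mul_group' g (fun h => Lm (ψ h) π σ)
  have l3 : Uᵀ = U := by
    rw [hU, avM_T]; simp only [Lm_T, ← map_inv]
    ext π σ; exact av_equiv (Equiv.inv H) (fun h => Lm (ψ h) π σ)
  have l4 : U * U = U := by
    conv_lhs => arg 1; rw [hU]
    rw [avM_mul]; simp only [l1, avM_const]
  have l5 : U * X = U := by rw [hX, mul_avM]; simp only [l2, avM_const]
  have l6 : Xᵀ * U = U := by rw [← l3, ← transpose_mul, l3, l5, l3]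
  refine ⟨l3, l4, ?_⟩
  rw [transpose_sub, l3, sub_mul, mul_sub, mul_sub, l4, l5, l6]; simp

omit [DecidableEq Γ] in
lemma Kl_psd (ψ : Perm (Pos j) →* Γ) :
    (Kl j false ψ).PosSemidef ∧ (Kl j true ψ - Kl j false ψ).PosSemidef := by
  obtain ⟨a, b, c⟩ := U_psd ψ (bf j) _ _ (Kl_false j ψ) rfl
  refine ⟨?_, ?_⟩
  · have := posSemidef_conjTranspose_mul_self (Kl j false ψ)
    rwa [show (Kl j false ψ)ᴴ = _ from a, b] at this
  · have := posSemidef_conjTranspose_mul_self (avM (fun ω => Lm (ψ (bf j ω))) - Kl j false ψ)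
    rw [conjTranspose_eq_transpose_of_trivial, c, mul_avM, avM_T] at this
    simp only [avM_mul, Lm_T, Lm_mul, ← map_inv, ← map_mul] at this
    rwa [Kl_true]

lemma gap : ∃ β : ℝ, 0 < β ∧ β < 1 ∧ ∀ (d : ℕ) (ψ : Perm (Pos j) →* Perm (Pos d)),
    (1 - (Kl j false ψ + β⁻¹ • (Kl j true ψ - Kl j false ψ))).PosSemidef := by
  let dd : ∀ {d : ℕ}, Perm (Pos d) → (Perm (Pos d) → ℝ) → ℝ := fun g f => f ⬝ᵥ f - f ⬝ᵥ Lm g *ᵥ f
  have d0 : ∀ {d : ℕ} (g : Perm (Pos d)) f, 0 ≤ dd g f := fun g f => sub_nonneg.2 (dot_Lm_le g f)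
  have q0 : ∀ d (ψ : Perm (Pos j) →* Perm (Pos d)) f, f ⬝ᵥ f - f ⬝ᵥ Kl j true ψ *ᵥ f =
      av fun b => av fun a => dd (ψ ((bf j a)⁻¹ * bf j b)) f := fun d ψ f => by
    simp only [Kl_true, dot_avM, dd, av_sub, av_const]
  let H : Subgroup (Perm (Pos j)) :=
    { carrier := {h | ∃ C : ℝ, 0 ≤ C ∧ ∀ d (ψ : Perm (Pos j) →* Perm (Pos d)) f,
        dd (ψ h) f ≤ C * (f ⬝ᵥ f - f ⬝ᵥ Kl j true ψ *ᵥ f)}
      one_mem' := ⟨0, le_rfl, fun d ψ f => by simp [dd, Lm_one]⟩
      inv_mem' := by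
        rintro h ⟨C, h1, h2⟩
        refine ⟨C, h1, fun d ψ f => le_trans (le_of_eq ?_) (h2 d ψ f)⟩
        simp only [dd, map_inv, ← Lm_T, mulVec_transpose]
        rw [dotProduct_mulVec, dotProduct_comm (_ ᵥ* _)]
      mul_mem' := by
        rintro g h ⟨C, h1, h2⟩ ⟨C', h1', h2'⟩
        refine ⟨2 * C + 2 * C', by positivity, fun d ψ f => ?_⟩
        have a1 := h2 d ψ f
        have a2 := h2' d ψ f
        have a3 := dot_nonneg (f - (2 : ℝ) • Lm (ψ g) *ᵥ f + Lm (ψ g) *ᵥ Lm (ψ h) *ᵥ f)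
        have a4 := Lm_dot (ψ g) f
        have a5 := Lm_dot (ψ g) (Lm (ψ h) *ᵥ f)
        have a6 := Lm_dot (ψ h) f
        have a7 : Lm (ψ g) *ᵥ f ⬝ᵥ Lm (ψ g) *ᵥ Lm (ψ h) *ᵥ f = f ⬝ᵥ Lm (ψ h) *ᵥ f := by
          simp only [dotProduct, Lm_mulVec (ψ g)]
          exact Equiv.sum_comp (Equiv.mulLeft (ψ g)⁻¹) (fun x => f x * (Lm (ψ h) *ᵥ f) x)
        simp only [dd, map_mul, ← Lm_mul, ← mulVec_mulVec] at a1 a2 ⊢
        generalize Lm (ψ g) *ᵥ Lm (ψ h) *ᵥ f = z at *
        generalize Lm (ψ g) *ᵥ f = y at *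
        simp only [add_dotProduct, dotProduct_add, sub_dotProduct, dotProduct_sub, smul_dotProduct,
          dotProduct_smul, smul_eq_mul, dotProduct_comm y f, dotProduct_comm z] at a3 a5
        linarith }
  have hH := bf_gen j H fun a => ⟨Fintype.card (Bf j) * Fintype.card (Bf j), by positivity,
    fun d ψ f => by
      have a1 := le_card_av _ (fun b => d0 (ψ ((bf j b)⁻¹ * bf j a)) f) default
      have a2 := le_card_av _ (fun a => av_nonneg fun b => d0 (ψ ((bf j b)⁻¹ * bf j a)) f) a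
      rw [bf_default, inv_one, one_mul] at a1
      rw [q0, mul_assoc]
      exact a1.trans (mul_le_mul_of_nonneg_left a2 (by positivity))⟩
  choose C C0 hC using fun h => (hH.ge (Subgroup.mem_top h) : h ∈ H)
  have c0 := av_nonneg C0
  refine ⟨(av C + 1) / (av C + 2), by positivity, by rw [div_lt_one (by positivity)]; linarith,
    fun d ψ => ?_⟩
  obtain ⟨p1, p2⟩ := Kl_psd j ψ
  refine PosSemidef.of_dotProduct_mulVec_nonneg (isHermitian_one.sub (p1.add
    (p2.smul (by positivity))).1) fun f => ?_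
  have a1 := av_mono fun h => hC h d ψ f
  have a2 : 0 ≤ f ⬝ᵥ f - f ⬝ᵥ Kl j true ψ *ᵥ f := q0 d ψ f ▸ av_nonneg fun _ => av_nonneg fun _ => d0 _ _
  simp only [dd, av_sub, av_const, av_mul_right, ← dot_avM, ← Kl_false] at a1
  simp only [star_trivial, sub_mulVec, add_mulVec, smul_mulVec, one_mulVec, dotProduct_sub,
    dotProduct_add, dotProduct_smul, smul_eq_mul, inv_div]
  rw [sub_nonneg, ← le_sub_iff_add_le', div_mul_eq_mul_div, div_le_iff₀ (by positivity)]
  nlinarith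

lemma decomp : ∃ β : ℝ, 0 < β ∧ β < 1 ∧ ∀ (t r : ℕ) (f : Perm (Pos (j + t)) → ℝ),
    f ⬝ᵥ KT j t (fun _ => true) *ᵥ f ≤ β ^ r * f ⬝ᵥ f +
      ∑ T ∈ univ.filter (fun T : Pos t → Bool => cnt T true < r), f ⬝ᵥ KT j t T *ᵥ f := by
  obtain ⟨β, b0, b1, hβ⟩ := gap j
  refine ⟨β, b0, b1, fun t r f => ?_⟩
  let m : Bool → (Perm (Pos j) →* Perm (Pos (j + t))) → Matrix _ _ ℝ := fun b ψ =>
    cond b (Kl j true ψ - Kl j false ψ) (Kl j false ψ)
  have cm : ∀ b, Cm j (m b) := fun b ψ M h => by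
    cases b
    · exact Kl_Cm j _ ψ M h
    · exact (Kl_Cm j _ ψ M h).sub_right (Kl_Cm j _ ψ M h)
  have hD := fun T : Pos t → Bool => TM_mono j t (MonoidHom.id _) (fun x => m (T x))
    (fun x => Kl j (T x)) (fun _ => cm _) (fun _ => Kl_Cm j _) fun x ψ => by
      cases T x
      · simpa [m] using ⟨(Kl_psd j ψ).1, PosSemidef.zero⟩
      · simpa [m] using ⟨(Kl_psd j ψ).2, (Kl_psd j ψ).1⟩
  have e1 := TM_expand j (fun _ => 1) m t (MonoidHom.id _)
  have e2 := TM_expand j (fun b => cond b β⁻¹ 1) m t (MonoidHom.id _)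
  have k1 := (TM_mono j t (MonoidHom.id _) (fun _ ψ => ∑ b, cond b β⁻¹ 1 • m b ψ) (fun _ _ => 1)
    (fun _ ψ M h => Commute.sum_right _ _ _ fun b _ => (cm b ψ M h).smul_right _)
    (fun _ _ _ _ => Commute.one_right _) fun _ ψ => by
      have := hβ _ ψ
      rw [add_comm (Kl j false ψ)] at this
      simpa [m] using ⟨((Kl_psd j ψ).2.smul (by positivity)).add (Kl_psd j ψ).1, this⟩).2
  have k2 := ((TM_one j t (MonoidHom.id _)).add k1).dotProduct_mulVec_nonneg f
  have e3 : ∀ T, KT j t T = TM j t (MonoidHom.id _) fun x => Kl j (T x) :=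
    fun T => KF_TM j t (MonoidHom.id _) T
  have e4 : ∀ T : Pos t → Bool, ∏ x, cond (T x) β⁻¹ 1 = β⁻¹ ^ cnt T true := fun T => by
    rw [cnt, ← prod_const, prod_filter]
    exact prod_congr rfl fun x _ => by cases T x <;> simp
  rw [sub_add_sub_cancel, e2] at k2
  simp only [m, Fintype.sum_bool, one_smul, cond_true, cond_false, sub_add_cancel,
    prod_const_one] at e1
  simp only [star_trivial, sub_mulVec, one_mulVec, dotProduct_sub, sum_mulVec, dotProduct_sum,
    smul_mulVec, dotProduct_smul, smul_eq_mul, e4, sub_nonneg] at k2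
  rw [e3, e1, sum_mulVec, dotProduct_sum, sum_filter]
  refine le_trans ?_ (add_le_add_left (mul_le_mul_of_nonneg_left k2 (by positivity)) _)
  rw [mul_sum, ← sum_add_distrib]
  refine sum_le_sum fun T _ => ?_
  have a1 := (hD T).1.dotProduct_mulVec_nonneg f
  have a2 := (hD T).2.dotProduct_mulVec_nonneg f
  simp only [star_trivial, sub_mulVec, dotProduct_sub, ← e3] at a1 a2
  split_ifs with h
  · have := mul_nonneg (pow_pos b0 r).le (mul_nonneg (pow_pos (inv_pos.2 b0) (cnt T true)).le a1)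
    linarith
  · rw [add_zero, ← mul_assoc]
    refine le_mul_of_one_le_left a1 ?_
    rw [inv_pow, ← div_eq_mul_inv, one_le_div (by positivity)]
    exact pow_le_pow_of_le_one b0.le b1.le (not_lt.1 h)

end Vale.Agent.P162
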