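import Vale.Agent.P162.Ops

namespace Vale.Agent.P162

open Finset Matrix Equiv

lemma abs_dot_le {n : Type} [Fintype n] (a b : n → ℝ) : |a ⬝ᵥ b| ≤ (a ⬝ᵥ a + b ⬝ᵥ b) / 2 := by
  have h1 := dot_nonneg (a - b)
  have h2 := dot_nonneg (a + b)
  simp only [sub_dotProduct, dotProduct_sub, add_dotProduct, dotProduct_add,
    dotProduct_comm b a] at h1 h2
  rw [abs_le]; constructor <;> linarith

lemma bessel {n C : Type} [Fintype n] [Fintype C] (w : C → n → ℝ) (G : C → C → ℝ) (ρ : ℝ)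
    (hρ : 0 < ρ) (h : ∀ c c', |w c ⬝ᵥ w c'| ≤ G c c') (h1 : ∀ c, ∑ c', G c c' ≤ ρ)
    (h2 : ∀ c c', G c c' = G c' c) (y : n → ℝ) : ∑ c, (y ⬝ᵥ w c) ^ 2 ≤ ρ * y ⬝ᵥ y := by
  obtain ⟨a, ha⟩ : ∃ a : C → ℝ, ∀ c, a c = y ⬝ᵥ w c := ⟨_, fun _ => rfl⟩
  simp only [← ha]
  have k := dot_nonneg (ρ • y - ∑ c, a c • w c)
  have e1 : y ⬝ᵥ ∑ c, a c • w c = ∑ c, a c ^ 2 := by
    simp only [dotProduct_sum, dotProduct_smul, ← ha, smul_eq_mul, sq]
  have e2 : (∑ c, a c • w c) ⬝ᵥ (∑ c, a c • w c) ≤ ρ * ∑ c, a c ^ 2 := by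
    simp only [sum_dotProduct, dotProduct_sum, dotProduct_smul, smul_dotProduct, smul_eq_mul]
    rw [sum_congr rfl fun c _ => mul_sum _ _ _]
    have : ∀ c c', a c * (a c' * w c' ⬝ᵥ w c) ≤ a c ^ 2 / 2 * G c c' + a c' ^ 2 / 2 * G c' c := by
      intro c c'
      have := abs_le.1 (h c' c)
      rw [h2 c c']
      nlinarith [mul_nonneg (sq_nonneg (a c - a c')) (sub_nonneg.2 this.1),
        mul_nonneg (sq_nonneg (a c + a c')) (sub_nonneg.2 this.2)]
    refine (sum_le_sum fun c _ => sum_le_sum fun c' _ => this c c').trans ?_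
    simp only [sum_add_distrib]
    rw [sum_comm (f := fun c c' => a c' ^ 2 / 2 * G c' c), ← sum_add_distrib, mul_sum]
    refine sum_le_sum fun c _ => ?_
    rw [← mul_sum]
    nlinarith [mul_le_mul_of_nonneg_left (h1 c) (sq_nonneg (a c))]
  simp only [sub_dotProduct, dotProduct_sub, smul_dotProduct, dotProduct_smul, smul_eq_mul,
    dotProduct_comm _ y, e1] at k
  refine le_of_mul_le_mul_left ?_ hρ
  nlinarith

variable {Q ι : Type} [Fintype Q] [DecidableEq Q] [DecidableEq ι]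

lemma gram (γ : Q → ι) (big : Q → Prop) [DecidablePred big] (v : Perm Q → ℝ) (κ : ℝ) (hκ : 0 < κ)
    (inv : ∀ x y, big x → big y → γ x = γ y → Rt (swap x y) v = v)
    (rel : ∀ p, ¬ big p → v + ∑ x ∈ univ.filter (fun x => big x ∧ γ x = γ p), Rt (swap x p) v = 0)
    (D : Finset Q) (hD : ∀ p, ¬ big p → (1 + κ) * (D.filter fun q => γ q = γ p).card ≤
      κ * ((univ.filter fun x => big x ∧ γ x = γ p).card + 1)) (t : ℕ) :
    ∀ g : Perm Q, (∀ x, γ (g x) = γ x) → (∀ x, big x → ¬ big (g x) → g x ∈ D) →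
      (univ.filter fun x => big x ∧ ¬ big (g x)).card = t → |Rt g v ⬝ᵥ v| ≤ κ ^ t * v ⬝ᵥ v := by
  induction t with
  | zero =>
    intro g _ _ _
    have := abs_dot_le (Rt g v) v
    rw [Rt_norm] at this; linarith
  | succ t ih =>
    intro g h1 h2 h3
    obtain ⟨x0, hx0⟩ := Finset.card_pos.1 (t.succ_pos.trans_eq h3.symm)
    have hb := (mem_filter.1 hx0).2
    obtain ⟨A, hA⟩ : ∃ A, A = univ.filter fun x => big x ∧ γ x = γ (g x0) := ⟨_, rfl⟩
    have mA : ∀ x, x ∈ A ↔ big x ∧ γ x = γ (g x0) := by simp [hA]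
    have r := congrArg (Rt g v ⬝ᵥ ·) (rel _ hb.2)
    have e : ∀ y, Rt g v ⬝ᵥ Rt (swap y (g x0)) v = Rt (swap y (g x0) * g) v ⬝ᵥ v := fun y => by
      rw [← Rt_Rt, Rt_dot (Equiv.swap _ _), swap_inv]
    simp only [← hA, dotProduct_add, dotProduct_sum, dotProduct_zero, e] at r
    rw [← sum_filter_add_sum_filter_not A (fun y => big (g⁻¹ y))] at r
    have e1 : ∀ y ∈ A.filter (fun y => big (g⁻¹ y)),
        Rt (swap y (g x0) * g) v ⬝ᵥ v = Rt g v ⬝ᵥ v := by
      intro y hy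
      rw [mem_filter, mA] at hy
      have : swap y (g x0) * g = g * swap (g⁻¹ y) x0 := by rw [mul_swap_eq_swap_mul]; simp
      rw [this, ← Rt_Rt, inv _ _ hy.2 hb.1 (by rw [← h1, ← h1 x0, ← hy.1.2]; simp)]
    have e2 : ∀ y ∈ A.filter (fun y => ¬ big (g⁻¹ y)),
        |Rt (swap y (g x0) * g) v ⬝ᵥ v| ≤ κ ^ t * v ⬝ᵥ v := by
      intro y hy
      rw [mem_filter, mA] at hy
      have k : ∀ x, big x → x ≠ x0 → (swap y (g x0) * g) x = g x := fun x hx hn =>
        swap_apply_of_ne_of_ne (fun e => hy.2 (by rw [← e]; simpa using hx)) (g.injective.ne hn)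
      have k0 : big ((swap y (g x0) * g) x0) := by simpa using hy.1.1
      refine ih _ (fun x => ?_) (fun x hx hn => ?_) ?_
      · rw [← h1 x, Perm.mul_apply, swap_apply_def]
        split_ifs with c1 c2
        · rw [c1, hy.1.2]
        · rw [c2, hy.1.2]
        · rfl
      · have : x ≠ x0 := fun e => hn (e ▸ k0)
        rw [k x hx this] at hn ⊢; exact h2 x hx hn
      · have := card_erase_of_mem hx0
        rw [h3, add_tsub_cancel_right] at this
        rw [← this]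
        congr 1
        ext x
        simp only [mem_filter, mem_univ, true_and, mem_erase]
        by_cases hx : x = x0
        · simp only [hx, k0]; simp
        · exact ⟨fun h => ⟨hx, h.1, k x h.1 hx ▸ h.2⟩, fun h => ⟨h.2.1, (k x h.2.1 hx).symm ▸ h.2.2⟩⟩
    have c1 := card_filter_add_card_filter_not (s := A) (fun y => big (g⁻¹ y))
    have c2 := card_filter_add_card_filter_not (s := A) (fun x => big (g x))
    have c3 : (A.filter fun x => big (g x)).card ≤ (A.filter fun y => big (g⁻¹ y)).card :=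
      card_le_card_of_injOn g (fun x hx => by
        simp only [coe_filter, mA, Set.mem_ofPred_eq] at hx ⊢
        exact ⟨⟨hx.2, (h1 x).trans hx.1.2⟩, by simpa using hx.1.1⟩) g.injective.injOn
    have c4 : (A.filter fun x => ¬ big (g x)).card ≤ (D.filter fun q => γ q = γ (g x0)).card :=
      card_le_card_of_injOn g (fun x hx => by
        simp only [coe_filter, mA, Set.mem_ofPred_eq] at hx ⊢
        exact ⟨h2 x hx.1.1 hx.2, (h1 x).trans hx.1.2⟩) g.injective.injOn
    have c5 := hD _ hb.2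
    rw [← hA, ← c1] at c5
    have c6 : ((A.filter fun y => ¬ big (g⁻¹ y)).card : ℝ) ≤
      (D.filter fun q => γ q = γ (g x0)).card := by exact_mod_cast (by omega)
    rw [sum_congr rfl e1, sum_const, nsmul_eq_mul] at r
    have b := (abs_sum_le_sum_abs _ _).trans (sum_le_card_nsmul _ _ _ e2)
    rw [nsmul_eq_mul] at b
    push_cast at c5
    generalize ((A.filter fun y => ¬ big (g⁻¹ y)).card : ℝ) = s at *
    have a0 : (0 : ℝ) ≤ (A.filter fun y => big (g⁻¹ y)).card := by positivity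
    generalize ((A.filter fun y => big (g⁻¹ y)).card : ℝ) = a at *
    have N0 : 0 ≤ κ ^ t * v ⬝ᵥ v := mul_nonneg (by positivity) (dot_nonneg v)
    rw [← add_assoc, add_eq_zero_iff_eq_neg] at r
    have : (1 + a) * |Rt g v ⬝ᵥ v| ≤ s * (κ ^ t * v ⬝ᵥ v) := by
      rw [← abs_of_nonneg (by linarith : 0 ≤ 1 + a), ← abs_mul, add_mul, one_mul, r, abs_neg]
      exact b
    have hs : s ≤ κ * (1 + a) := by nlinarith
    refine le_of_mul_le_mul_left (this.trans ((mul_le_mul_of_nonneg_right hs N0).trans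
      (le_of_eq (by ring)))) (by linarith : 0 < 1 + a)

lemma gb (γ : Q → ι) (big : Q → Prop) [DecidablePred big] (v : Perm Q → ℝ) (hv : v ≠ 0) (κ : ℝ)
    (hκ : 0 < κ) (hκ1 : κ ≤ 1) (inv : ∀ x y, big x → big y → γ x = γ y → Rt (swap x y) v = v)
    (rel : ∀ p, ¬ big p → v + ∑ x ∈ univ.filter (fun x => big x ∧ γ x = γ p), Rt (swap x p) v = 0)
    {I : Type} [Fintype I] [DecidableEq I] {m : ℕ} (z : I × Fin (m + 1) ↪ Q)
    (z1 : ∀ i b, big (z (i, b)) ↔ b ≠ 0) (z2 : ∀ i b, γ (z (i, b)) = γ (z (i, 0)))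
    (hD : ∀ p, ¬ big p → (1 + κ) * (univ.filter fun i => γ (z (i, 0)) = γ p).card ≤
      κ * ((univ.filter fun x => big x ∧ γ x = γ p).card + 1))
    (M : Matrix (Perm Q) (Perm Q) ℝ) (l : ℝ)
    (hM : ∀ σ : Perm Q, (∀ x, ∃ y, σ (z x) = z y) → M *ᵥ Rt σ v = l • Rt σ v) :
    (m + 1 : ℝ) ^ Fintype.card I * l ^ 2 ≤ (1 + m * κ) ^ Fintype.card I * trace (M * Mᵀ) := by
  have N0 : 0 < v ⬝ᵥ v := (dot_nonneg v).lt_of_ne fun e => hv (dotProduct_self_eq_zero.1 e.symm)
  let τ : (I → Fin (m + 1)) → Perm (I × Fin (m + 1)) := fun c =>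
    Equiv.prodCongrRight fun i => swap 0 (c i)
  let σ : (I → Fin (m + 1)) → Perm Q := fun c => Perm.viaEmbeddingHom z (τ c)
  have hσ : ∀ c i b, σ c (z (i, b)) = z (i, swap 0 (c i) b) := fun c i b =>
    Perm.viaEmbedding_apply _ _ _
  have hσ' : ∀ c x, x ∉ Set.range z → σ c x = x := fun c x hx =>
    Perm.viaEmbedding_apply_of_notMem _ _ _ hx
  have hi : ∀ c, (σ c)⁻¹ = σ c := fun c => (map_inv _ _).symm
  have key := fun π => bessel (fun c => Rt (σ c) v)
    (fun c c' => (∏ i, if c i = c' i then 1 else κ) * v ⬝ᵥ v)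
    ((1 + m * κ) ^ Fintype.card I * v ⬝ᵥ v) (by positivity) (fun c c' => ?_) (fun c => ?_)
    (fun c c' => by simp only [eq_comm]) (M π)
  · have e : ∀ c, ∑ π, (M π ⬝ᵥ Rt (σ c) v) ^ 2 = l ^ 2 * v ⬝ᵥ v := by
      intro c
      have := hM (σ c) fun x => ⟨_, hσ c x.1 x.2⟩
      rw [← Rt_norm (σ c) v]
      calc _ = (M *ᵥ Rt (σ c) v) ⬝ᵥ (M *ᵥ Rt (σ c) v) := sum_congr rfl fun π _ => sq _
        _ = _ := by rw [this]; simp [sq, mul_assoc]
    have := sum_le_sum fun π (_ : π ∈ univ) => key π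
    rw [sum_comm, ← mul_sum] at this
    simp only [e, sum_const, card_univ, Fintype.card_pi, Fintype.card_fin, prod_const,
      nsmul_eq_mul] at this
    push_cast at this
    refine le_of_mul_le_mul_right ?_ N0
    refine le_trans (le_of_eq (by ring)) (this.trans (le_of_eq ?_))
    rw [mul_right_comm]; rfl
  · rw [dotProduct_comm, Rt_dot, Rt_Rt, hi, dotProduct_comm]
    refine (gram γ big v κ hκ inv rel (univ.image fun i => z (i, 0)) (fun p hp => le_trans ?_
      (hD p hp)) _ _ (fun x => ?_) (fun x h1 h2 => ?_) rfl).trans ?_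
    · rw [filter_image]; gcongr; exact card_image_le
    · by_cases hx : x ∈ Set.range z
      · obtain ⟨⟨i, b⟩, rfl⟩ := hx
        rw [Perm.mul_apply, hσ, hσ, z2, z2 i b]
      · rw [Perm.mul_apply, hσ' _ _ hx, hσ' _ _ hx]
    · by_cases hx : x ∈ Set.range z
      · obtain ⟨⟨i, b⟩, rfl⟩ := hx
        rw [Perm.mul_apply, hσ, hσ] at h2 ⊢
        rw [z1, not_not] at h2
        rw [h2]; exact mem_image_of_mem _ (mem_univ i)
      · rw [Perm.mul_apply, hσ' _ _ hx, hσ' _ _ hx] at h2; exact absurd h1 h2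
    · refine mul_le_mul_of_nonneg_right ?_ N0.le
      rw [prod_ite, prod_const_one, one_mul, prod_const]
      refine pow_le_pow_of_le_one hκ.le hκ1 (card_le_card_of_injOn
        (fun i => z (i, swap 0 (c i) (c' i))) (fun i hi => ?_) fun i _ i' _ h =>
          (Prod.mk.inj (z.injective h)).1)
      refine mem_coe.2 (mem_filter.2 ⟨mem_univ _, (z1 _ _).2 fun e => (mem_filter.1 hi).2 ?_, ?_⟩)
      · rw [swap_apply_eq_iff, swap_apply_left] at e; exact e.symm
      · simp only [Perm.mul_apply, hσ, z1, swap_apply_self, swap_apply_right]; simp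
  · rw [← sum_mul, ← Fintype.piFinset_univ,
      ← prod_univ_sum (fun _ => univ) (fun i b => if c i = b then (1 : ℝ) else κ)]
    have : ∀ a : Fin (m + 1), ∑ b, (if a = b then (1 : ℝ) else κ) = 1 + m * κ := by
      intro a
      rw [← add_sum_erase _ _ (mem_univ a), if_pos rfl,
        sum_congr rfl fun b hb => if_neg (ne_of_mem_erase hb).symm]
      simp [card_erase_of_mem]
    simp [this]

end Vale.Agent.P162
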