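import Vale.Agent.P162.Low

namespace Vale.Agent.P162

open Finset Matrix Equiv

variable {Q : Type} [Fintype Q] [DecidableEq Q]

omit [DecidableEq Q] in
lemma mkemb (μ : Q → ℕ) {R : ℕ} (k lab : Fin R → ℕ) (hinj : Function.Injective lab)
    (h : ∀ i, k i ≤ (univ.filter fun x => μ x = lab i).card) :
    ∃ z : (Σ i, Fin (k i)) ↪ Q, ∀ x, μ (z x) = lab x.1 := by
  have : ∀ i, Nonempty (Fin (k i) ↪ {x // μ x = lab i}) := fun i =>
    Function.Embedding.nonempty_of_card_le (by rw [Fintype.card_subtype]; simpa using h i)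
  let e := fun i => (this i).some
  refine ⟨⟨fun x => e x.1 x.2, ?_⟩, fun x => (e x.1 x.2).2⟩
  rintro ⟨i, a⟩ ⟨i', a'⟩ h
  obtain rfl : i = i' := hinj ((e i a).2.symm.trans ((congrArg μ h).trans (e i' a').2))
  rw [show a = a' from (e i).injective (Subtype.ext h)]

lemma high (K : Matrix (Perm Q) (Perm Q) ℝ) (h1 : LT K) (h2 : Kᵀ = K) (k0 m : ℕ) (l : ℝ)
    (μ0 : Q → ℕ) (hμ0 : ∀ x, μ0 x < 2 * m + 2) (v0 : Perm Q → ℝ)
    (hv0 : v0 ∈ perp (VL Q k0) ⊓ eigS K l) (n0 : v0 ≠ 0) (i0 : Inv μ0 v0) :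
    ∃ r : ℕ, k0 ≤ 6 * r + (2 * m + 2) ∧ 2 ^ r * l ^ 64 ≤ (3 / 2) ^ r * trace (K ^ 64) := by
  have hE : RI (perp (VL Q k0) ⊓ eigS K l) := (RI_VL k0).perp.inf (RI_eigS h1 l)
  let P : (Q → ℕ) → Prop := fun μ => (∀ x, μ x < 2 * m + 2) ∧
    ∃ v ∈ perp (VL Q k0) ⊓ eigS K l, v ≠ 0 ∧ Inv μ v
  have hb : BddAbove {s | ∃ μ, P μ ∧ ∑ x, μ x = s} := ⟨_, by
    rintro _ ⟨μ, h, rfl⟩; exact sum_le_card_nsmul _ _ _ fun x _ => (h.1 x).le⟩
  obtain ⟨μ, ⟨hμ, v, hv, vn, iv⟩, e⟩ := 
    Nat.sSup_mem (s := {s | ∃ μ, P μ ∧ ∑ x, μ x = s}) ⟨_, μ0, ⟨hμ0, v0, hv0, n0, i0⟩, rfl⟩ hb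
  have mx : ∀ μ', P μ' → ∑ x, μ' x ≤ ∑ x, μ x := fun μ' h => e ▸ le_csSup hb ⟨μ', h, rfl⟩
  obtain ⟨s, hs⟩ : ∃ s : ℕ → ℕ, ∀ i, s i = (univ.filter fun x => μ x = i).card := ⟨_, fun _ => rfl⟩
  have a1 : ∀ p i, μ p < i → i < 2 * m + 2 →
      v + ∑ x ∈ univ.filter (fun x => μ x = i), Rt (swap x p) v = 0 := by
    intro p i b1 b2
    by_contra hn
    have := mx (Function.update μ p i) ⟨fun x => by
      by_cases hx : x = p <;> simp [hx, b2, hμ], _, Submodule.add_mem _ hv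
        (Submodule.sum_mem _ fun x _ => hE _ v hv), hn, iv.move p i b1.ne⟩
    rw [sum_update_of_mem (mem_univ p), ← add_sum_erase _ _ (mem_univ p), sdiff_singleton_eq_erase]
      at this
    omega
  have a2 : ∀ i, i + 1 < 2 * m + 2 → s i ≤ s (i + 1) := by
    intro i hi
    have := mx (fun x => swap i (i + 1) (μ x)) ⟨fun x => by
      have := hμ x
      simp only [swap_apply_def]; split_ifs <;> omega, v, hv, vn,
      fun h hh => iv h fun x => (swap i (i + 1)).injective (hh x)⟩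
    have e : ∑ x, (swap i (i + 1) (μ x) + if μ x = i + 1 then 1 else 0) =
        ∑ x, (μ x + if μ x = i then 1 else 0) := sum_congr rfl fun x _ => by
      rw [swap_apply_def]; split_ifs <;> omega
    rw [sum_add_distrib, sum_add_distrib, ← card_filter, ← card_filter, ← hs, ← hs] at e
    omega
  have a3 : k0 < ∑ i ∈ range (2 * m + 1), s i := by
    by_contra hn
    refine vn (perp_self (VB_le ?_ (iv.VB (2 * m + 1))) hv.1)
    refine le_trans (le_of_eq ?_) (not_lt.1 hn)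
    rw [card_eq_sum_card_fiberwise (f := μ) (t := range (2 * m + 1)) fun x hx => by
      have := hμ x; simp at hx ⊢; omega]
    refine sum_congr rfl fun i hi => ?_
    rw [hs, filter_filter]; congr 1; ext x; simp at hi ⊢; omega
  have a4 : ∀ q, q ≤ m → ∑ i ∈ range (2 * q + 1), s i ≤ 2 * ∑ i ∈ range (q + 1), s (2 * i) := by
    intro q
    induction q with
    | zero => simp; omega
    | succ q ih =>
      intro hq
      have := ih (by omega)
      have := a2 (2 * q + 1) (by omega)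
      rw [mul_add, sum_range_succ, sum_range_succ, sum_range_succ _ (q + 1)]
      simp only [mul_add, mul_one, add_assoc, Nat.reduceAdd] at *
      omega
  let k : Fin (m + 1) → ℕ := fun i => (s (2 * i) + 1) / 3
  obtain ⟨z0, hz0⟩ := mkemb μ k (fun i => 2 * i) (fun i i' h => Fin.ext (by simpa using h))
    fun i => by rw [← hs]; simp only [k]; omega
  obtain ⟨z1, hz1⟩ := mkemb μ k (fun i => 2 * i + 1) (fun i i' h => Fin.ext (by simpa using h))
    fun i => by have := a2 (2 * i) (by omega); rw [← hs]; simp only [k]; omega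
  have ef : ∀ p, ¬ μ p % 2 = 1 → (univ.filter fun x => μ x % 2 = 1 ∧ μ x / 2 = μ p / 2) =
      univ.filter fun x => μ x = μ p + 1 := fun p hp => filter_congr fun x _ => by omega
  have key := gb2 (fun x => μ x / 2) (fun x => μ x % 2 = 1) v vn (1 / 2) (by norm_num)
    (by norm_num) (fun x y hx hy h => iv _ (swap_pres (by omega)))
    (fun p hp => by rw [ef p hp]; exact a1 p _ (by omega) (by have := hμ p; omega)) z0
    ((Equiv.prodUnique _ (Fin 1)).toEmbedding.trans z1) (fun i => by rw [hz0]; omega)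
    (fun x => (congrArg (· % 2) (hz1 _)).trans (by omega))
    (fun i b => (congrArg (· / 2) (hz1 i)).trans (by rw [hz0]; omega)) fun p hp => ?_
  · obtain ⟨B, -, -, c3⟩ := key
    have := c3 K l h2 fun σ _ => (hE σ v hv).2
    refine ⟨_, ?_, by norm_num at this ⊢; exact this⟩
    have b1 := a4 m le_rfl
    have b2 : ∑ i : Fin (m + 1), s (2 * i) ≤ ∑ i, (3 * k i + 1) :=
      sum_le_sum fun i _ => by simp only [k]; omega
    rw [sum_add_distrib, ← mul_sum, Fin.sum_univ_eq_sum_range (fun i => s (2 * i))] at b2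
    simp at b2
    omega
  · have b0 := hμ p
    have b1 := a2 (μ p) (by omega)
    have b2 : (univ.filter fun i => μ (z0 i) / 2 = μ p / 2).card = k ⟨μ p / 2, by omega⟩ := by
      rw [card_filter, Fintype.sum_sigma, sum_eq_single ⟨μ p / 2, by omega⟩]
      · simp [hz0]
      · intro i _ hi
        refine sum_eq_zero fun a _ => if_neg fun e => hi (Fin.ext ?_)
        rw [hz0] at e; simp only at e ⊢; omega
      · simp
    rw [ef p hp, ← hs, b2]
    have : 3 * k ⟨μ p / 2, by omega⟩ ≤ s (μ p + 1) + 1 := by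
      have : 2 * (μ p / 2) = μ p := by omega
      simp only [k, this]; omega
    have : (3 : ℝ) * k ⟨μ p / 2, by omega⟩ ≤ s (μ p + 1) + 1 := by exact_mod_cast this
    linarith

omit [DecidableEq Q] in
lemma swap_ind [DecidableEq Q] {ι : Type} (μ : Q → ι) (P : Perm Q → Prop) (h1 : P 1)
    (h2 : ∀ x y g, μ x = μ y → P g → P (swap x y * g)) (h : Perm Q) (hh : ∀ x, μ (h x) = μ x) :
    P h := by
  induction hn : h.support.card using Nat.strong_induction_on generalizing h with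
  | _ n ih =>
    by_cases e : h = 1
    · exact e ▸ h1
    obtain ⟨x, hx⟩ : ∃ x, h x ≠ x := not_forall.1 fun k => e (Equiv.ext k)
    rw [← swap_mul_self_mul x (h x) h]
    exact h2 _ _ _ (hh x).symm (ih _ (hn ▸ Perm.card_support_swap_mul hx) _
      (fun y => (swap_pres (hh x).symm _).trans (hh y)) rfl)

lemma exists_inv {Ω ι : Type} [Fintype Ω] [Nonempty Ω] (a : Ω → Perm Q) (μ : Q → ι)
    (ha : ∀ x y, μ x = μ y → ∀ F : Perm Q → ℝ, av (fun ω => F (swap x y * a ω)) = av fun ω => F (a ω))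
    {E : Submodule ℝ (Perm Q → ℝ)} (hE : RI E) {f : Perm Q → ℝ} (hf : f ∈ E)
    (h0 : (avM fun ω => Lm (a ω)) *ᵥ f ≠ 0) : ∃ v ∈ E, v ≠ 0 ∧ Inv μ v := by
  obtain ⟨g, hg⟩ : ∃ g, g = (avM fun ω => Lm (a ω)) *ᵥ f := ⟨_, rfl⟩
  have g1 : ∀ π, g π = av fun ω => f ((a ω)⁻¹ * π) := fun π => by
    simp only [hg, avM_mulVec, Lm_mulVec]
  have g2 : ∀ h : Perm Q, (∀ x, μ (h x) = μ x) → ∀ π, g (h * π) = g π := by
    refine swap_ind μ (fun h => ∀ π, g (h * π) = g π) (by simp) fun x y h hxy ih π => ?_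
    rw [← ih π, g1, g1, ← ha x y hxy (fun σ => f (σ⁻¹ * (h * π)))]
    simp only [_root_.mul_inv_rev, swap_inv, mul_assoc]
  refine ⟨∑ π, g π • Rt π f, E.sum_mem fun π _ => E.smul_mem _ (hE π f hf), fun e => ?_,
    fun h hh => funext fun x => ?_⟩
  · rw [← hg] at h0
    refine h0 (dotProduct_self_eq_zero.1 ?_)
    have : ∀ x, ∑ π, g π * f (x * π) = 0 := fun x => by simpa [Rt] using congrFun e x
    calc g ⬝ᵥ g = av fun ω => ∑ π, g π * f ((a ω)⁻¹ * π) := by
          simp only [av_sum, av_mul_left, ← g1, dotProduct]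
      _ = 0 := by simp only [this, av_zero]
  · simp only [Rt, Finset.sum_apply, Pi.smul_apply, smul_eq_mul]
    refine Eq.trans ?_ (Equiv.sum_comp (Equiv.mulLeft h) _)
    simp [g2 h hh, mul_assoc]

end Vale.Agent.P162
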