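import Vale.Agent.P162.Gap
import Vale.Agent.P162.High

namespace Vale.Agent.P162

open Finset Matrix Equiv

variable (j : ℕ)

def leaf : ∀ t, Pos (j + t) → Pos t
  | 0, _ => ()
  | t + 1, x => (leaf t x.1, x.2)

lemma inp_swap (t : ℕ) (T : Pos t → Bool) (x y : Pos (j + t)) (h1 : leaf j t x = leaf j t y)
    (h2 : T (leaf j t x) = false) (F : Perm (Pos (j + t)) → ℝ) :
    av (fun ω => F (Equiv.swap x y * inp j t T ω)) = av fun ω => F (inp j t T ω) := by
  induction t with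
  | zero =>
    have : T () = false := h2
    simp only [av_prod, inp, this, Bool.false_eq_true, if_false, av_const]
    exact av_mul_group _ F
  | succ t ih =>
    obtain ⟨u, c⟩ := x
    obtain ⟨v, c'⟩ := y
    obtain ⟨h3, h4⟩ := Prod.mk.inj h1
    obtain rfl : c = c' := h4
    rw [av_inp, av_inp]
    refine av_congr fun ε => ?_
    cases c
    · refine (av_comm _).trans (Eq.trans ?_ (av_comm _).symm)
      refine av_congr fun b => Eq.trans (av_congr fun a => congrArg F ?_) (ih (hf T false) u v h3 h2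
        (fun σ => F (osum σ (inp j t (hf T true) b) * sw ε : Perm (Pos (j + t) × Bool))))
      refine (congrArg (· * _) (swap_L u v)).trans ?_
      change (osum _ 1 * (osum _ _ * _) : Perm (Pos (j + t) × Bool)) = _
      rw [← mul_assoc, osum_mul, one_mul]
    · refine av_congr fun a => Eq.trans (av_congr fun b => congrArg F ?_) (ih (hf T true) u v h3 h2
        (fun σ => F (osum (inp j t (hf T false) a) σ * sw ε : Perm (Pos (j + t) × Bool))))
      refine (congrArg (· * _) (swap_R u v)).trans ?_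
      change (osum 1 _ * (osum _ _ * _) : Perm (Pos (j + t) × Bool)) = _
      rw [← mul_assoc, osum_mul, one_mul]

lemma card_leaf (t : ℕ) (T : Pos t → Bool) :
    (univ.filter fun x => T (leaf j t x) = true).card = 2 ^ j * cnt T true := by
  induction t with
  | zero =>
    cases h : T ()
    · rw [filter_false_of_mem (fun x _ => by simp [leaf, h]), cnt,
        filter_false_of_mem (fun x _ => by simp [h])]; simp
    · rw [filter_true_of_mem (fun x _ => h), cnt, filter_true_of_mem (fun x _ => h), card_univ,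
        card_pos]; simp
  | succ t ih =>
    rw [cnt_succ, mul_add, ← ih, ← ih]
    simp only [card_filter]
    refine (Fintype.sum_prod_type _).trans ?_
    simp only [Fintype.sum_bool, sum_add_distrib, add_comm]
    rfl

lemma highT (t : ℕ) (T : Pos t → Bool) (k0 : ℕ) (l : ℝ) (hl : l ≠ 0) (f : Perm (Pos (j + t)) → ℝ)
    (hf : f ∈ perp (VL (Pos (j + t)) k0)) (f0 : f ≠ 0) (h : KT j t T *ᵥ f = l • f) :
    ∃ r : ℕ, k0 ≤ 6 * r + (2 ^ t + 2 ^ j * cnt T true + 2) ∧
      2 ^ r * l ^ 64 ≤ (3 / 2) ^ r * trace (KT j t T ^ 64) := by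
  let ν : Pos (j + t) → Pos t ⊕ {x // T (leaf j t x) = true} := fun x =>
    if h : T (leaf j t x) = true then Sum.inr ⟨x, h⟩ else Sum.inl (leaf j t x)
  let μ : Pos (j + t) → ℕ := fun x => Fintype.equivFin _ (ν x)
  have hc : Fintype.card (Pos t ⊕ {x // T (leaf j t x) = true}) = 2 ^ t + 2 ^ j * cnt T true := by
    rw [Fintype.card_sum, card_pos, Fintype.card_subtype, card_leaf]
  obtain ⟨v, hv, v0, iv⟩ := exists_inv (inp j t T) μ (fun x y hxy F => by
    have := (Fintype.equivFin _).injective (Fin.ext hxy)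
    simp only [ν] at this
    split_ifs at this with c1 c2
    · rw [show x = y from congrArg Subtype.val (Sum.inr.inj this), swap_self]; rfl
    · exact inp_swap j t T x y (Sum.inl.inj this) (by simpa using c1) F)
    ((RI_VL k0).perp.inf (RI_eigS (KT_LT j t T) l)) ⟨hf, h⟩ fun e => by
      rw [KT_eq, ← mulVec_mulVec, show AT j t T *ᵥ f = 0 from e, mulVec_zero, eq_comm,
        smul_eq_zero] at h
      tauto
  obtain ⟨r, h1, h2⟩ := high _ (KT_LT j t T) (KT_T j t T) k0 ((2 ^ t + 2 ^ j * cnt T true) / 2) l μ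
    (fun x => by have := (Fintype.equivFin _ (ν x)).2; simp only [μ]; omega) v hv v0 iv
  exact ⟨r, by omega, h2⟩

noncomputable def XB (d : ℕ) : Matrix (Perm (Pos d)) (Perm (Pos d)) ℝ := avM fun a => Lm (bf d a)

noncomputable def KB (d : ℕ) : Matrix (Perm (Pos d)) (Perm (Pos d)) ℝ := (XB d)ᵀ * XB d

lemma KT_true (t : ℕ) : KT j t (fun _ => true) = KB (j + t) := by
  have : AT j t (fun _ => true) = XB (j + t) := by
    ext π σ; exact inp_true j t (fun g => Lm g π σ)
  rw [KT_eq, this, KB]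

lemma pow_root {l x : ℝ} (h : l ^ 64 ≤ Real.exp (64 * x)) : l ≤ Real.exp x := by
  refine le_of_pow_le_pow_left₀ (n := 64) (by norm_num) (Real.exp_pos _).le (h.trans_eq ?_)
  rw [← Real.exp_nat_mul]; norm_num

lemma high_main (e : ℕ) : ∃ (γ B : ℝ) (s : ℕ), 0 < γ ∧ γ < 1 ∧ ∀ u : ℕ,
    trace (KB (e + s + u) ^ 64) ≤ Real.exp (B * 2 ^ u) ∧
    ∀ f ∈ perp (VL (Pos (e + s + u)) (2 ^ (s + u))),
      f ⬝ᵥ KB (e + s + u) *ᵥ f ≤ 2 * γ ^ 2 ^ u * f ⬝ᵥ f := by
  obtain ⟨l, hl⟩ : ∃ l, l = e + 20 := ⟨_, rfl⟩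
  obtain ⟨β, b0, b1, hβ⟩ := decomp (20 * l)
  obtain ⟨A, hA⟩ : ∃ A, A = (2 ^ (20 * l)).factorial := ⟨_, rfl⟩
  have A1 : 2 ^ (20 * l) ≤ A := hA ▸ Nat.self_le_factorial _
  have A2 : 20 * l < 2 ^ (20 * l) := Nat.lt_two_pow_self
  have A3 : A < 2 ^ A := Nat.lt_two_pow_self
  have A4 : ∀ c : ℕ, (A : ℝ) ^ c ≤ Real.exp (A * c) := fun c => by
    rw [mul_comm, Real.exp_nat_mul]
    exact pow_le_pow_left₀ (by positivity) (by linarith [Real.add_one_le_exp (A : ℝ)]) _
  refine ⟨max β (Real.exp (-1)), (A + 126) * 2 ^ (e + (A + 13)), A + 13, by positivity,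
    max_lt b1 (by simp), fun u => ?_⟩
  obtain ⟨t, ht⟩ : ∃ t, e + (A + 13) + u = 20 * l + t := ⟨e + (A + 13) + u - 20 * l, by omega⟩
  have hn : (2 : ℝ) ^ (20 * l + t) = 2 ^ (e + (A + 13)) * 2 ^ u := by rw [← ht, pow_add]
  rw [ht, ← KT_true]
  have ct : ∀ T : Pos t → Bool, cnt T true ≤ 2 ^ (20 * l + t) := fun T =>
    (Nat.le_add_left _ _).trans ((cnt_add T).trans_le (Nat.pow_le_pow_right (by norm_num) (by omega)))
  refine ⟨(tr_univ l (by omega) t _).trans ?_, fun f hf => (hβ t (2 ^ u) f).trans ?_⟩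
  · rw [← hA]
    refine (mul_le_mul_of_nonneg_right (A4 _) (Real.exp_pos _).le).trans ?_
    rw [← Real.exp_add, Real.exp_le_exp, mul_assoc, mul_assoc, ← hn, add_mul]
    have : ((cnt (fun _ : Pos t => true) true : ℕ) : ℝ) ≤ 2 ^ (20 * l + t) := by exact_mod_cast ct _
    have h8 : ((1 : ℝ) / 8) ^ l ≤ 1 := pow_le_one₀ (by norm_num) (by norm_num)
    have : (0 : ℝ) ≤ 2 ^ (20 * l + t) := by positivity
    gcongr
    exact mul_le_of_le_one_left this h8
  obtain ⟨k, hk⟩ : ∃ k : ℕ, k = 2 ^ (A + u) := ⟨_, rfl⟩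
  have k0 : 2 ^ (A + 13 + u) = 8192 * k := by rw [hk]; ring
  have k1 : 2 * 2 ^ t ≤ k := by
    rw [hk, ← pow_succ']; exact Nat.pow_le_pow_right (by norm_num) (by omega)
  have k2 : A * 2 ^ u ≤ k := by rw [hk, pow_add]; exact Nat.mul_le_mul_right _ A3.le
  have k3 : (126 : ℝ) * (1 / 8) ^ l * 2 ^ (20 * l + t) ≤ k := by
    have h1 : ((1 : ℝ) / 8) ^ l ≤ (1 / 2) ^ l := pow_le_pow_left₀ (by norm_num) (by norm_num) _
    have h2 : ((1 : ℝ) / 2) ^ l * 2 ^ (20 * l + t) = k / 128 := by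
      rw [← ht, hk, hl]; push_cast; simp only [one_div, inv_pow]; field_simp; ring
    have : (0 : ℝ) ≤ k := by positivity
    have h3 := mul_le_mul_of_nonneg_right h1 (show (0 : ℝ) ≤ 2 ^ (20 * l + t) by positivity)
    linarith
  have hT : ∀ T ∈ univ.filter (fun T : Pos t → Bool => cnt T true < 2 ^ u),
      f ⬝ᵥ KT (20 * l) t T *ᵥ f ≤ Real.exp (-2 * k) * f ⬝ᵥ f := by
    intro T hT
    have hT := (mem_filter.1 hT).2.le
    refine eig _ (KT_T _ _ _) _ (perp_inv (KT_T _ _ _) (VL_inv (KT_PB _ _ _))) _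
      (fun x v hv v0 h => ?_) f hf
    by_cases hx : x = 0
    · rw [hx]; positivity
    obtain ⟨r, h1, h2⟩ := highT _ t T _ x hx v hv v0 h
    have c1 : 2 ^ (20 * l) * cnt T true ≤ A * 2 ^ u := Nat.mul_le_mul A1 hT
    have c0 : 1 ≤ 2 ^ t := Nat.one_le_two_pow
    have c2 : (1000 : ℝ) * k ≤ r := by exact_mod_cast (by omega : 1000 * k ≤ r)
    have c3 : (A : ℝ) * cnt T true ≤ k := by
      exact_mod_cast (Nat.mul_le_mul_left A hT).trans k2
    have c4 := (tr_univ l (by omega) t T).trans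
      (mul_le_mul (hA ▸ A4 _) (Real.exp_le_exp.2 k3) (Real.exp_pos _).le (Real.exp_pos _).le)
    have c5 : ((3 : ℝ) / 2) ^ r ≤ 2 ^ r * Real.exp (r * (-1 / 4)) := by
      rw [Real.exp_nat_mul, ← mul_pow]
      exact pow_le_pow_left₀ (by norm_num) (by linarith [Real.add_one_le_exp (-1 / 4)]) _
    refine pow_root (le_of_mul_le_mul_left (h2.trans ((mul_le_mul c5 c4
      ((KT_psd _ _ _).pow 64).trace_nonneg (by positivity)).trans ?_)) (by positivity))
    rw [mul_assoc, ← Real.exp_add, ← Real.exp_add]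
    have : (0 : ℝ) ≤ k := by positivity
    gcongr
    rw [← hA]; linarith
  refine (add_le_add_right (sum_le_card_nsmul _ _ _ hT) _).trans ?_
  rw [nsmul_eq_mul, ← mul_assoc, ← add_mul, two_mul]
  refine mul_le_mul_of_nonneg_right (add_le_add (pow_le_pow_left₀ b0.le (le_max_left _ _) _)
    (le_trans ?_ (pow_le_pow_left₀ (Real.exp_pos _).le (le_max_right _ _) _))) (dot_nonneg f)
  have c1 : ((univ.filter (fun T : Pos t → Bool => cnt T true < 2 ^ u)).card : ℝ) ≤
      Real.exp k := by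
    have h1 := card_filter_le (univ : Finset (Pos t → Bool)) (fun T => cnt T true < 2 ^ u)
    rw [card_univ, Fintype.card_fun, card_pos, Fintype.card_bool] at h1
    have h2 : 2 ^ 2 ^ t ≤ 2 ^ k := Nat.pow_le_pow_right (by norm_num) (by omega)
    have h3 : (2 : ℝ) ^ k ≤ Real.exp 1 ^ k :=
      pow_le_pow_left₀ (by norm_num) (by linarith [Real.add_one_le_exp 1]) _
    rw [← Real.exp_nat_mul, mul_one] at h3
    exact le_trans (by exact_mod_cast h1.trans h2) h3
  refine (mul_le_mul_of_nonneg_right c1 (Real.exp_pos _).le).trans ?_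
  rw [← Real.exp_add, ← Real.exp_nat_mul, Real.exp_le_exp]
  have : ((2 ^ u : ℕ) : ℝ) ≤ k := by exact_mod_cast le_trans (Nat.le_mul_of_pos_left _ (by omega)) k2
  linarith

end Vale.Agent.P162
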