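import Vale.Agent.P162.Renyi

namespace Vale.Agent.P162

open Finset Equiv

def PM {Q : Type} [Fintype Q] [DecidableEq Q] (Φ : (Q → ℝ) → ℝ) : Prop :=
  ∃ (ι : Type) (_ : Fintype ι) (c : ι → ℝ) (S : ι → Finset Q), (∀ i, 0 ≤ c i) ∧
    ∀ g, Φ g = ∑ i, c i * ∏ x, if x ∈ S i then g x else 1

noncomputable def nxt {Q : Type} [Fintype Q] [DecidableEq Q] (Φ : (Q → ℝ) → ℝ)
    (g : Q × Bool → ℝ) : ℝ :=
  av fun ε : Q → Bool => Φ (fun u => g (sw ε (u, false))) * Φ (fun u => g (sw ε (u, true)))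

lemma PM.nonneg {Q : Type} [Fintype Q] [DecidableEq Q] {Φ : (Q → ℝ) → ℝ} (h : PM Φ) (g : Q → ℝ)
    (hg : ∀ x, 0 ≤ g x) : 0 ≤ Φ g := by
  obtain ⟨ι, _, c, S, hc, h⟩ := h
  rw [h]
  exact sum_nonneg fun i _ => mul_nonneg (hc i)
    (prod_nonneg fun x _ => by split_ifs; exacts [hg x, zero_le_one])

lemma PM.nxt {Q : Type} [Fintype Q] [DecidableEq Q] {Φ : (Q → ℝ) → ℝ} (h : PM Φ) : PM (nxt Φ) := by
  obtain ⟨ι, _, c, S, hc, h⟩ := h
  refine ⟨(Q → Bool) × ι × ι, inferInstance,
    fun z => c z.2.1 * c z.2.2 / Fintype.card (Q → Bool),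
    fun z => univ.filter fun x => (sw z.1 x).1 ∈ S (cond (sw z.1 x).2 z.2.2 z.2.1),
    fun z => div_nonneg (mul_nonneg (hc _) (hc _)) (by positivity), fun g => ?_⟩
  simp only [Vale.Agent.P162.nxt, av, h, sum_mul_sum, sum_div, Fintype.sum_prod_type]
  refine sum_congr rfl fun ε _ => sum_congr rfl fun i _ => sum_congr rfl fun i' _ => ?_
  have inv : ∀ x, sw ε (sw ε x) = x := fun x => (sw ε).symm_apply_apply x
  rw [← Equiv.prod_comp (sw ε)]
  simp only [mem_filter, mem_univ, true_and, inv, Fintype.prod_prod_type, Fintype.prod_bool,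
    cond_true, cond_false, prod_mul_distrib]
  ring

lemma PM.neg {Q : Type} [Fintype Q] [DecidableEq Q] {Φ : (Q → ℝ) → ℝ} (h : PM Φ)
    (g : Q × Bool → ℝ) (hg : ∀ x, 0 ≤ g x) :
    Vale.Agent.P162.nxt Φ g ≤ Φ (fun u => (g (u, false) + g (u, true)) / 2) ^ 2 := by
  obtain ⟨ι, _, c, S, hc, h⟩ := h
  simp only [Vale.Agent.P162.nxt, h, sq, sum_mul_sum, av_sum]
  refine sum_le_sum fun i _ => sum_le_sum fun i' _ => ?_
  simp only [mul_mul_mul_comm (c i), av_mul_left, ← prod_mul_distrib]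
  refine mul_le_mul_of_nonneg_left ?_ (mul_nonneg (hc _) (hc _))
  refine (av_pi (fun u (b : Bool) => (if u ∈ S i then g (u, xor false b) else 1) *
    (if u ∈ S i' then g (u, xor true b) else 1))).trans_le (prod_le_prod (fun u _ =>
      av_nonneg fun b => mul_nonneg ?_ ?_) fun u _ => ?_)
  · split_ifs; exacts [hg _, zero_le_one]
  · split_ifs; exacts [hg _, zero_le_one]
  · rw [av_bool]
    split_ifs <;> simp <;> nlinarith [sq_nonneg (g (u, false) - g (u, true))]

lemma exp_sub_le (s : ℝ) (hs : 0 ≤ s) : Real.exp s - s ≤ Real.exp (s ^ 2) := by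
  by_cases h : s ≤ 1
  · have := Real.abs_exp_sub_one_sub_id_le (x := s) (by rw [abs_of_nonneg hs]; exact h)
    have := Real.add_one_le_exp (s ^ 2)
    linarith [le_abs_self (Real.exp s - 1 - s)]
  · have := Real.exp_le_exp.2 (show s ≤ s ^ 2 by nlinarith)
    linarith

lemma prod_sub_le {Q : Type} (s : Finset Q) (g : Q → ℝ) (hg : ∀ x, 0 ≤ g x) :
    ∏ x ∈ s, (1 + g x) - ∑ x ∈ s, g x ≤ Real.exp ((∑ x ∈ s, g x) ^ 2) := by
  refine le_trans ?_ (exp_sub_le _ (sum_nonneg fun x _ => hg x))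
  rw [Real.exp_sum]
  exact sub_le_sub_right (prod_le_prod (fun x _ => by linarith [hg x])
    fun x _ => by linarith [Real.add_one_le_exp (g x)]) _

variable (j : ℕ)

noncomputable def Ph (y : ℝ) : ∀ t, (Pos (j + t) → ℝ) → ℝ
  | 0, g => ∑ S : Finset (Pos j), (if S.card = 1 then 0 else y ^ S.card) *
      ∏ x, if x ∈ S then g x else 1
  | t + 1, g => nxt (Ph y t) g

lemma Ph_PM (y : ℝ) (hy : 0 ≤ y) (t : ℕ) : PM (Ph j y t) := by
  induction t with
  | zero => exact ⟨_, _, _, id, fun S => by split_ifs <;> positivity, fun g => rfl⟩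
  | succ t ih => exact ih.nxt

lemma Ph_le (y : ℝ) (hy : 0 ≤ y) (t : ℕ) (g : Pos (j + t) → ℝ) (hg : ∀ x, 0 ≤ g x) :
    Ph j y t g ≤ Real.exp ((y * ∑ x, g x) ^ 2 / 2 ^ t) := by
  induction t with
  | zero =>
    have := prod_sub_le univ (fun x => y * g x) fun x => mul_nonneg hy (hg x)
    rw [pow_zero, div_one, mul_sum]
    refine le_trans (le_of_eq ?_) this
    rw [prod_one_add, powerset_univ, eq_sub_iff_add_eq]
    have e : ∑ x, y * g x = ∑ S : Finset (Pos j), if S.card = 1 then ∏ x ∈ S, y * g x else 0 := by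
      rw [← sum_filter, ← powerset_univ, ← powersetCard_eq_filter, powersetCard_one, sum_map]; simp
    refine Eq.trans (congrArg _ e) ?_
    simp only [Ph, ← sum_add_distrib]
    refine sum_congr rfl fun S _ => ?_
    simp only [prod_ite_mem, univ_inter, prod_mul_distrib, prod_const]
    split_ifs <;> simp
  | succ t ih =>
    refine ((Ph_PM j y hy t).neg g hg).trans ?_
    have h0 : ∀ u, 0 ≤ (g (u, false) + g (u, true)) / 2 := fun u => by
      linarith [hg (u, false), hg (u, true)]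
    refine (pow_le_pow_left₀ ((Ph_PM j y hy t).nonneg _ h0) (ih _ h0) 2).trans (le_of_eq ?_)
    have e : ∑ x, g x = 2 * ∑ u : Pos (j + t), (g (u, false) + g (u, true)) / 2 := by
      refine (Fintype.sum_prod_type g).trans ?_
      rw [mul_sum]; refine sum_congr rfl fun u _ => ?_
      rw [Fintype.sum_bool]; ring
    rw [e, ← Real.exp_nat_mul]; congr 1; push_cast; field_simp; ring

lemma Lf_le_Ph (δ y : ℝ) (hy : 0 ≤ y) (h : 1 ≤ ((1 / 2) ^ j) ^ δ * y) (t : ℕ)
    (B : Finset (Pos (j + t))) :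
    av (fun ω => Lf j t (fun _ => true) B ω ^ δ) ≤
      (((1 / 2) ^ j) ^ δ) ^ B.card * Ph j y t (fun x => if x ∈ B then 1 else 0) := by
  have θ0 : (0 : ℝ) ≤ ((1 / 2) ^ j) ^ δ := by positivity
  induction t with
  | zero =>
    simp only [Lf, av_const, kap, if_true, Ph]
    have hs := fun S => single_le_sum (f := fun S : Finset (Pos j) =>
      (if S.card = 1 then 0 else y ^ S.card) * ∏ x, if x ∈ S then (if x ∈ B then (1 : ℝ) else 0)
        else 1) (fun S _ => mul_nonneg (by split_ifs <;> positivity)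
          (prod_nonneg fun x _ => by split_ifs <;> norm_num)) (mem_univ S)
    split_ifs with h1
    · have := hs ∅
      simp only [card_empty, notMem_empty, if_false, prod_const_one, zero_ne_one, pow_zero,
        mul_one] at this
      rw [h1, pow_one]
      exact le_mul_of_one_le_right θ0 this
    · have := hs B
      rw [if_neg h1, prod_eq_one (fun x _ => by split_ifs <;> rfl), mul_one] at this
      rw [Real.one_rpow]
      refine le_trans ?_ (mul_le_mul_of_nonneg_left this (by positivity))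
      rw [← mul_pow]; exact one_le_pow₀ h
  | succ t ih =>
    rw [av_inp]
    simp only [Ph, nxt, ← av_mul_left]
    refine av_mono fun ε => ?_
    simp only [Lf, fun a b => Real.mul_rpow (z := δ)
      (Lf_nonneg j t (hf (fun _ => true) false) (half B ε false) a)
      (Lf_nonneg j t (hf (fun _ => true) true) (half B ε true) b), av_mul_av]
    refine (mul_le_mul (ih _) (ih _) (av_nonneg fun _ => Real.rpow_nonneg (Lf_nonneg _ _ _ _ _) _)
      (mul_nonneg (by positivity) ((Ph_PM j y hy t).nonneg _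
        fun x => by split_ifs <;> norm_num))).trans (le_of_eq ?_)
    rw [← card_half B ε, pow_add, mul_mul_mul_comm]
    simp only [half, mem_filter, mem_univ, true_and]
    rfl

lemma Lf_true (δ y : ℝ) (hy : 0 ≤ y) (h : 1 ≤ ((1 / 2) ^ j) ^ δ * y) (t : ℕ)
    (B : Finset (Pos (j + t))) :
    av (fun ω => Lf j t (fun _ => true) B ω ^ δ) ≤
      (((1 / 2) ^ j) ^ δ) ^ B.card * Real.exp ((y * B.card) ^ 2 / 2 ^ t) := by
  refine (Lf_le_Ph j δ y hy h t B).trans (mul_le_mul_of_nonneg_left ?_ (by positivity))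
  have := Ph_le j y hy t (fun x => if x ∈ B then 1 else 0) fun x => by split_ifs <;> norm_num
  simpa using this

def cnt {t : ℕ} (T : Pos t → Bool) (b : Bool) : ℕ := (univ.filter fun x => T x = b).card

lemma cnt_succ {t : ℕ} (T : Pos (t + 1) → Bool) (b : Bool) :
    cnt T b = cnt (hf T false) b + cnt (hf T true) b := by
  simp only [cnt, card_filter]
  refine (Fintype.sum_prod_type _).trans ?_
  simp only [Fintype.sum_bool, sum_add_distrib, hf, add_comm]
  rfl

lemma cnt_add {t : ℕ} (T : Pos t → Bool) : cnt T false + cnt T true = 2 ^ t := by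
  rw [← card_pos, ← card_univ, ← card_filter_add_card_filter_not (s := univ) (fun x => T x = false)]
  simp [cnt]

lemma Lf_univ (t : ℕ) (T : Pos t → Bool) (ω : Inp j t) :
    Lf j t T univ ω ≤ (1 / ((2 ^ j).factorial : ℝ)) ^ cnt T false := by
  induction t with
  | zero =>
    simp only [Lf, kap, cnt]
    cases h : T ()
    · rw [filter_true_of_mem (fun x _ => h)]
      simp [Fintype.card_perm, card_pos]
    · rw [filter_false_of_mem (fun x _ => by simp [h])]
      simp only [if_true, card_empty, pow_zero]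
      split_ifs
      exacts [pow_le_one₀ (by norm_num) (by norm_num), le_rfl]
  | succ t ih =>
    have e : ∀ c, half (univ : Finset (Pos (j + (t + 1)))) ω.1 c = univ := fun c =>
      filter_true_of_mem fun x _ => mem_univ _
    simp only [Lf, e, cnt_succ, pow_add]
    exact mul_le_mul (ih _ _) (ih _ _) (Lf_nonneg _ _ _ _ _) (by positivity)

lemma fact_le (t m : ℕ) : (2 ^ t * m).factorial ≤ 2 ^ (t * (2 ^ t * m)) * m.factorial ^ 2 ^ t := by
  induction t with
  | zero => simp
  | succ t ih =>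
    obtain ⟨k, hk⟩ : ∃ k, k = 2 ^ t * m := ⟨_, rfl⟩
    have e : 2 ^ (t + 1) * m = k + k := by rw [hk]; ring
    rw [e]; rw [← hk] at ih
    have h1 := Nat.add_choose_mul_factorial_mul_factorial k k
    have h2 : (k + k).choose k ≤ 2 ^ (k + k) := Nat.choose_le_two_pow _ _
    calc (k + k).factorial ≤ 2 ^ (k + k) * (2 ^ (t * k) * m.factorial ^ 2 ^ t) *
          (2 ^ (t * k) * m.factorial ^ 2 ^ t) := by rw [← h1]; gcongr
      _ = _ := by ring

end Vale.Agent.P162
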