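import Vale.Agent.P162.Chi
import Vale.Agent.P162.Defs

namespace Vale.Agent.P162

open Finset Matrix Equiv

section
variable {G : Type} [Group G] [Fintype G] [DecidableEq G]

noncomputable def Ex (μ : G → ℝ) (t : ℕ) (Ψ : G → ℝ) : ℝ := ∑ g, convPow μ t g * Ψ g

lemma Ex_zero (μ Ψ : G → ℝ) : Ex μ 0 Ψ = Ψ 1 := by simp [Ex, convPow]

lemma Ex_succ (μ : G → ℝ) (t : ℕ) (Ψ : G → ℝ) :
    Ex μ (t + 1) Ψ = ∑ h, μ h * Ex μ t fun g => Ψ (g * h) := by
  simp only [Ex, convPow, conv, sum_mul, mul_sum]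
  rw [sum_comm]
  refine sum_congr rfl fun h _ => Eq.trans (Equiv.sum_comp (Equiv.mulRight h) _).symm ?_
  exact sum_congr rfl fun g _ => by simp; ring

lemma Ex_add (μ : G → ℝ) (s t : ℕ) (Ψ : G → ℝ) :
    Ex μ (s + t) Ψ = Ex μ s fun g => Ex μ t fun h => Ψ (g * h) := by
  induction t generalizing Ψ with
  | zero => simp only [Ex_zero, add_zero, mul_one]
  | succ t ih =>
    simp only [← add_assoc, Ex_succ, ih, mul_assoc]
    simp only [Ex, mul_sum]
    rw [sum_comm]
    exact sum_congr rfl fun g _ => sum_congr rfl fun h _ => sum_congr rfl fun k _ => by ring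

lemma supp_le {Ω : Type} [Fintype Ω] (μ : G → ℝ) (a : Ω → G) (h : ∀ g, μ g ≠ 0 → ∃ ω, a ω = g)
    (t : ℕ) : (univ.filter fun g => convPow μ t g ≠ 0).card ≤ Fintype.card Ω ^ t := by
  induction t with
  | zero => exact (card_le_card (t := {1}) fun g hg => by simpa [convPow] using hg).trans (by simp)
  | succ t ih =>
    refine (card_le_card (t := image₂ (fun g ω => g * a ω)
      (univ.filter fun g => convPow μ t g ≠ 0) univ) fun g hg => ?_).trans
      ((card_image₂_le _ _ _).trans (by rw [pow_succ]; exact Nat.mul_le_mul_right _ ih))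
    obtain ⟨k, -, hk⟩ := exists_ne_zero_of_sum_ne_zero (mem_filter.1 hg).2
    obtain ⟨ω, rfl⟩ := h k (right_ne_zero_of_mul hk)
    exact mem_image₂.2 ⟨_, mem_filter.2 ⟨mem_univ _, left_ne_zero_of_mul hk⟩, ω, mem_univ _, by simp⟩

end

lemma ex_th (n : ℕ) (hn : n = 2 * (n / 2)) (c : Fin (n / 2) → Bool) : ∃ σ, IsThorp n c σ := by
  let f : Fin n → Fin n := fun p => if h : p.val < n / 2 then
    ⟨2 * p + if c ⟨p, h⟩ then 1 else 0, by split_ifs <;> omega⟩
    else ⟨2 * (p - n / 2) + if c ⟨p - n / 2, by omega⟩ then 0 else 1, by split_ifs <;> omega⟩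
  have h1 : ∀ (i : Fin (n / 2)) (p : Fin n),
      (p.val = i.val → (f p).val = 2 * i.val + (if c i then 1 else 0)) ∧
      (p.val = n / 2 + i.val → (f p).val = 2 * i.val + (if c i then 0 else 1)) := by
    rintro ⟨i, hi⟩ ⟨p, hp⟩
    refine ⟨fun h => ?_, fun h => ?_⟩ <;> simp only at h <;> subst h
    · simp [f, hi]
    · simp [f]
  have h2 : ∀ p : Fin n, ∃ i : Fin (n / 2), p.val = i ∨ p.val = n / 2 + i := fun p =>
    if h : p.val < n / 2 then ⟨⟨p, h⟩, Or.inl rfl⟩ else ⟨⟨p - n / 2, by omega⟩, Or.inr (by simp; omega)⟩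
  refine ⟨Equiv.ofBijective f (Finite.injective_iff_bijective.1 fun p p' h => Fin.ext ?_), h1⟩
  obtain ⟨i, hi⟩ := h2 p
  obtain ⟨i', hi'⟩ := h2 p'
  have k := h1 i p
  have k' := h1 i' p'
  rw [h] at k
  obtain rfl : i = i' := Fin.ext (by split_ifs at k k' <;> omega)
  split_ifs at k k' <;> omega

lemma th_uniq (n : ℕ) (hn : n = 2 * (n / 2)) (c : Fin (n / 2) → Bool) {σ σ' : Perm (Fin n)}
    (h : IsThorp n c σ) (h' : IsThorp n c σ') : σ = σ' := by
  ext p
  by_cases hp : p.val < n / 2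
  · rw [(h ⟨p, hp⟩ p).1 rfl, (h' ⟨p, hp⟩ p).1 rfl]
  · have : p.val = n / 2 + (p.val - n / 2) := by omega
    rw [(h ⟨p - n / 2, by omega⟩ p).2 this, (h' ⟨p - n / 2, by omega⟩ p).2 this]

lemma law_eq (n : ℕ) (hn : n = 2 * (n / 2)) (th : (Fin (n / 2) → Bool) → Perm (Fin n))
    (h : ∀ c, IsThorp n c (th c)) (σ : Perm (Fin n)) :
    thorpLaw n σ = av fun c => ind (th c = σ) := by
  classical
  have : ∀ c, ind (th c = σ) = if IsThorp n c σ then 1 else 0 := fun c => by
    rw [← ind_eq_ite]; exact ind_congr ⟨fun e => e ▸ h c, th_uniq n hn c (h c)⟩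
  simp [thorpLaw, av, this, Fintype.card_subtype]

def val : ∀ t, Pos t → ℕ
  | 0, _ => 0
  | t + 1, x => val t x.1 + if x.2 then 2 ^ t else 0

lemma val_lt (t : ℕ) (u : Pos t) : val t u < 2 ^ t := by
  induction t with
  | zero => simp [val]
  | succ t ih => have := ih u.1; simp only [val, pow_succ]; split_ifs <;> omega

lemma val_inj (t : ℕ) : Function.Injective (val t) := by
  induction t with
  | zero => exact fun _ _ _ => rfl
  | succ t ih =>
    rintro ⟨u, c⟩ ⟨v, c'⟩ h
    have := val_lt t u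
    have := val_lt t v
    simp only [val] at h
    cases c <;> cases c' <;> simp at h <;> first | omega | rw [ih h]

lemma link (n : ℕ) (hn : n = 2 * (n / 2)) (th : (Fin (n / 2) → Bool) → Perm (Fin n))
    (h : ∀ c, IsThorp n c (th c)) (t : ℕ) : ∀ (F : Type) [Fintype F] [DecidableEq F]
    (e : Pos t × F ≃ Fin n) (M : ℕ) (φ : F → ℕ), n = 2 ^ t * M → (∀ f, φ f < M) →
    (∀ u f, (e (u, f)).val = val t u * M + φ f) → ∀ Ψ, Ex (thorpLaw n) t Ψ =
      av fun b : F → Bf t => Ψ (th (fun _ => false) ^ t *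
        e.permCongr (Equiv.prodCongrLeft fun f => bf t (b f))) := by
  induction t with
  | zero =>
    intro F _ _ e M φ _ _ _ Ψ
    rw [Ex_zero, ← av_const (α := F → Bf 0) (Ψ 1)]
    exact av_congr fun b => congrArg Ψ (by ext p; simp [bf, Equiv.prodCongrLeft])
  | succ t ih =>
    intro F _ _ e M φ h1 h2 h3 Ψ
    have hm : n / 2 = 2 ^ t * M := by rw [pow_succ, mul_right_comm] at h1; omega
    have hl : ∀ u f, val t u * M + φ f < n / 2 := fun u f => by
      have := Nat.mul_le_mul_right M (val_lt t u)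
      have := h2 f
      rw [hm]; rw [Nat.succ_mul] at *; omega
    let ι : Pos t × F ≃ Fin (n / 2) := Equiv.ofBijective (fun x => ⟨_, hl x.1 x.2⟩)
      ((Fintype.bijective_iff_injective_and_card _).2 ⟨fun x y k => by
        have := e.injective (Fin.ext (show (e ((x.1, false), x.2)).val = (e ((y.1, false), y.2)).val
          by rw [h3, h3]; exact congrArg Fin.val k))
        exact Prod.ext (congrArg (·.1.1) this) (congrArg (·.2) this), by
        have := Fintype.card_congr e
        rw [Fintype.card_prod, card_pos, Fintype.card_fin, pow_succ, mul_right_comm] at this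
        rw [Fintype.card_prod, card_pos, Fintype.card_fin]; omega⟩)
    have hv : ∀ c u b f, (th c (e ((u, b), f))).val =
        2 * (val t u * M + φ f) + if xor b (c (ι (u, f))) then 1 else 0 := by
      intro c u b f
      have := h c (ι (u, f)) (e ((u, b), f))
      cases b
      · rw [this.1 (by rw [h3]; rfl)]; simp [ι]
      · rw [this.2 (by
          rw [h3]; change (val t u + 2 ^ t) * M + φ f = n / 2 + (val t u * M + φ f); rw [hm]; ring)]
        cases c (ι (u, f)) <;> simp [ι]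
    let r : Pos t × (F × Bool) ≃ Pos (t + 1) × F :=
      { toFun := fun x => ((x.1, x.2.2), x.2.1), invFun := fun x => (x.1.1, x.2, x.1.2)
        left_inv := fun _ => rfl, right_inv := fun _ => rfl }
    have key := ih (F × Bool) (r.trans (e.trans (th fun _ => false))) (2 * M)
      (fun x => 2 * φ x.1 + if x.2 then 1 else 0) (by rw [h1]; ring)
      (fun x => by have := h2 x.1; split_ifs <;> omega)
      (fun u x => (hv _ u x.2 x.1).trans (by simp; ring))
    let E : (Fin (n / 2) → Bool) × (F × Bool → Bf t) ≃ (F → Bf (t + 1)) :=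
      { toFun := fun x f => (fun u => x.1 (ι (u, f)), x.2 (f, false), x.2 (f, true))
        invFun := fun b => (fun i => (b (ι.symm i).2).1 (ι.symm i).1,
          fun x => cond x.2 (b x.1).2.2 (b x.1).2.1)
        left_inv := fun x => Prod.ext (funext fun i => by simp)
          (funext fun ⟨_, c⟩ => by cases c <;> rfl)
        right_inv := fun b => funext fun f => by simp }
    rw [Ex_succ, ← av_equiv E, av_prod]
    simp only [law_eq n hn th h, ← av_mul_right, ← av_sum, sum_ind_eq, key]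
    refine av_congr fun c => av_congr fun b => congrArg Ψ ?_
    rw [pow_succ, mul_assoc, mul_assoc]
    congr 1
    ext1 p
    obtain ⟨⟨⟨u, a⟩, f⟩, rfl⟩ := e.surjective p
    have : th c (e ((u, a), f)) =
        (r.trans (e.trans (th fun _ => false))) (u, f, xor a (c (ι (u, f)))) :=
      Fin.ext ((hv _ _ _ _).trans ((hv _ _ _ _).trans (by simp)).symm)
    rw [Perm.mul_apply, Perm.mul_apply, this, permCongr_apply, permCongr_apply, symm_apply_apply,
      symm_apply_apply]
    change _ = th _ (e ((cond (xor a (c (ι (u, f)))) (bf t (b (f, true))) (bf t (b (f, false))) u,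
      xor a (c (ι (u, f)))), f))
    cases xor a (c (ι (u, f))) <;> rfl

lemma upper : ∃ N d0 : ℕ, ∀ d, d0 ≤ d → d * N ∈ mixedTimes (2 ^ d) := by
  obtain ⟨N, d0, hN⟩ := chi
  refine ⟨N, d0 + 1, fun d hd => ?_⟩
  have hn : 2 ^ d = 2 * (2 ^ d / 2) := by
    obtain ⟨d, rfl⟩ : ∃ d', d = d' + 1 := ⟨d - 1, by omega⟩
    rw [pow_succ]; omega
  choose th h using ex_th _ hn
  let e : Pos d ≃ Fin (2 ^ d) := Equiv.ofBijective (fun u => ⟨_, val_lt d u⟩)
    ((Fintype.bijective_iff_injective_and_card _).2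
      ⟨fun x y k => val_inj d (congrArg Fin.val k), by simp [card_pos]⟩)
  let θ := e.permCongrHom
  obtain ⟨ρ, hρ⟩ := θ.surjective (th (fun _ => false) ^ d)
  have k1 : ∀ Ψ, Ex (thorpLaw (2 ^ d)) d Ψ = av fun a => Ψ (θ (ρ * bf d a)) := fun Ψ => by
    rw [link _ hn th h d Unit ((Equiv.prodUnique _ _).trans e) 1 (fun _ => 0) (by simp) (by simp)
      (fun u f => by simp [e]), ← av_equiv (Equiv.funUnique Unit (Bf d))]
    refine av_congr fun b => congrArg Ψ ?_
    rw [map_mul, hρ]; rfl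
  have k2 : ∀ m π σ, Ex (thorpLaw (2 ^ d)) (d * m) (fun g => Lm (θ.symm g) π σ) =
      ((Lm ρ * XB d) ^ m) π σ := by
    intro m
    induction m with
    | zero => intro π σ; simp [Ex_zero, Lm_one]
    | succ m ih =>
      intro π σ
      have : ∀ g, (av fun a => Lm (θ.symm (g * θ (ρ * bf d a))) π σ) =
          ∑ τ, Lm (θ.symm g) π τ * (Lm ρ * XB d) τ σ := fun g => by
        rw [← mul_apply]
        simp only [XB, mul_avM, Lm_mul, map_mul θ.symm, MulEquiv.symm_apply_apply]; rfl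
      rw [mul_add, mul_one, Ex_add, pow_succ, mul_apply]
      simp only [k1, this, ← ih]
      simp only [Ex, mul_sum, sum_mul, mul_assoc]
      exact sum_comm
  have k3 := hN d (by omega) ρ
  obtain ⟨P, hP⟩ : ∃ P, P = convPow (thorpLaw (2 ^ d)) (d * N) := ⟨_, rfl⟩
  have k4 : ∀ σ, ∑ π, (((Lm ρ * XB d) ^ N) π σ - 1 / Fintype.card (Perm (Pos d))) ^ 2 =
      ∑ g, (P g - 1 / Fintype.card (Perm (Fin (2 ^ d)))) ^ 2 := fun σ => by
    refine Eq.trans ?_ (((Equiv.mulRight σ⁻¹).trans θ.toEquiv).sum_comp _)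
    refine sum_congr rfl fun π _ => ?_
    rw [← k2, Fintype.card_congr θ.toEquiv, Ex, ← hP, ← sum_ind_eq _ P]
    congr 2
    refine sum_congr rfl fun g _ => (mul_comm _ _).trans (congrArg (· * _) (ind_congr ?_))
    change _ ↔ θ (π * σ⁻¹) = g
    rw [← MulEquiv.eq_symm_apply, mul_inv_eq_iff_eq_mul]
  rw [funext k4, sum_const, card_univ, nsmul_eq_mul, Fintype.card_congr θ.toEquiv] at k3
  have k5 := sq_sum_le_card_mul_sum_sq (s := univ)
    (f := fun g => |P g - 1 / Fintype.card (Perm (Fin (2 ^ d)))|)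
  simp only [sq_abs, card_univ] at k5
  change 1 / 2 * ∑ g, |convPow _ _ g - 1 / _| ≤ _
  rw [← hP]
  nlinarith

lemma lower (d t : ℕ) (hd : 2 ≤ d) (ht : t ∈ mixedTimes (2 ^ d)) : d ≤ t + 2 := by
  obtain ⟨d, rfl⟩ : ∃ d', d = d' + 1 := ⟨d - 1, by omega⟩
  obtain ⟨m, hm⟩ : ∃ m, m = 2 ^ d := ⟨_, rfl⟩
  have e : 2 ^ (d + 1) = m + m := by rw [pow_succ, hm]; omega
  have m2 : 2 ^ 1 ≤ m := hm ▸ Nat.pow_le_pow_right (by norm_num) (by omega)
  rw [e] at ht
  have hn : m + m = 2 * ((m + m) / 2) := by omega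
  choose th h using ex_th _ hn
  have k1 := supp_le (thorpLaw (m + m)) th (fun g hg => by
    by_contra hc
    exact hg (by rw [law_eq _ hn th h]; simp only [fun c => ind_neg fun e => hc ⟨c, e⟩, av_zero])) t
  change 1 / 2 * ∑ g, |convPow _ _ g - 1 / _| ≤ _ at ht
  generalize convPow (thorpLaw (m + m)) t = P at *
  have c0 : (0 : ℝ) < Fintype.card (Perm (Fin (m + m))) := by positivity
  have k2 : ∑ g : Perm (Fin (m + m)), (1 - if P g ≠ 0 then 1 else 0) *
      (1 / (Fintype.card (Perm (Fin (m + m))) : ℝ)) ≤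
      ∑ g, |P g - 1 / Fintype.card (Perm (Fin (m + m)))| := sum_le_sum fun g _ => by
    by_cases hg : P g = 0 <;> simp [hg]
  rw [← sum_mul, sum_sub_distrib, sum_boole, sum_const, card_univ, nsmul_one, mul_one_div,
    div_le_iff₀ c0] at k2
  have k3 : Fintype.card (Perm (Fin (m + m))) ≤ 2 * (univ.filter fun g => P g ≠ 0).card := by
    have : (Fintype.card (Perm (Fin (m + m))) : ℝ) ≤ 2 * (univ.filter fun g => P g ≠ 0).card := by
      nlinarith
    exact_mod_cast this
  have k4 := Nat.factorial_mul_pow_le_factorial (m := m) (n := m)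
  have k5 : m ^ m ≤ m.factorial * (m + 1) ^ m :=
    (Nat.pow_le_pow_left m.le_succ _).trans (Nat.le_mul_of_pos_left _ m.factorial_pos)
  rw [Fintype.card_perm, Fintype.card_fin] at k3
  rw [Fintype.card_fun, Fintype.card_bool, Fintype.card_fin, ← pow_mul,
    show (m + m) / 2 = m by omega] at k1
  have k6 : 2 ^ (d * m) ≤ 2 ^ (m * t + 1) := by
    rw [pow_mul, ← hm, pow_succ]; omega
  have k7 := (Nat.pow_le_pow_iff_right (by norm_num)).1 k6
  by_contra hc
  have : (t + 2) * m ≤ d * m := Nat.mul_le_mul_right _ (by omega)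
  nlinarith

end Vale.Agent.P162
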