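import Vale.Agent.P162.Coll

namespace Vale.Agent.P162

open Finset Equiv

variable {Q : Type} [Fintype Q] [DecidableEq Q]

def Good (S : Finset Q) (σ0 σ1 : Perm Q) {C : Type} [Zero C] (u : Q → C) : Prop :=
  (∀ p ∉ S, u p = 0) ∧ u ∘ σ0.symm = u ∘ σ1.symm

noncomputable def Nl (C : Type) [Fintype C] [Zero C] (S : Finset Q) (σ0 σ1 : Perm Q) : ℝ :=
  ∑ u : Q → C, ind (Good S σ0 σ1 u)

lemma one_le_Nl (C : Type) [Fintype C] [Zero C] (S : Finset Q) (σ0 σ1 : Perm Q) :
    1 ≤ Nl C S σ0 σ1 := by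
  have := single_le_sum (f := fun u : Q → C => ind (Good S σ0 σ1 u)) (fun u _ => ind_nonneg _)
    (mem_univ 0)
  rwa [ind_pos (show Good S σ0 σ1 (0 : Q → C) from ⟨fun _ _ => rfl, rfl⟩)] at this

lemma Nl_pow (r : ℕ) (S : Finset Q) (σ0 σ1 : Perm Q) :
    Nl (ZMod 2) S σ0 σ1 ^ r = Nl (Fin r → ZMod 2) S σ0 σ1 := by
  unfold Nl
  rw [← (Equiv.piComm (fun (_ : Fin r) (_ : Q) => ZMod 2)).sum_comp, ← Fin.prod_const,
    prod_univ_sum, Fintype.piFinset_univ]
  refine sum_congr rfl fun u _ => ?_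
  rw [← ind_forall]
  refine ind_congr ⟨fun h => ⟨fun p hp => funext fun i => (h i).1 p hp,
    funext fun p => funext fun i => congrFun (h i).2 p⟩, fun h i =>
    ⟨fun p hp => congrFun (h.1 p hp) i, funext fun p => congrFun (congrFun h.2 p) i⟩⟩

lemma Nl_bound (C : Type) [Fintype C] [DecidableEq C] [AddCommGroup C] {Ω0 Ω1 : Type}
    [Fintype Ω0] [Fintype Ω1] (p0 : Ω0 → Perm Q) (p1 : Ω1 → Perm Q) (z : ℝ) (h0 : Bd C p0 z)
    (h1 : Bd C p1 z) (S : Finset Q) (ζ0 ζ1 : Perm Q) :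
    (av fun a => av fun b => Nl C S ((p0 a)⁻¹ * ζ0) ((p1 b)⁻¹ * ζ1)) ≤ Real.exp (z * S.card) := by
  have key : ∀ {Ω : Type} [Fintype Ω] (p : Ω → Perm Q) (ζ : Perm Q), Bd C p z →
      ∑ u : Q → C, ind (∀ q ∉ S, u q = 0) * (av fun a => av fun b =>
        ind ((u ∘ ζ.symm) ∘ p a = (u ∘ ζ.symm) ∘ p b) * (1 * 1)) ≤ Real.exp (z * S.card) := by
    intro Ω _ p ζ h
    have := h (fun q => if ζ.symm q ∈ S then 1 else 0) (fun q => by split_ifs <;> norm_num)
      (fun q => by split_ifs <;> norm_num)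
    rw [ζ.symm.sum_comp (fun q => if q ∈ S then (1 : ℝ) else 0)] at this
    simp only [sum_ite_mem, univ_inter, sum_const, nsmul_eq_mul, mul_one] at this ⊢
    refine le_trans (le_of_eq ?_) this
    unfold Zc
    refine Eq.trans ?_ (Equiv.sum_comp (Equiv.arrowCongr ζ (Equiv.refl C)) _)
    refine sum_congr rfl fun u _ => ?_
    congr 1
    unfold wt
    rw [← Equiv.prod_comp ζ, ind_forall]
    refine prod_congr rfl fun q _ => ?_
    by_cases h1 : u q = 0 <;> by_cases h2 : q ∈ S <;> simp [h1, h2, ind_eq_ite]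
  have k0 := key p0 ζ0 h0
  have k1 := key p1 ζ1 h1
  refine le_trans ?_ ((div_le_div_of_nonneg_right (add_le_add k0 k1) zero_le_two).trans
    (le_of_eq (by ring)))
  simp only [Nl, av_sum, Good, ind_and, av_mul_left]
  rw [← sum_add_distrib, sum_div]
  refine sum_le_sum fun u _ => ?_
  have := mul_le_mul_of_nonneg_left (psd (fun a => (u ∘ ζ0.symm) ∘ p0 a)
    (fun b => (u ∘ ζ1.symm) ∘ p1 b) (fun _ => 1) (fun _ => 1)) (ind_nonneg (∀ q ∉ S, u q = 0))
  simp only [mul_one] at this ⊢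
  refine le_trans (le_of_eq ?_) (this.trans (le_of_eq (by ring)))
  rfl

def Sset (B : Finset (Q × Bool)) : Finset Q := univ.filter fun u => (u, false) ∈ B ∧ (u, true) ∈ B

def half (B : Finset (Q × Bool)) (ε : Q → Bool) (c : Bool) : Finset Q :=
  univ.filter fun u => sw ε (u, c) ∈ B

lemma card_half (B : Finset (Q × Bool)) (ε : Q → Bool) :
    (half B ε false).card + (half B ε true).card = B.card := by
  have : B.card = ∑ x, if sw ε x ∈ B then 1 else 0 := by
    rw [Equiv.sum_comp (sw ε) (fun x => if x ∈ B then 1 else 0)]; simp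
  rw [this, Fintype.sum_prod_type]
  simp only [half, card_filter, Fintype.sum_bool, sum_add_distrib, add_comm]

lemma card_Sset (B : Finset (Q × Bool)) : (Sset B).card ≤ B.card :=
  card_le_card_of_injOn (fun u => (u, false)) (fun u hu => (mem_filter.1 hu).2.1)
    fun u _ v _ h => (Prod.mk.inj h).1

lemma chi_core (B : Finset (Q × Bool)) (σ0 σ1 : Perm Q) :
    (av fun η : Q → Bool => av fun η' : Q → Bool => ind (∀ y ∈ B, η y.1 = η' (osum σ0 σ1 y).1)) ≤
      (1 / 2) ^ B.card * Nl (ZMod 2) (Sset B) σ0 σ1 := by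
  let s : ZMod 2 → Bool → ℝ := fun z b => if z = 0 then 1 else if b then -1 else 1
  have h2 : ∀ z : ZMod 2, z = 0 ∨ z = 1 := by decide
  have hs : ∀ z z', av (fun b => s z b * s z' b) = ind (z = z') := by
    intro z z'
    rcases h2 z with rfl | rfl <;> rcases h2 z' with rfl | rfl <;> simp [av_bool, s, ind_eq_ite]
  have e1 : ∀ η η' : Q → Bool, ind (∀ y ∈ B, η y.1 = η' (osum σ0 σ1 y).1) =
      ∑ z : Q × Bool → ZMod 2, ((1 / 2) ^ B.card * ind (∀ y ∉ B, z y = 0)) *
        ((∏ u, s (z (u, false)) (η u) * s (z (u, true)) (η u)) *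
         (∏ v, s (z (σ0.symm v, false)) (η' v) * s (z (σ1.symm v, true)) (η' v))) := by
    intro η η'
    have e2 : ∀ y : Q × Bool, ind (y ∈ B → η y.1 = η' (osum σ0 σ1 y).1) = ∑ z : ZMod 2,
        ((if y ∈ B then 1 / 2 else 1) * ind (y ∉ B → z = 0)) *
          (s z (η y.1) * s z (η' (osum σ0 σ1 y).1)) := by
      intro y
      have : (univ : Finset (ZMod 2)) = {0, 1} := by decide
      rw [this, sum_pair (by decide)]
      by_cases hy : y ∈ B <;> cases η y.1 <;> cases η' (osum σ0 σ1 y).1 <;>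
        simp [hy, s, ind_eq_ite] <;> norm_num
    rw [ind_forall, funext e2, prod_univ_sum, Fintype.piFinset_univ]
    refine sum_congr rfl fun z _ => ?_
    rw [prod_mul_distrib, prod_mul_distrib, prod_mul_distrib, ind_forall]
    congr 2
    · simp
    · simp only [Fintype.prod_prod_type, Fintype.prod_bool, mul_comm]
    · rw [← (osum σ0 σ1).symm.prod_comp]
      simp only [Fintype.prod_prod_type, Fintype.prod_bool, apply_symm_apply, mul_comm]
      rfl
  simp only [e1, av_sum, av_mul_left, av_mul_right]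
  have e3 : ∀ z : Q × Bool → ZMod 2, (av fun η : Q → Bool =>
      ∏ u, s (z (u, false)) (η u) * s (z (u, true)) (η u)) = ind (∀ u, z (u, false) = z (u, true)) := by
    intro z
    rw [av_pi (fun u b => s (z (u, false)) b * s (z (u, true)) b), ind_forall]; simp only [hs]
  have e4 : ∀ z : Q × Bool → ZMod 2, (av fun η : Q → Bool =>
      ∏ v, s (z (σ0.symm v, false)) (η v) * s (z (σ1.symm v, true)) (η v)) =
      ind (∀ v, z (σ0.symm v, false) = z (σ1.symm v, true)) := by
    intro z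
    rw [av_pi (fun v b => s (z (σ0.symm v, false)) b * s (z (σ1.symm v, true)) b), ind_forall]
    simp only [hs]
  simp only [e3, e4, mul_assoc, ← mul_sum]
  refine mul_le_mul_of_nonneg_left ?_ (by positivity)
  let e : (Q → ZMod 2) × (Q → ZMod 2) ≃ (Q × Bool → ZMod 2) :=
    { toFun := fun v x => cond x.2 v.2 v.1 x.1
      invFun := fun v => (fun u => v (u, false), fun u => v (u, true))
      left_inv := fun v => rfl
      right_inv := fun v => funext fun ⟨u, c⟩ => by cases c <;> rfl }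
  rw [← e.sum_comp, Fintype.sum_prod_type]
  refine sum_le_sum fun u _ => ?_
  rw [← sum_ind_eq u (fun _ => ind (Good (Sset B) σ0 σ1 u))]
  refine sum_le_sum fun u' _ => ?_
  simp only [← ind_and]
  refine ind_mono fun ⟨k1, k2, k3⟩ => ?_
  obtain rfl : u = u' := funext k2
  refine ⟨rfl, fun p hp => ?_, funext k3⟩
  simp only [Sset, mem_filter, mem_univ, true_and, not_and_or] at hp
  rcases hp with hp | hp
  · exact k1 _ hp
  · exact k1 _ hp

lemma chi_bound (B : Finset (Q × Bool)) (σ0 σ1 : Perm Q) (ε0 ε0' : Q → Bool)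
    (τ : Q × Bool → Q × Bool) (h : ∀ x ∈ B, (sw ε0' * osum σ0 σ1 * sw ε0) x = τ x) :
    (av fun ε : Q → Bool => av fun ε' : Q → Bool => ind (∀ x ∈ B, (sw ε' (τ x)).2 = (sw ε x).2)) ≤
      (1 / 2) ^ B.card * Nl (ZMod 2) (Sset B) σ0 σ1 := by
  have := chi_core (B.map (sw ε0).toEmbedding) σ0 σ1
  have hS : Sset (B.map (sw ε0).toEmbedding) = Sset B := by
    ext u
    simp only [Sset, mem_filter, mem_univ, true_and, mem_map_equiv]
    change sw ε0 _ ∈ B ∧ sw ε0 _ ∈ B ↔ _
    cases h : ε0 u <;> simp [h, and_comm]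
  rw [card_map, hS] at this
  refine le_trans ?_ this
  rw [← av_equiv (xorE ε0)]
  refine av_mono fun η => ?_
  rw [← av_equiv (xorE ε0')]
  refine av_mono fun η' => ind_mono fun k y hy => ?_
  obtain ⟨⟨u, c⟩, hx, rfl⟩ := mem_map.1 hy
  have k1 := k _ hx
  rw [← h _ hx] at k1
  simp only [Perm.mul_apply, sw_apply, osum_apply, xorE, Equiv.coe_fn_mk,
    Equiv.coe_toEmbedding] at k1 ⊢
  revert k1
  generalize η' _ = b1
  generalize ε0' _ = b2
  cases b1 <;> cases b2 <;> cases η u <;> cases ε0 u <;> cases c <;> simp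

end Vale.Agent.P162
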