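import Vale.Agent.P162.Gram

namespace Vale.Agent.P162

open Finset Matrix Equiv

variable {Q ι : Type} [Fintype Q] [DecidableEq Q] [DecidableEq ι]

lemma pow_eig {n : Type} [Fintype n] [DecidableEq n] {M : Matrix n n ℝ} {v : n → ℝ} {l : ℝ}
    (h : M *ᵥ v = l • v) (m : ℕ) : (M ^ m) *ᵥ v = l ^ m • v := by
  induction m with
  | zero => simp
  | succ m ih => rw [pow_succ', ← mulVec_mulVec, ih, mulVec_smul, h, smul_smul, pow_succ]

lemma gb2 (γ : Q → ι) (big : Q → Prop) [DecidablePred big] (v : Perm Q → ℝ) (hv : v ≠ 0) (κ : ℝ)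
    (hκ : 0 < κ) (hκ1 : κ ≤ 1) (inv : ∀ x y, big x → big y → γ x = γ y → Rt (swap x y) v = v)
    (rel : ∀ p, ¬ big p → v + ∑ x ∈ univ.filter (fun x => big x ∧ γ x = γ p), Rt (swap x p) v = 0)
    {I : Type} [Fintype I] [DecidableEq I] {m : ℕ} (z0 : I ↪ Q) (e : I × Fin m ↪ Q)
    (h0 : ∀ i, ¬ big (z0 i)) (h1 : ∀ x, big (e x)) (h2 : ∀ i b, γ (e (i, b)) = γ (z0 i))
    (hD : ∀ p, ¬ big p → (1 + κ) * (univ.filter fun i => γ (z0 i) = γ p).card ≤
      κ * ((univ.filter fun x => big x ∧ γ x = γ p).card + 1)) :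
    ∃ B : Finset Q, B.card = Fintype.card I * (m + 1) ∧ (∀ i, z0 i ∈ B) ∧
      ∀ (M : Matrix (Perm Q) (Perm Q) ℝ) (l : ℝ), Mᵀ = M →
      (∀ σ : Perm Q, (∀ x ∈ B, σ x ∈ B) → M *ᵥ Rt σ v = l • Rt σ v) →
      (m + 1 : ℝ) ^ Fintype.card I * l ^ 64 ≤ (1 + m * κ) ^ Fintype.card I * trace (M ^ 64) := by
  let z : I × Fin (m + 1) ↪ Q := ⟨fun x => Fin.cases (z0 x.1) (fun b => e (x.1, b)) x.2, by
    rintro ⟨i, b⟩ ⟨i', b'⟩ h
    cases b using Fin.cases <;> cases b' using Fin.cases <;>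
      simp only [Fin.cases_zero, Fin.cases_succ] at h
    · rw [z0.injective h]
    · exact absurd (h ▸ h1 _) (h0 i)
    · exact absurd (h ▸ h1 _) (h0 i')
    · obtain ⟨rfl, rfl⟩ := Prod.mk.inj (e.injective h); rfl⟩
  refine ⟨univ.map z, by simp, fun i => mem_map_of_mem z (mem_univ (i, 0)), fun M l hM h => ?_⟩
  have := gb γ big v hv κ hκ hκ1 inv rel z (fun i b => ?_) (fun i b => ?_) hD (M ^ 32) (l ^ 32)
    fun σ hσ => pow_eig (h σ fun x hx => ?_) 32
  · rwa [transpose_pow, hM, ← pow_add, ← pow_mul] at this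
  · cases b using Fin.cases
    · exact iff_of_false (h0 i) (by simp)
    · exact iff_of_true (h1 _) (Fin.succ_ne_zero _)
  · cases b using Fin.cases
    · rfl
    · exact h2 _ _
  · obtain ⟨x, -, rfl⟩ := mem_map.1 hx
    obtain ⟨y, hy⟩ := hσ x
    rw [hy]; exact mem_map_of_mem z (mem_univ y)

def Inv (μ : Q → ι) (v : Perm Q → ℝ) : Prop := ∀ h : Perm Q, (∀ x, μ (h x) = μ x) → Rt h v = v

omit [Fintype Q] [DecidableEq ι] in
lemma swap_pres {μ : Q → ι} {x y : Q} (h : μ x = μ y) (z : Q) : μ (swap x y z) = μ z := by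
  rw [swap_apply_def]
  split_ifs with c1 c2
  · rw [c1, h]
  · rw [c2, h]
  · rfl

lemma Inv.move {μ : Q → ι} {v : Perm Q → ℝ} (hv : Inv μ v) (p : Q) (i : ι) (hp : μ p ≠ i) :
    Inv (Function.update μ p i) (v + ∑ x ∈ univ.filter (fun x => μ x = i), Rt (swap x p) v) := by
  obtain ⟨μ', hμ⟩ : ∃ μ', μ' = Function.update μ p i := ⟨_, rfl⟩
  have m1 : μ' p = i := by simp [hμ]
  have m2 : ∀ x, x ≠ p → μ' x = μ x := fun x hx => by simp [hμ, hx]
  have e : v + ∑ x ∈ univ.filter (fun x => μ x = i), Rt (swap x p) v =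
      ∑ x ∈ univ.filter (fun x => μ' x = i), Rt (swap x p) v := by
    rw [← add_sum_erase (univ.filter fun x => μ' x = i) _ (mem_filter.2 ⟨mem_univ p, m1⟩), swap_self]
    refine congrArg₂ _ (Rt_one v).symm (sum_congr ?_ fun _ _ => rfl)
    ext x
    by_cases hx : x = p
    · simp [hx, hp]
    · simp [hx, m2 x hx]
  rw [e, ← hμ]
  intro h hh
  have e2 : Rt h (∑ x ∈ univ.filter (fun x => μ' x = i), Rt (swap x p) v) =
      ∑ x ∈ univ.filter (fun x => μ' x = i), Rt (swap (h x) p) v := by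
    ext π
    simp only [Rt, Finset.sum_apply]
    refine sum_congr rfl fun x hx => ?_
    have hx := (mem_filter.1 hx).2
    have k : (swap (h x) p * h * swap x p) p = p := by simp
    have := hv (swap (h x) p * h * swap x p) fun y => by
      by_cases hy : y = p
      · rw [hy, k]
      · rw [← m2 y hy, ← m2 _ (fun e => hy ((swap (h x) p * h * swap x p).injective (e.trans k.symm)))]
        simp only [Perm.mul_apply]
        rw [swap_pres (μ := μ') (by rw [hh, hx, m1]), hh, swap_pres (μ := μ') (by rw [hx, m1])]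
    rw [← congrFun this (π * swap (h x) p)]
    simp only [Rt, mul_assoc, swap_mul_self_mul]
  rw [e2]
  exact sum_bijective h h.bijective (fun x => by simp [hh]) fun _ _ => rfl

lemma Inv.VB {μ : Q → ι} {v : Perm Q → ℝ} (hv : Inv μ v) (i : ι) :
    v ∈ VB (univ.filter fun x => μ x ≠ i) := by
  intro π σ h
  have k : ∀ x, μ x ≠ i → (σ⁻¹ * π) x = x := fun x hx => by
    rw [Perm.mul_apply, h x (by simpa using hx)]; simp
  have := hv (σ⁻¹ * π) fun x => by
    by_cases hx : μ x = i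
    · by_contra hn
      rw [hx] at hn
      rw [(σ⁻¹ * π).injective (k _ hn)] at hn
      exact hn hx
    · rw [k x hx]
  rw [← congrFun this σ]; simp [Rt]

lemma perp_self {n : Type} [Fintype n] {V : Submodule ℝ (n → ℝ)} {u : n → ℝ} (h : u ∈ V)
    (h' : u ∈ perp V) : u = 0 := dotProduct_self_eq_zero.1 (h' u h)

lemma low (K : Matrix (Perm Q) (Perm Q) ℝ) (h1 : LT K) (h2 : Kᵀ = K)
    (h3 : ∀ B, PB B * K = K * PB B) (k m : ℕ) (hm : 1 ≤ m) (hn : (m + 2) * (k + 1) ≤ Fintype.card Q)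
    (Φ : ℝ) (hΦ : ∀ B : Finset Q, B.card = (k + 1) * (m + 1) → trace ((K * PB B) ^ 64) ≤ Φ)
    (l : ℝ) (w : Perm Q → ℝ) (hw : w ∈ VL Q (k + 1) ⊓ perp (VL Q k)) (h0 : w ≠ 0)
    (hl : K *ᵥ w = l • w) : (m + 1 : ℝ) ^ (k + 1) * l ^ 64 ≤ 2 ^ (k + 1) * Φ := by
  have hE : RI (perp (VL Q k) ⊓ eigS K l) := (RI_VL k).perp.inf (RI_eigS h1 l)
  obtain ⟨B, hB, v, hv, hvB, v0⟩ := exists_VB (by nlinarith) hE ⟨hw.2, hl⟩ hw.1 h0
  let μ : Q → Option Q := fun x => if x ∈ B then some x else none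
  have hμ : Inv μ v := fun h hh => funext fun π => hvB _ _ fun x hx => by
    have := hh x
    simp only [μ, if_pos hx] at this
    split_ifs at this
    rw [Perm.mul_apply, Option.some.inj this]
  have cB : (univ.filter fun x => x ∉ B).card = Fintype.card Q - (k + 1) := by
    rw [← hB, ← card_compl]; congr 1; ext; simp
  obtain ⟨e⟩ : Nonempty (B × Fin m ↪ {x // x ∉ B}) := Function.Embedding.nonempty_of_card_le (by
    rw [Fintype.card_subtype, cB]; simp only [Fintype.card_prod, Fintype.card_coe, Fintype.card_fin, hB]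
    exact Nat.le_sub_of_add_le (by nlinarith))
  have m0 : (0 : ℝ) < m := by exact_mod_cast hm
  have key := gb2 (fun _ => ()) (fun x => x ∉ B) v v0 (1 / m) (by positivity)
    (by rw [div_le_one m0]; exact_mod_cast hm)
    (fun x y hx hy _ => hμ _ (swap_pres (by simp [μ, hx, hy]))) (fun p hp => ?_)
    (Function.Embedding.subtype (· ∈ B)) (e.trans (Function.Embedding.subtype _))
    (fun i => not_not.2 i.2) (fun x => (e x).2) (fun _ _ => rfl) (fun p _ => ?_)
  · obtain ⟨B', c1, c2, c3⟩ := key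
    rw [Fintype.card_coe, hB] at c1 c3
    have hS : (K * PB B')ᵀ = K * PB B' := by rw [transpose_mul, PB_T, h2, h3]
    have := c3 (K * PB B') l hS fun σ hσ => by
      rw [← mulVec_mulVec, PB_fix (VB_mono (fun x hx => ?_) (Rt_VB σ hvB))]
      · exact (hE σ v hv).2
      · obtain ⟨y, hy, rfl⟩ := mem_map.1 hx
        exact hσ _ (c2 ⟨y, hy⟩)
    rw [mul_one_div_cancel m0.ne', one_add_one_eq_two] at this
    exact this.trans (mul_le_mul_of_nonneg_left (hΦ _ c1) (by positivity))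
  · rw [not_not] at hp
    have k1 := (hμ.move p none (by simp [μ, hp])).VB none
    have e1 : (univ.filter fun x => μ x = none) = univ.filter fun x => x ∉ B ∧ () = () := by
      ext; simp [μ]
    have e2 : (univ.filter fun x => Function.update μ p none x ≠ none) = B.erase p := by
      ext x; by_cases hx : x = p <;> simp [μ, hx]
    rw [e1, e2] at k1
    exact perp_self (VB_le (by rw [card_erase_of_mem hp, hB]; rfl) k1)
      (Submodule.add_mem _ hv.1 (Submodule.sum_mem _ fun x _ => (hE _ v hv).1))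
  · simp only [and_true, cB, filter_true, card_univ, Fintype.card_coe, hB]
    have : (k + 1) ≤ Fintype.card Q := by nlinarith
    have hn' : ((m : ℝ) + 2) * (k + 1) ≤ Fintype.card Q := by exact_mod_cast hn
    rw [Nat.cast_sub this]
    field_simp
    push_cast; nlinarith

lemma frame (k : ℕ) (hk : k + 1 ≤ Fintype.card Q) (f : Perm Q → ℝ)
    (hf : f ∈ VL Q (k + 1) ⊓ perp (VL Q k)) :
    f ⬝ᵥ f ≤ ∑ B ∈ powersetCard (k + 1) (univ : Finset Q), PB B *ᵥ f ⬝ᵥ PB B *ᵥ f := by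
  have hW : RI (VL Q (k + 1) ⊓ perp (VL Q k)) := (RI_VL _).inf (RI_VL k).perp
  obtain ⟨S, hS⟩ : ∃ S : Matrix (Perm Q) (Perm Q) ℝ,
    S = -∑ B ∈ powersetCard (k + 1) (univ : Finset Q), PB B := ⟨_, rfl⟩
  have s1 : ∀ f, f ⬝ᵥ S *ᵥ f =
      -∑ B ∈ powersetCard (k + 1) (univ : Finset Q), PB B *ᵥ f ⬝ᵥ PB B *ᵥ f := fun f => by
    simp only [hS, neg_mulVec, sum_mulVec, dotProduct_neg, dotProduct_sum, ← dot_symm (PB_T _),
      mulVec_mulVec, PB_PB]
  have s2 : LT S := fun g f => by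
    have : ∀ B : Finset Q, PB (B.map g.toEmbedding) *ᵥ Rt g f = Rt g (PB B *ᵥ f) := fun B => by
      have a1 : NB (B.map g.toEmbedding) = NB B := by
        rw [NB, ← (MulAut.conj g).toEquiv.sum_comp]
        exact sum_congr rfl fun h _ => ind_congr (by rw [forall_mem_map]; simp)
      ext π
      refine Eq.trans ?_ (Equiv.sum_comp (Equiv.mulRight g) _)
      refine sum_congr rfl fun σ _ => congrArg (· * _) ?_
      simp only [PB, of_apply, a1, forall_mem_map]; rfl
    ext π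
    simp only [hS, neg_mulVec, sum_mulVec, Rt, Pi.neg_apply, Finset.sum_apply]
    congr 1
    exact (sum_bijective g.finsetCongr g.finsetCongr.bijective (fun B => by simp)
      fun B _ => (congrFun (this B) π).symm).symm
  have := eig S (by simp only [hS, transpose_neg, transpose_sum, PB_T]) _ (fun f hf => by
    rw [hS, neg_mulVec, sum_mulVec]
    exact Submodule.neg_mem _ (Submodule.sum_mem _ fun B _ => hW.PB_mem B hf)) (-1)
    (fun l w hw w0 hl => ?_) f hf
  · rw [s1] at this; linarith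
  obtain ⟨B, hB, v, hv, hvB, v0⟩ := exists_VB hk (RI_eigS s2 l) hl hw.1 w0
  have N0 : 0 < v ⬝ᵥ v := (dot_nonneg v).lt_of_ne fun e => v0 (dotProduct_self_eq_zero.1 e.symm)
  have k1 := s1 v
  have k2 := single_le_sum (f := fun B => PB B *ᵥ v ⬝ᵥ PB B *ᵥ v) (fun _ _ => dot_nonneg _)
    (mem_powersetCard_univ.2 hB)
  rw [show S *ᵥ v = l • v from hv, dotProduct_smul, smul_eq_mul] at k1
  simp only [PB_fix hvB] at k2
  nlinarith

end Vale.Agent.P162
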