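import Vale.Agent.P162.Av

namespace Vale.Agent.P162

open Finset Matrix

variable {n : Type} [Fintype n] [DecidableEq n]

open scoped MatrixOrder in
lemma psd_mul {A B : Matrix n n ℝ} (hA : A.PosSemidef) (hB : B.PosSemidef) (h : Commute A B) :
    (A * B).PosSemidef :=
  nonneg_iff_posSemidef.1 (Commute.mul_nonneg (nonneg_iff_posSemidef.2 hA)
    (nonneg_iff_posSemidef.2 hB) h)

omit [DecidableEq n] in
lemma tr_nonneg (A : Matrix n n ℝ) : 0 ≤ trace (Aᵀ * A) :=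
  (posSemidef_conjTranspose_mul_self A).trace_nonneg

lemma tr_cyc (A B : Matrix n n ℝ) (N : ℕ) : trace ((A * B) ^ N) = trace ((B * A) ^ N) := by
  cases N with
  | zero => rfl
  | succ N => rw [pow_succ, ← mul_assoc, mul_pow_mul, trace_mul_comm, ← mul_assoc, ← pow_succ']

lemma chess_aux (i : ℕ) : (∀ C : Matrix n n ℝ, trace (C ^ (2 * 2 ^ i)) ≤ trace ((Cᵀ * C) ^ 2 ^ i)) ∧
    ∀ P Q : Matrix n n ℝ, Pᵀ = P → Qᵀ = Q →
      2 * trace ((P * Q) ^ 2 ^ i) ≤ trace (P ^ (2 * 2 ^ i)) + trace (Q ^ (2 * 2 ^ i)) := by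
  induction i with
  | zero =>
    refine ⟨fun C => ?_, fun P Q hP hQ => ?_⟩
    · have := tr_nonneg (C - Cᵀ)
      have h1 := trace_transpose (C * C)
      have h2 := trace_mul_comm C Cᵀ
      simp only [transpose_sub, transpose_transpose, mul_sub, sub_mul, trace_sub,
        transpose_mul] at this h1
      simp only [pow_zero, mul_one, pow_one, sq]; linarith
    · have := tr_nonneg (P - Q)
      have h2 := trace_mul_comm P Q
      simp only [transpose_sub, hP, hQ, mul_sub, sub_mul, trace_sub] at this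
      simp only [pow_zero, mul_one, pow_one, sq]; linarith
  | succ i ih =>
    have e : 2 * 2 ^ (i + 1) = 2 * (2 * 2 ^ i) := by ring
    have e' : 2 ^ (i + 1) = 2 * 2 ^ i := by ring
    refine ⟨fun C => ?_, fun P Q hP hQ => ?_⟩
    · have h1 := ih.1 (C * C)
      have h2 := ih.2 (C * Cᵀ) (Cᵀ * C) (by simp) (by simp)
      have h3 := tr_cyc (Cᵀ * Cᵀ * C) C (2 ^ i)
      have h4 := tr_cyc Cᵀ C (2 * 2 ^ i)
      rw [e, e', pow_mul, sq]
      simp only [transpose_mul, mul_assoc] at h1 h2 h3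
      linarith
    · have h1 := ih.1 (P * Q)
      have h2 := ih.2 (Q * Q) (P * P) (by simp [hQ]) (by simp [hP])
      have h3 := tr_cyc (Q * P * P) Q (2 ^ i)
      rw [e, e', pow_mul P 2, pow_mul Q 2, sq, sq]
      simp only [transpose_mul, mul_assoc, hP, hQ] at h1 h2 h3
      linarith

lemma chess (k i : ℕ) (C : Matrix n n ℝ) :
    trace (((C ^ 2 ^ k)ᵀ * C ^ 2 ^ k) ^ 2 ^ i) ≤ trace ((Cᵀ * C) ^ 2 ^ (i + k)) := by
  induction k generalizing i with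
  | zero => simp
  | succ k ih =>
    refine le_trans ?_ ((ih (i + 1)).trans_eq (by rw [add_right_comm, add_assoc]))
    rw [pow_succ 2 k, pow_mul, sq, pow_succ' 2 i]
    generalize C ^ 2 ^ k = D
    have h2 := (chess_aux i).2 (D * Dᵀ) (Dᵀ * D) (by simp) (by simp)
    have h3 := tr_cyc (Dᵀ * Dᵀ * D) D (2 ^ i)
    have h4 := tr_cyc Dᵀ D (2 * 2 ^ i)
    simp only [transpose_mul, mul_assoc] at h2 h3 ⊢
    linarith

omit [DecidableEq n] in
lemma young (M : Matrix n n ℝ) (hM : Mᵀ = M) (h0 : ∀ x y, 0 ≤ M x y) (p ρ : ℝ) (hp : 1 ≤ p)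
    (hp2 : p < 2) (h : ∀ x, ∑ y, M x y ^ p ≤ ρ) (x : n) :
    ∑ y, (M * M) x y ^ (p / (2 - p)) ≤ ρ ^ (2 / (2 - p)) := by
  have h2 : 0 < 2 - p := by linarith
  have hr : 1 ≤ p / (2 - p) := by rw [le_div_iff₀ h2]; linarith
  have hs : ∀ x y, M x y = M y x := fun x y => by rw [← transpose_apply M, hM]
  have hρ : 0 ≤ ρ := (sum_nonneg fun y _ => Real.rpow_nonneg (h0 _ _) _).trans (h x)
  have key : ∀ y, (M * M) x y ^ (p / (2 - p)) ≤
      ρ ^ (p / (2 - p) - 1) * ∑ z, M x z ^ p * M z y ^ p := by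
    intro y
    have f0 : ∀ z, 0 ≤ M x z * M z y := fun z => mul_nonneg (h0 _ _) (h0 _ _)
    have k := Real.inner_le_weight_mul_Lp_of_nonneg univ hr (fun z => (M x z * M z y) ^ (p / 2))
      (fun z => (M x z * M z y) ^ (1 - p / 2)) (fun z => Real.rpow_nonneg (f0 z) _)
      (fun z => Real.rpow_nonneg (f0 z) _)
    have e1 : ∀ z, (M x z * M z y) ^ (p / 2) * (M x z * M z y) ^ (1 - p / 2) = M x z * M z y := by
      intro z; rw [← Real.rpow_add' (f0 z) (by linarith)]; simp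
    have e2 : ∀ z, (M x z * M z y) ^ (p / 2) * ((M x z * M z y) ^ (1 - p / 2)) ^ (p / (2 - p)) =
        M x z ^ p * M z y ^ p := by
      intro z
      have : (1 - p / 2) * (p / (2 - p)) = p / 2 := by field_simp
      rw [← Real.rpow_mul (f0 z), this, ← Real.rpow_add' (f0 z) (by linarith),
        ← Real.mul_rpow (h0 _ _) (h0 _ _)]
      simp
    have e3 : ∑ z, (M x z * M z y) ^ (p / 2) ≤ ρ := by
      have : ∀ z, (M x z * M z y) ^ (p / 2) ≤ (M x z ^ p + M y z ^ p) / 2 := by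
        intro z
        have e : ∀ a : ℝ, 0 ≤ a → a ^ p = (a ^ (p / 2)) ^ 2 := fun a ha => by
          rw [← Real.rpow_natCast, ← Real.rpow_mul ha]; norm_num
        rw [Real.mul_rpow (h0 _ _) (h0 _ _), e _ (h0 x z), e _ (h0 y z), hs z y]
        nlinarith [sq_nonneg (M x z ^ (p / 2) - M y z ^ (p / 2))]
      refine (sum_le_sum fun z _ => this z).trans ?_
      rw [← sum_div, sum_add_distrib]; linarith [h x, h y]
    simp only [e1, e2] at k
    have s0 : 0 ≤ ∑ z, (M x z * M z y) ^ (p / 2) := sum_nonneg fun z _ => Real.rpow_nonneg (f0 z) _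
    have s1 : 0 ≤ ∑ z, M x z ^ p * M z y ^ p := sum_nonneg fun z _ =>
      mul_nonneg (Real.rpow_nonneg (h0 _ _) _) (Real.rpow_nonneg (h0 _ _) _)
    rw [mul_apply]
    refine (Real.rpow_le_rpow (sum_nonneg fun z _ => f0 z) k (by linarith)).trans ?_
    rw [Real.mul_rpow (Real.rpow_nonneg s0 _) (Real.rpow_nonneg s1 _), ← Real.rpow_mul s0,
      ← Real.rpow_mul s1, inv_mul_cancel₀ (by linarith), Real.rpow_one, sub_mul,
      inv_mul_cancel₀ (by linarith), one_mul]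
    exact mul_le_mul_of_nonneg_right (Real.rpow_le_rpow s0 e3 (by linarith)) s1
  refine (sum_le_sum fun y _ => key y).trans ?_
  rw [← mul_sum, sum_comm]
  simp only [← mul_sum]
  have : ∑ z, M x z ^ p * ∑ y, M z y ^ p ≤ ρ * ρ := by
    refine (sum_le_sum fun z _ => mul_le_mul_of_nonneg_left (h z)
      (Real.rpow_nonneg (h0 _ _) _)).trans ?_
    rw [← sum_mul]; exact mul_le_mul_of_nonneg_right (h x) hρ
  refine (mul_le_mul_of_nonneg_left this (Real.rpow_nonneg hρ _)).trans (le_of_eq ?_)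
  have e : 2 / (2 - p) = p / (2 - p) - 1 + 2 := by field_simp; ring
  rw [e, Real.rpow_add' hρ (by linarith), ← sq]; simp

lemma young32 (M : Matrix n n ℝ) (hM : Mᵀ = M) (h0 : ∀ x y, 0 ≤ M x y) (R : ℝ) (hR : 0 ≤ R)
    (h : ∀ x, ∑ y, M x y ^ (1 + 1 / 63 : ℝ) ≤ R) :
    trace (M ^ 64) ≤ Fintype.card n * R ^ 63 := by
  have key : ∀ k : ℕ, k ≤ 5 → (M ^ 2 ^ k)ᵀ = M ^ 2 ^ k ∧ (∀ x y, 0 ≤ (M ^ 2 ^ k) x y) ∧
      ∀ x, ∑ y, (M ^ 2 ^ k) x y ^ (64 / (64 - 2 ^ k) : ℝ) ≤ R ^ (63 * 2 ^ k / (64 - 2 ^ k) : ℝ) := by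
    intro k
    induction k with
    | zero => intro _; norm_num at h ⊢; exact ⟨hM, h0, h⟩
    | succ k ih =>
      intro hk
      obtain ⟨h1, h2, h3⟩ := ih (by omega)
      have b0 : (0 : ℝ) < 2 ^ k := by positivity
      have b1 : (2 : ℝ) ^ k ≤ 2 ^ 4 := pow_le_pow_right₀ (by norm_num) (by omega)
      have b2 : (0 : ℝ) < 64 - 2 ^ k := by linarith
      have b3 : (0 : ℝ) < 64 - 2 ^ k * 2 := by linarith
      rw [pow_succ, pow_mul, sq]
      refine ⟨by rw [transpose_mul, h1], fun x y => sum_nonneg fun z _ =>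
        mul_nonneg (h2 _ _) (h2 _ _), fun x => ?_⟩
      have := young _ h1 h2 _ _ (by rw [le_div_iff₀ b2]; linarith)
        (by rw [div_lt_iff₀ b2]; linarith) h3 x
      have e : (2 : ℝ) - 64 / (64 - 2 ^ k) = (64 - 2 ^ k * 2) / (64 - 2 ^ k) := by field_simp; ring
      rw [← Real.rpow_mul hR, e] at this
      have e1 : (64 : ℝ) / (64 - 2 ^ k) / ((64 - 2 ^ k * 2) / (64 - 2 ^ k)) =
        64 / (64 - 2 ^ (k + 1)) := by rw [pow_succ]; field_simp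
      have e2 : (63 : ℝ) * 2 ^ k / (64 - 2 ^ k) * (2 / ((64 - 2 ^ k * 2) / (64 - 2 ^ k))) =
        63 * 2 ^ (k + 1) / (64 - 2 ^ (k + 1)) := by rw [pow_succ]; field_simp
      rwa [e1, e2] at this
  obtain ⟨a5, -, h5⟩ := key 5 le_rfl
  norm_num at h5 a5
  rw [show 64 = 32 + 32 from rfl, pow_add]
  rw [← transpose_pow] at a5
  generalize M ^ 32 = N at *
  rw [trace, ← card_univ, ← nsmul_eq_mul, ← sum_const]
  refine sum_le_sum fun x _ => le_trans (le_of_eq ?_) (h5 x)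
  rw [diag_apply, mul_apply]
  refine sum_congr rfl fun y _ => ?_
  rw [sq]; congr 1; rw [← transpose_apply N, a5]

omit [DecidableEq n] in
lemma dot_nonneg (f : n → ℝ) : 0 ≤ f ⬝ᵥ f := sum_nonneg fun _ _ => mul_self_nonneg _

omit [DecidableEq n] in
lemma dot_symm {S : Matrix n n ℝ} (hS : Sᵀ = S) (f g : n → ℝ) : f ⬝ᵥ S *ᵥ g = S *ᵥ f ⬝ᵥ g := by
  rw [dotProduct_mulVec, ← mulVec_transpose, hS]

omit [DecidableEq n] in
lemma eig (S : Matrix n n ℝ) (hS : Sᵀ = S) (W : Submodule ℝ (n → ℝ)) (hW : ∀ f ∈ W, S *ᵥ f ∈ W)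
    (c : ℝ) (h : ∀ (l : ℝ) (v : n → ℝ), v ∈ W → v ≠ 0 → S *ᵥ v = l • v → l ≤ c) :
    ∀ f ∈ W, f ⬝ᵥ S *ᵥ f ≤ c * f ⬝ᵥ f := by
  intro f hf
  by_cases hf0 : f = 0
  · simp [hf0]
  have nrm : ∀ g ∈ W, g ≠ 0 → ∃ a : ℝ, 0 < a ∧ a ^ 2 * (g ⬝ᵥ g) = 1 ∧
      a • g ∈ {u : n → ℝ | u ∈ W ∧ u ⬝ᵥ u = 1} := by
    intro g hg h0
    have : 0 < g ⬝ᵥ g := (dot_nonneg g).lt_of_ne fun e => h0 (dotProduct_self_eq_zero.1 e.symm)
    have e : (√(g ⬝ᵥ g))⁻¹ ^ 2 * (g ⬝ᵥ g) = 1 := by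
      rw [inv_pow, Real.sq_sqrt this.le, inv_mul_cancel₀ this.ne']
    refine ⟨(√(g ⬝ᵥ g))⁻¹, by positivity, e, W.smul_mem _ hg, ?_⟩
    rw [smul_dotProduct, dotProduct_smul, smul_eq_mul, smul_eq_mul, ← mul_assoc, ← sq, e]
  have hK : IsCompact {u : n → ℝ | u ∈ W ∧ u ⬝ᵥ u = 1} := by
    refine (isCompact_closedBall (0 : n → ℝ) 1).of_isClosed_subset
      ((Submodule.closed_of_finiteDimensional W).inter (isClosed_eq (by fun_prop) (by fun_prop))) ?_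
    intro u hu
    rw [mem_closedBall_zero_iff, pi_norm_le_iff_of_nonneg zero_le_one]
    intro i
    have := single_le_sum (f := fun i => u i * u i) (fun i _ => mul_self_nonneg _) (mem_univ i)
    have h1 : u i * u i ≤ 1 := this.trans_eq hu.2
    rw [Real.norm_eq_abs, abs_le]; constructor <;> nlinarith
  obtain ⟨a, -, -, ha⟩ := nrm f hf hf0
  obtain ⟨v, hv, hmax⟩ := hK.exists_isMaxOn ⟨_, ha⟩
    (f := fun u => u ⬝ᵥ S *ᵥ u) (Continuous.continuousOn (by fun_prop))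
  obtain ⟨l, hl⟩ : ∃ l, l = v ⬝ᵥ S *ᵥ v := ⟨_, rfl⟩
  have key : ∀ g ∈ W, g ⬝ᵥ S *ᵥ g ≤ l * g ⬝ᵥ g := by
    intro g hg
    by_cases h0 : g = 0
    · simp [h0]
    obtain ⟨a, a0, a1, ha⟩ := nrm g hg h0
    have : (a • g) ⬝ᵥ S *ᵥ (a • g) ≤ l := hl ▸ hmax ha
    rw [mulVec_smul, smul_dotProduct, dotProduct_smul, smul_eq_mul, smul_eq_mul] at this
    have h2 := mul_le_mul_of_nonneg_right this (dot_nonneg g)
    have : a * (a * g ⬝ᵥ S *ᵥ g) * g ⬝ᵥ g = a ^ 2 * (g ⬝ᵥ g) * g ⬝ᵥ S *ᵥ g := by ring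
    rw [this, a1, one_mul] at h2; exact h2
  have hw : S *ᵥ v = l • v := by
    obtain ⟨w, hw⟩ : ∃ w, w = S *ᵥ v - l • v := ⟨_, rfl⟩
    have hwW : w ∈ W := hw ▸ W.sub_mem (hW _ hv.1) (W.smul_mem _ hv.1)
    have e1 : w ⬝ᵥ S *ᵥ v = w ⬝ᵥ w + l * w ⬝ᵥ v := by
      rw [← sub_add_cancel (S *ᵥ v) (l • v), ← hw]; simp
    have q : ∀ s : ℝ, 0 ≤ (l * w ⬝ᵥ w - w ⬝ᵥ S *ᵥ w) * (s * s) + (-2 * w ⬝ᵥ w) * s + 0 := by
      intro s
      have := key _ (W.add_mem hv.1 (W.smul_mem s hwW))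
      simp only [mulVec_add, mulVec_smul, add_dotProduct, dotProduct_add, smul_dotProduct,
        dotProduct_smul, smul_eq_mul, ← hl, hv.2, dot_symm hS v w, dotProduct_comm (S *ᵥ v),
        dotProduct_comm v w, e1] at this
      nlinarith
    have := discrim_le_zero q
    simp only [discrim] at this
    have h0 : w ⬝ᵥ w = 0 := by nlinarith
    rw [dotProduct_self_eq_zero.1 h0] at hw
    exact sub_eq_zero.1 hw.symm
  have := h l v hv.1 (fun e => by simpa [e] using hv.2) hw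
  exact (key f hf).trans (mul_le_mul_of_nonneg_right this (dot_nonneg f))

omit [DecidableEq n] in
lemma proj (V : Submodule ℝ (n → ℝ)) (f : n → ℝ) : ∃ v ∈ V, ∀ u ∈ V, u ⬝ᵥ (f - v) = 0 := by
  obtain ⟨v, hv, w, hw, e⟩ := (V.map
    (WithLp.linearEquiv 2 ℝ (n → ℝ)).symm.toLinearMap).exists_add_mem_mem_orthogonal
    (WithLp.toLp 2 f : EuclideanSpace ℝ n)
  obtain ⟨v, hv, rfl⟩ := hv
  refine ⟨v, hv, fun u hu => ?_⟩
  have := (Submodule.mem_orthogonal _ _).1 hw _ ⟨u, hu, rfl⟩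
  have e2 : f - v = w.ofLp := by
    have := congrArg WithLp.ofLp e
    simp at this; simp [this]
  rw [e2, ← this, dotProduct_comm]
  simp [PiLp.inner_apply, dotProduct]

lemma norm_pow_le (K : Matrix n n ℝ) (hK : K.PosSemidef) (W : Submodule ℝ (n → ℝ))
    (hW : ∀ f ∈ W, K *ᵥ f ∈ W) (β : ℝ) (hβ : 0 < β) (h : ∀ f ∈ W, f ⬝ᵥ K *ᵥ f ≤ β * f ⬝ᵥ f) (m : ℕ) :
    ∀ f ∈ W, (K ^ m) *ᵥ f ⬝ᵥ (K ^ m) *ᵥ f ≤ β ^ (2 * m) * f ⬝ᵥ f := by
  have hS : Kᵀ = K := hK.1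
  induction m with
  | zero => simp
  | succ m ih =>
    intro f hf
    rw [pow_succ, ← mulVec_mulVec]
    refine (ih _ (hW f hf)).trans ?_
    rw [mul_add, pow_add, mul_assoc]
    refine mul_le_mul_of_nonneg_left ?_ (by positivity)
    have h1 := hK.dotProduct_mulVec_nonneg (β • f - K *ᵥ f)
    have h2 := h f hf
    have h3 := h _ (hW f hf)
    simp only [star_trivial, mulVec_sub, mulVec_smul, sub_dotProduct, dotProduct_sub,
      smul_dotProduct, dotProduct_smul, smul_eq_mul, dot_symm hS f (K *ᵥ f)] at h1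
    refine le_of_mul_le_mul_left ?_ hβ
    rw [mul_one]
    nlinarith [mul_le_mul_of_nonneg_left h2 (sq_nonneg β)]

end Vale.Agent.P162
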