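import Vale.Agent.P162.Coll

namespace Vale.Agent.P162

open Finset Equiv

@[reducible] def Pos : ℕ → Type
  | 0 => Unit
  | d + 1 => Pos d × Bool

instance posFin : ∀ d, Fintype (Pos d)
  | 0 => PUnit.fintype
  | d + 1 => @instFintypeProd _ _ (posFin d) _

instance posDec : ∀ d, DecidableEq (Pos d)
  | 0 => instDecidableEqPUnit
  | d + 1 => @instDecidableEqProd _ _ (posDec d) _

instance posInh : ∀ d, Inhabited (Pos d)
  | 0 => ⟨()⟩
  | d + 1 => ⟨((posInh d).default, false)⟩

lemma card_pos (d : ℕ) : Fintype.card (Pos d) = 2 ^ d := by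
  induction d with
  | zero => rfl
  | succ d ih =>
    change Fintype.card (Pos d × Bool) = _
    rw [Fintype.card_prod, ih, pow_succ]; rfl

@[reducible] def Bf : ℕ → Type
  | 0 => Unit
  | d + 1 => (Pos d → Bool) × Bf d × Bf d

instance bfFin : ∀ d, Fintype (Bf d)
  | 0 => PUnit.fintype
  | d + 1 => @instFintypeProd _ _ _ (@instFintypeProd _ _ (bfFin d) (bfFin d))

instance bfInh : ∀ d, Inhabited (Bf d)
  | 0 => ⟨()⟩
  | d + 1 => ⟨(fun _ => false, (bfInh d).default, (bfInh d).default)⟩

def bf : ∀ d, Bf d → Perm (Pos d)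
  | 0, _ => 1
  | d + 1, a => (osum (bf d a.2.1) (bf d a.2.2) * sw a.1 : Perm (Pos d × Bool))

lemma av_bf (d : ℕ) (F : Bf (d + 1) → ℝ) :
    av F = av fun ε : Pos d → Bool => av fun a : Bf d => av fun b : Bf d => F (ε, a, b) := by
  change av (α := (Pos d → Bool) × Bf d × Bf d) F = _
  simp only [av_prod]

def mix (c : ℕ) : ∀ d, Bf d → Bf d → Bf d
  | 0, _, b => b
  | d + 1, a, b => if c ≤ d then (a.1, mix c d a.2.1 b.2.1, mix c d a.2.2 b.2.2) else b

lemma av_mix (c d : ℕ) (F : Bf d → ℝ) : (av fun b => av fun a => F (mix c d a b)) = av F := by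
  induction d with
  | zero => simp only [mix, av_const]
  | succ d ih =>
    by_cases h : c ≤ d
    · simp only [av_prod, mix, if_pos h, av_const]
      rw [av_congr (fun a => av_comm _), av_comm]
      refine av_congr fun ε => ?_
      refine Eq.trans ?_ (ih fun a => av fun b => F (ε, a, b))
      refine av_congr fun a => ?_
      rw [av_comm]
      exact av_congr fun a' => ih (fun b => F (ε, mix c d a' a, b))
    · simp only [mix, if_neg h, av_const]

lemma bd_mix (C : Type) [Fintype C] [DecidableEq C] [AddCommGroup C] (c d : ℕ) (b : Bf d) :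
    Bd C (fun a => bf d (mix c d a b)) (Fintype.card C * (3 / 4) ^ (d - c)) := by
  induction d with
  | zero => simpa using bd_base C _
  | succ d ih =>
    by_cases h : c ≤ d
    · have := bd_step C _ _ _ (ih b.2.1) (ih b.2.2)
      rw [Nat.succ_sub h, pow_succ, ← mul_assoc, mul_comm]
      simp only [mix, if_pos h]
      exact this
    · rw [Nat.sub_eq_zero_of_le (by omega)]
      simpa using bd_base C _

lemma bf_unif (d : ℕ) (x y : Pos d) : av (fun a => ind (bf d a x = y)) = (1 / 2) ^ d := by
  induction d with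
  | zero => simp [av_const, ind_pos]
  | succ d ih =>
    obtain ⟨u, c⟩ := x
    obtain ⟨v, e⟩ := y
    rw [av_bf]
    have : ∀ ε : Pos d → Bool, (av fun a : Bf d => av fun b : Bf d =>
        ind (bf (d + 1) (ε, a, b) (u, c) = (v, e))) = ind (xor c (ε u) = e) * (1 / 2) ^ d := by
      intro ε
      have h : ∀ a b : Bf d, bf (d + 1) (ε, a, b) (u, c) =
        ((cond (xor c (ε u)) (bf d b) (bf d a)) u, xor c (ε u)) := fun a b => rfl
      simp only [h]
      generalize xor c (ε u) = c'
      have h2 : ∀ p : Pos d, (((p, c') : Pos (d + 1)) = (v, e)) ↔ (c' = e ∧ p = v) := fun p =>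
        by rw [Prod.mk.injEq, and_comm]
      simp only [h2, ind_and, av_mul_left]
      cases c' <;> simp only [cond_true, cond_false, av_const, ih]
    rw [av_congr this, av_mul_right, pow_succ', ]
    congr 1
    have h3 := av_pi (ι := Pos d) (β := Bool) (fun p b => if p = u then ind (xor c b = e) else 1)
    simp only [prod_ite_eq', mem_univ, if_true] at h3
    rw [h3, prod_eq_single u]
    · cases c <;> cases e <;> simp [av_bool, ind_eq_ite]
    · intro p _ hp; simp only [if_neg hp, av_const]
    · simp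

variable (j : ℕ)

@[reducible] def Inp : ℕ → Type
  | 0 => Perm (Pos j) × Bf j
  | t + 1 => (Pos (j + t) → Bool) × Inp t × Inp t

instance inpFin : ∀ t, Fintype (Inp j t)
  | 0 => instFintypeProd _ _
  | t + 1 => @instFintypeProd _ _ _ (@instFintypeProd _ _ (inpFin t) (inpFin t))

instance inpInh : ∀ t, Inhabited (Inp j t)
  | 0 => ⟨(1, default)⟩
  | t + 1 => ⟨(fun _ => false, (inpInh t).default, (inpInh t).default)⟩

lemma av_inp0 (F : Inp j 0 → ℝ) :
    av F = av fun σ : Perm (Pos j) => av fun a : Bf j => F (σ, a) := av_prod F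

lemma av_inp (t : ℕ) (F : Inp j (t + 1) → ℝ) :
    av F = av fun ε : Pos (j + t) → Bool => av fun a : Inp j t => av fun b : Inp j t =>
      F (ε, a, b) := by
  change av (α := (Pos (j + t) → Bool) × Inp j t × Inp j t) F = _
  simp only [av_prod]

def hf {t : ℕ} {β : Type} (T : Pos (t + 1) → β) (c : Bool) : Pos t → β := fun u => T (u, c)

def inp : ∀ t, (Pos t → Bool) → Inp j t → Perm (Pos (j + t))
  | 0, T, ω => if T () then bf j ω.2 else ω.1
  | t + 1, T, ω => (osum (inp t (hf T false) ω.2.1) (inp t (hf T true) ω.2.2) * sw ω.1 :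
      Perm (Pos (j + t) × Bool))

/-- with all labels true the input network is a butterfly -/
lemma inp_true (t : ℕ) (F : Perm (Pos (j + t)) → ℝ) :
    av (fun ω => F (inp j t (fun _ => true) ω)) = av fun a => F (bf (j + t) a) := by
  induction t with
  | zero => simp only [av_prod, inp, if_true, av_const]; rfl
  | succ t ih =>
    rw [av_inp]
    refine Eq.trans ?_ (av_bf (j + t) _).symm
    refine av_congr fun ε => ?_
    refine Eq.trans ?_
      (ih (fun σ => av fun b => F (osum σ (bf (j + t) b) * sw ε : Perm (Pos (j + t) × Bool))))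
    exact av_congr fun a => ih (fun σ => F (osum (inp j t (fun _ => true) a) σ * sw ε :
      Perm (Pos (j + t) × Bool)))

def net (t : ℕ) (T : Pos t → Bool) (ω : Inp j t) (a : Bf (j + t)) : Perm (Pos (j + t)) :=
  (bf (j + t) a)⁻¹ * inp j t T ω

lemma net_succ (t : ℕ) (T : Pos (t + 1) → Bool) (ε ε' : Pos (j + t) → Bool) (ω0 ω1 : Inp j t)
    (a0 a1 : Bf (j + t)) : net j (t + 1) T (ε, ω0, ω1) (ε', a0, a1) =
      (sw ε' * osum (net j t (hf T false) ω0 a0) (net j t (hf T true) ω1 a1) * sw ε :
        Perm (Pos (j + t) × Bool)) := by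
  change ((osum (bf (j + t) a0) (bf (j + t) a1) * sw ε')⁻¹ * (osum _ _ * sw ε) :
    Perm (Pos (j + t) × Bool)) = _
  rw [mul_inv_rev, sw_inv, osum_inv, net, net, ← osum_mul]
  simp only [mul_assoc]

lemma net_law (t : ℕ) (T : Pos t → Bool) (F : Perm (Pos (j + t)) → ℝ) :
    (av fun ω => av fun ω' => F ((inp j t T ω')⁻¹ * inp j t T ω)) =
      av fun ω => av fun a => F (net j t T ω a) := by
  induction t with
  | zero =>
    simp only [av_prod, inp, net]
    cases T ()
    · simp only [Bool.false_eq_true, if_false, av_const]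
      rw [av_comm, av_comm (fun σ (a : Bf (j + 0)) => F _)]
      simp only [av_mul_group, av_const]
    · simp only [if_true, av_const]; rfl
  | succ t ih =>
    simp only [av_prod]
    refine av_congr fun ε => ?_
    simp only [net_succ]
    rw [av_congr (fun a => av_comm _), av_comm]
    conv_rhs => rw [av_congr (fun a => av_comm _), av_comm]
    refine av_congr fun ε' => ?_
    rw [av_congr (fun a => av_comm _)]
    conv_rhs => rw [av_congr (fun a => av_comm _)]
    refine Eq.trans ?_ (ih (hf T false) (fun σ => av fun ω1 => av fun a1 =>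
      F (sw ε' * osum σ (net j t (hf T true) ω1 a1) * sw ε : Perm (Pos (j + t) × Bool))))
    refine av_congr fun ω0 => av_congr fun ω0' => ?_
    refine Eq.trans ?_ (ih (hf T true) (fun σ => F (sw ε' * osum ((inp j t (hf T false) ω0')⁻¹ *
      inp j t (hf T false) ω0) σ * sw ε : Perm (Pos (j + t) × Bool))))
    refine av_congr fun ω1 => av_congr fun ω1' => ?_
    congr 1
    change ((osum _ _ * sw ε')⁻¹ * (osum _ _ * sw ε) : Perm (Pos (j + t) × Bool)) = _
    rw [mul_inv_rev, sw_inv, osum_inv, ← osum_mul]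
    simp only [mul_assoc]

end Vale.Agent.P162
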