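import Vale.Agent.P162.Mat

namespace Vale.Agent.P162

open Finset Matrix Equiv

section
variable {Γ : Type} [Fintype Γ] [Group Γ]

noncomputable def Lm (g : Γ) : Matrix Γ Γ ℝ := of fun π σ => ind (π = g * σ)

noncomputable def avM {Ω : Type} [Fintype Ω] (F : Ω → Matrix Γ Γ ℝ) : Matrix Γ Γ ℝ :=
  of fun π σ => av fun ω => F ω π σ

def Rt (g : Γ) (f : Γ → ℝ) : Γ → ℝ := fun π => f (π * g)

def RI (W : Submodule ℝ (Γ → ℝ)) : Prop := ∀ g, ∀ f ∈ W, Rt g f ∈ W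

lemma Lm_mulVec (g : Γ) (f : Γ → ℝ) (π : Γ) : (Lm g *ᵥ f) π = f (g⁻¹ * π) := by
  rw [← sum_ind_eq (g⁻¹ * π) f]
  exact sum_congr rfl fun σ _ => congrArg (· * _) (ind_congr inv_mul_eq_iff_eq_mul.symm)

lemma Lm_mul_apply (g : Γ) (M : Matrix Γ Γ ℝ) (π σ : Γ) : (Lm g * M) π σ = M (g⁻¹ * π) σ :=
  Lm_mulVec g (fun ρ => M ρ σ) π

lemma Lm_mul (g h : Γ) : Lm g * Lm h = Lm (g * h) := by
  ext π σ; rw [Lm_mul_apply]
  exact ind_congr (by rw [inv_mul_eq_iff_eq_mul, mul_assoc])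

omit [Fintype Γ] in
lemma Lm_one [DecidableEq Γ] : Lm (1 : Γ) = 1 := by
  ext π σ; simp [Lm, ind_eq_ite, one_apply]

omit [Fintype Γ] in
lemma Lm_T (g : Γ) : (Lm g)ᵀ = Lm g⁻¹ := by
  ext π σ; exact ind_congr (by rw [eq_inv_mul_iff_mul_eq, eq_comm])

variable {Ω : Type} [Fintype Ω]

omit [Group Γ] in
lemma avM_mul (F : Ω → Matrix Γ Γ ℝ) (M : Matrix Γ Γ ℝ) : avM F * M = avM fun ω => F ω * M := by
  ext π σ; simp only [avM, mul_apply, of_apply, av_sum, av_mul_right]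

omit [Group Γ] in
lemma mul_avM (F : Ω → Matrix Γ Γ ℝ) (M : Matrix Γ Γ ℝ) : M * avM F = avM fun ω => M * F ω := by
  ext π σ; simp only [avM, mul_apply, of_apply, av_sum, av_mul_left]

omit [Group Γ] [Fintype Γ] in
lemma avM_T (F : Ω → Matrix Γ Γ ℝ) : (avM F)ᵀ = avM fun ω => (F ω)ᵀ := rfl

omit [Group Γ] [Fintype Γ] in
lemma avM_const [Nonempty Ω] (M : Matrix Γ Γ ℝ) : (avM fun _ : Ω => M) = M := by
  ext π σ; exact av_const _

omit [Group Γ] in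
lemma avM_mulVec (F : Ω → Matrix Γ Γ ℝ) (f : Γ → ℝ) (π : Γ) :
    (avM F *ᵥ f) π = av fun ω => (F ω *ᵥ f) π := by
  simp only [avM, mulVec, dotProduct, of_apply, av_sum, av_mul_right]

omit [Group Γ] in
lemma dot_avM (F : Ω → Matrix Γ Γ ℝ) (f g : Γ → ℝ) :
    f ⬝ᵥ avM F *ᵥ g = av fun ω => f ⬝ᵥ F ω *ᵥ g := by
  simp only [dotProduct, avM_mulVec, av_sum, av_mul_left]

/-- matrices commuting with all right translations -/
def LT (M : Matrix Γ Γ ℝ) : Prop := ∀ g f, M *ᵥ Rt g f = Rt g (M *ᵥ f)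

lemma LT_Lm (h : Γ) : LT (Lm h) := fun g f => funext fun π => by
  simp only [Rt, Lm_mulVec, mul_assoc]

lemma LT_avM {F : Ω → Matrix Γ Γ ℝ} (h : ∀ ω, LT (F ω)) : LT (avM F) := fun g f => funext fun π => by
  simp only [avM_mulVec, h _ g f, Rt]

lemma Rt_dot (g : Γ) (f f' : Γ → ℝ) : Rt g f ⬝ᵥ f' = f ⬝ᵥ Rt g⁻¹ f' := by
  refine Eq.trans ?_ (Equiv.sum_comp (Equiv.mulRight g) _)
  simp [Rt, dotProduct]

lemma Rt_Rt (g h : Γ) (f : Γ → ℝ) : Rt g (Rt h f) = Rt (g * h) f := by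
  ext π; simp [Rt, mul_assoc]

lemma Rt_one (f : Γ → ℝ) : Rt 1 f = f := by ext π; simp [Rt]

lemma Rt_norm (g : Γ) (f : Γ → ℝ) : Rt g f ⬝ᵥ Rt g f = f ⬝ᵥ f := by
  rw [Rt_dot, Rt_Rt, inv_mul_cancel, Rt_one]

/-- orthogonal complement -/
def perp (V : Submodule ℝ (Γ → ℝ)) : Submodule ℝ (Γ → ℝ) where
  carrier := {f | ∀ u ∈ V, u ⬝ᵥ f = 0}
  add_mem' := fun h1 h2 u hu => by rw [dotProduct_add, h1 u hu, h2 u hu, add_zero]
  zero_mem' := fun u _ => dotProduct_zero u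
  smul_mem' := fun c f h u hu => by rw [dotProduct_smul, h u hu, smul_zero]

lemma RI.perp {V : Submodule ℝ (Γ → ℝ)} (h : RI V) : RI (perp V) := fun g f hf u hu => by
  rw [dotProduct_comm, Rt_dot, dotProduct_comm]; exact hf _ (h _ _ hu)

omit [Group Γ] in
lemma perp_inv {V : Submodule ℝ (Γ → ℝ)} {S : Matrix Γ Γ ℝ} (hS : Sᵀ = S)
    (h : ∀ f ∈ V, S *ᵥ f ∈ V) : ∀ f ∈ perp V, S *ᵥ f ∈ perp V := fun f hf u hu => by
  rw [dot_symm hS]; exact hf _ (h _ hu)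

/-- eigenspace inside a subspace -/
def eigS (S : Matrix Γ Γ ℝ) (l : ℝ) : Submodule ℝ (Γ → ℝ) where
  carrier := {f | S *ᵥ f = l • f}
  add_mem' := fun {a b} (h1 : _ = _) (h2 : _ = _) => by
    change _ = _; rw [mulVec_add, h1, h2, smul_add]
  zero_mem' := by simp
  smul_mem' := fun c f (h : _ = _) => by change _ = _; rw [mulVec_smul, h, smul_comm]

lemma RI_eigS {S : Matrix Γ Γ ℝ} (h : LT S) (l : ℝ) : RI (eigS S l) := fun g f (hf : _ = _) => by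
  change _ = _; rw [h, hf]; rfl

lemma RI.inf {V W : Submodule ℝ (Γ → ℝ)} (h : RI V) (h' : RI W) : RI (V ⊓ W) :=
  fun g f hf => ⟨h g f hf.1, h' g f hf.2⟩

end

variable {Q : Type} [Fintype Q] [DecidableEq Q]

def VB (B : Finset Q) : Submodule ℝ (Perm Q → ℝ) where
  carrier := {f | ∀ π σ, (∀ x ∈ B, π x = σ x) → f π = f σ}
  add_mem' := fun h1 h2 π σ h => by simp only [Pi.add_apply, h1 π σ h, h2 π σ h]
  zero_mem' := fun _ _ _ => rfl
  smul_mem' := fun c f h1 π σ h => by simp only [Pi.smul_apply, h1 π σ h]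

noncomputable def NB (B : Finset Q) : ℝ := ∑ h : Perm Q, ind (∀ x ∈ B, h x = x)

noncomputable def PB (B : Finset Q) : Matrix (Perm Q) (Perm Q) ℝ :=
  of fun π σ => 1 / NB B * ind (∀ x ∈ B, π x = σ x)

lemma one_le_NB (B : Finset Q) : 1 ≤ NB B := by
  have := single_le_sum (f := fun h : Perm Q => ind (∀ x ∈ B, h x = x)) (fun u _ => ind_nonneg _)
    (mem_univ 1)
  rwa [ind_pos (p := ∀ x ∈ B, (1 : Perm Q) x = x) (fun _ _ => rfl)] at this

lemma sum_agree (B : Finset Q) (π : Perm Q) (f : Perm Q → ℝ) :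
    ∑ σ : Perm Q, ind (∀ x ∈ B, π x = σ x) * f σ =
      ∑ h : Perm Q, ind (∀ x ∈ B, h x = x) * f (π * h) := by
  rw [← Equiv.sum_comp (Equiv.mulLeft π)]
  refine sum_congr rfl fun h _ => congrArg (· * _) (ind_congr ?_)
  simp [eq_comm]

lemma PB_mulVec (B : Finset Q) (f : Perm Q → ℝ) :
    PB B *ᵥ f = ∑ h : Perm Q, (1 / NB B * ind (∀ x ∈ B, h x = x)) • Rt h f := by
  ext π
  simp only [PB, mulVec, dotProduct, of_apply, mul_assoc, ← mul_sum, sum_agree, Finset.sum_apply,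
    Pi.smul_apply, smul_eq_mul, Rt]

lemma RI.PB_mem {W : Submodule ℝ (Perm Q → ℝ)} (h : RI W) (B : Finset Q) {f : Perm Q → ℝ}
    (hf : f ∈ W) : PB B *ᵥ f ∈ W := by
  rw [PB_mulVec]; exact W.sum_mem fun g _ => W.smul_mem _ (h g f hf)

lemma PB_VB (B : Finset Q) (f : Perm Q → ℝ) : PB B *ᵥ f ∈ VB B := fun π σ h =>
  sum_congr rfl fun ρ _ => congrArg (fun z => _ * z * _)
    (ind_congr (forall₂_congr fun x hx => by rw [h x hx]))

lemma PB_fix {B : Finset Q} {f : Perm Q → ℝ} (hf : f ∈ VB B) : PB B *ᵥ f = f := by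
  ext π
  have := one_le_NB B
  have e : ∀ h : Perm Q, ind (∀ x ∈ B, h x = x) * f (π * h) = ind (∀ x ∈ B, h x = x) * f π := by
    intro h
    by_cases k : ∀ x ∈ B, h x = x
    · rw [hf (π * h) π fun x hx => by simp [k x hx]]
    · simp [ind_neg k]
  simp only [PB, mulVec, dotProduct, of_apply, mul_assoc, ← mul_sum, sum_agree, e, ← sum_mul]
  change _ * (NB B * _) = _
  field_simp

lemma PB_T (B : Finset Q) : (PB B)ᵀ = PB B := by
  ext π σ; exact congrArg (_ * ·) (ind_congr (forall₂_congr fun _ _ => eq_comm))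

lemma PB_PB (B : Finset Q) : PB B * PB B = PB B := by
  ext π σ
  exact congrFun (PB_fix (B := B) (f := fun ρ => PB B ρ σ) fun a b h => congrArg (_ * ·)
    (ind_congr (forall₂_congr fun x hx => by rw [h x hx]))) π

lemma PB_Lm (B : Finset Q) (g : Perm Q) : PB B * Lm g = Lm g * PB B := by
  have : (PB B * Lm g)ᵀ = Lm g⁻¹ * PB B := by rw [transpose_mul, Lm_T, PB_T]
  ext π σ
  rw [← transpose_apply (PB B * Lm g), this, Lm_mul_apply, Lm_mul_apply]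
  refine congrArg (_ * ·) (ind_congr (forall₂_congr fun x _ => ?_))
  rw [inv_inv, Perm.mul_apply, Perm.mul_apply, Perm.inv_eq_iff_eq, eq_comm]

lemma PB_univ : PB (univ : Finset Q) = 1 := by
  ext π σ
  have := congrFun (PB_fix (B := univ) (f := fun ρ => (1 : Matrix _ _ ℝ) ρ σ) fun a b h => by
    rw [show a = b from Equiv.ext fun x => h x (mem_univ _)]) π
  rw [← this]
  exact (congrFun (congrFun (mul_one (PB (univ : Finset Q))) π) σ).symm

lemma card_le_NB (B : Finset Q) :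
    (Fintype.card (Perm Q) : ℝ) ≤ (Fintype.card Q : ℝ) ^ B.card * NB B := by
  have e : (Fintype.card (Perm Q) : ℝ) =
      ∑ τ : B → Q, ∑ σ : Perm Q, ind ((fun x : B => σ x) = τ) * 1 := by
    rw [sum_comm]; simp only [sum_ind_eq]; simp
  rw [e]
  refine (sum_le_card_nsmul _ _ (NB B) fun τ _ => ?_).trans (by simp)
  by_cases h : ∃ π : Perm Q, (fun x : B => π x) = τ
  · obtain ⟨π, rfl⟩ := h
    have := sum_agree B π (fun _ => 1)
    simp only [mul_one] at this ⊢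
    rw [NB, ← this]
    exact sum_le_sum fun σ _ => ind_mono fun k x hx => (congrFun k ⟨x, hx⟩).symm
  · rw [sum_eq_zero fun σ _ => by rw [ind_neg fun k => h ⟨σ, k⟩, zero_mul]]
    linarith [one_le_NB B]

lemma VB_mono {B B' : Finset Q} (h : B ⊆ B') : VB B ≤ VB B' :=
  fun _ hf π σ k => hf π σ fun x hx => k x (h hx)

lemma Rt_VB {B : Finset Q} (g : Perm Q) {f : Perm Q → ℝ} (hf : f ∈ VB B) :
    Rt g f ∈ VB (B.map g.toEmbedding) :=
  fun π σ k => hf _ _ fun x hx => k _ (mem_map_of_mem _ hx)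

/-- level spaces -/
def VL (Q : Type) [Fintype Q] [DecidableEq Q] (k : ℕ) : Submodule ℝ (Perm Q → ℝ) :=
  ⨆ B : {B : Finset Q // B.card ≤ k}, VB B.1

lemma VB_le {B : Finset Q} {k : ℕ} (h : B.card ≤ k) : VB B ≤ VL Q k :=
  le_iSup (fun B : {B : Finset Q // B.card ≤ k} => VB B.1) ⟨B, h⟩

lemma VL_ind {k : ℕ} (L : (Perm Q → ℝ) →ₗ[ℝ] (Perm Q → ℝ)) (W : Submodule ℝ (Perm Q → ℝ))
    (h : ∀ B : Finset Q, B.card ≤ k → ∀ f ∈ VB B, L f ∈ W) : ∀ f ∈ VL Q k, L f ∈ W :=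
  fun _ hf => (iSup_le fun B => h B.1 B.2 : VL Q k ≤ W.comap L) hf

lemma RI_VL (k : ℕ) : RI (VL Q k) := fun g =>
  VL_ind (LinearMap.funLeft ℝ ℝ (· * g)) _ fun B hB f hf =>
    VB_le (by rwa [card_map]) (Rt_VB g hf)

lemma VL_inv {k : ℕ} {M : Matrix (Perm Q) (Perm Q) ℝ} (h : ∀ B, PB B * M = M * PB B) :
    ∀ f ∈ VL Q k, M *ᵥ f ∈ VL Q k :=
  VL_ind (mulVecLin M) _ fun B hB f hf => VB_le hB (by
    rw [← PB_fix hf, mulVecLin_apply, mulVec_mulVec, ← h, ← mulVec_mulVec]; exact PB_VB _ _)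

lemma VL_mono {k k' : ℕ} (h : k ≤ k') : VL Q k ≤ VL Q k' :=
  iSup_le fun B => VB_le (B.2.trans h)

/-- a nonzero right-invariant subspace of the level space meets some VB -/
lemma exists_VB {k : ℕ} (hk : k ≤ Fintype.card Q) {E : Submodule ℝ (Perm Q → ℝ)} (hE : RI E)
    {w : Perm Q → ℝ} (hw : w ∈ E) (hw' : w ∈ VL Q k) (h0 : w ≠ 0) :
    ∃ B : Finset Q, B.card = k ∧ ∃ v ∈ E, v ∈ VB B ∧ v ≠ 0 := by
  by_contra hn
  push Not at hn
  have : VL Q k ≤ perp (Submodule.span ℝ {w}) := by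
    refine iSup_le fun B f hf u hu => ?_
    obtain ⟨c, rfl⟩ := Submodule.mem_span_singleton.1 hu
    obtain ⟨B', h1, h2⟩ := exists_superset_card_eq B.2 hk
    rw [← PB_fix (VB_mono h1 hf), smul_dotProduct, dot_symm (PB_T _),
      hn B' h2 _ (hE.PB_mem B' hw) (PB_VB _ _)]
    simp
  exact h0 (dotProduct_self_eq_zero.1 (this hw' w (Submodule.mem_span_singleton_self w)))

end Vale.Agent.P162
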