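import Vale.Agent.P162.Renyi

namespace Vale.Agent.P162

open Finset Equiv

variable (j : ℕ)

noncomputable def ML (L : ℕ) :
    ∀ t, (Pos t → Bool) → Finset (Pos (j + t)) → Inp j t → Bf (j + t) → ℝ
  | 0, _, _, _, _ => 1
  | t + 1, T, B, ω, a =>
      (if L = j + t then
        Nl (ZMod 2) (Sset B) (net j t (hf T false) ω.2.1 a.2.1) (net j t (hf T true) ω.2.2 a.2.2)
        else 1) *
      (ML L t (hf T false) (half B ω.1 false) ω.2.1 a.2.1 *
        ML L t (hf T true) (half B ω.1 true) ω.2.2 a.2.2)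

lemma one_le_ML (L t : ℕ) (T : Pos t → Bool) (B : Finset (Pos (j + t))) (ω : Inp j t)
    (a : Bf (j + t)) : 1 ≤ ML j L t T B ω a := by
  induction t with
  | zero => exact le_rfl
  | succ t ih =>
    refine one_le_mul_of_one_le_of_one_le ?_
      (one_le_mul_of_one_le_of_one_le (ih _ _ _ _) (ih _ _ _ _))
    split_ifs
    exacts [one_le_Nl _ _ _ _, le_rfl]

lemma ML_one (L t : ℕ) (h : j + t ≤ L) (T : Pos t → Bool) (B : Finset (Pos (j + t))) (ω : Inp j t)
    (a : Bf (j + t)) : ML j L t T B ω a = 1 := by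
  induction t with
  | zero => rfl
  | succ t ih =>
    simp only [ML]
    rw [if_neg (by omega), ih (by omega), ih (by omega)]; simp

lemma MM_eq (J t : ℕ) (h : j + t ≤ J) (T : Pos t → Bool) (B : Finset (Pos (j + t))) (ω : Inp j t)
    (a : Bf (j + t)) : MM j t T B ω a = ∏ L ∈ Ico j J, ML j L t T B ω a := by
  induction t with
  | zero => simp [MM, ML]
  | succ t ih =>
    simp only [MM, ML, prod_mul_distrib]
    rw [ih (by omega), ih (by omega), prod_ite_eq', if_pos (by simp; omega)]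

lemma mix_le (c d : ℕ) (h : d ≤ c) (a b : Bf d) : mix c d a b = b := by
  cases d with
  | zero => rfl
  | succ d => simp only [mix]; rw [if_neg (by omega)]

lemma ML_mix_eq (L c : ℕ) (h : L ≤ c) (t : ℕ) (T : Pos t → Bool) (B : Finset (Pos (j + t)))
    (ω : Inp j t) (a b : Bf (j + t)) :
    ML j L t T B ω (mix c (j + t) a b) = ML j L t T B ω b := by
  induction t with
  | zero => rfl
  | succ t ih =>
    by_cases hc : c ≤ j + t
    · have e : mix c (j + (t + 1)) a b =
          (a.1, mix c (j + t) a.2.1 b.2.1, mix c (j + t) a.2.2 b.2.2) := if_pos hc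
      rw [e]
      simp only [ML, ih]
      congr 1
      split_ifs with hL
      · rw [mix_le _ _ (by omega), mix_le _ _ (by omega)]
      · rfl
    · rw [mix_le _ _ (by omega)]

lemma ML_mix_bound (L c r : ℕ) (h : c ≤ L) (t : ℕ) (T : Pos t → Bool) (B : Finset (Pos (j + t)))
    (ω : Inp j t) (b : Bf (j + t)) :
    av (fun a => ML j L t T B ω (mix c (j + t) a b) ^ r) ≤
      Real.exp (2 ^ r * (3 / 4) ^ (L - c) * B.card) := by
  induction t with
  | zero => simp only [ML, one_pow, av_const]; exact Real.one_le_exp (by positivity)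
  | succ t ih =>
    by_cases hL : j + (t + 1) ≤ L
    · simp only [ML_one j L _ hL, one_pow, av_const]; exact Real.one_le_exp (by positivity)
    have e : ∀ a, mix c (j + (t + 1)) a b =
        (a.1, mix c (j + t) a.2.1 b.2.1, mix c (j + t) a.2.2 b.2.2) := fun a => if_pos (show c ≤ j + t by omega)
    simp only [e]
    refine (av_bf (j + t) _).trans_le (av_le fun ε => ?_)
    simp only [ML]
    by_cases hL' : L = j + t
    · simp only [if_pos hL', ML_one j L t hL'.ge, mul_one, Nl_pow]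
      refine (Nl_bound (Fin r → ZMod 2) _ _ _ (bd_mix _ c (j + t) b.2.1) (bd_mix _ c (j + t) b.2.2)
        (Sset B) _ _).trans (Real.exp_le_exp.2 ?_)
      have := card_Sset B
      simp only [Fintype.card_pi, ZMod.card, prod_const, card_univ, Fintype.card_fin, hL']
      push_cast
      gcongr
    · simp only [if_neg hL', one_mul, mul_pow, av_mul_av]
      refine (mul_le_mul (ih _ _ _ _) (ih _ _ _ _) (av_nonneg fun _ => pow_nonneg
        (zero_le_one.trans (one_le_ML _ _ _ _ _ _ _)) _) (Real.exp_pos _).le).trans (le_of_eq ?_)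
      rw [← Real.exp_add, ← card_half B ω.1]; push_cast; ring_nf

lemma amgm {ι : Type} (s : Finset ι) (hs : 0 < s.card) (x : ι → ℝ) (hx : ∀ i, 1 ≤ x i) (e : ℝ)
    (r : ℕ) (hr : e * s.card ≤ r) :
    (∏ i ∈ s, x i) ^ e ≤ ∑ i ∈ s, (1 / s.card : ℝ) * x i ^ r := by
  have hc : (0 : ℝ) < s.card := by exact_mod_cast hs
  have h0 : ∀ i, 0 ≤ x i := fun i => zero_le_one.trans (hx i)
  refine le_trans ?_ (Real.geom_mean_le_arith_mean_weighted s (fun _ => (1 / s.card : ℝ))
    (fun i => x i ^ r) (fun _ _ => by positivity) (by simp [hc.ne']) fun i _ => pow_nonneg (h0 i) _)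
  rw [← Real.finsetProd_rpow _ _ (fun i _ => h0 i)]
  refine prod_le_prod (fun i _ => Real.rpow_nonneg (h0 i) _) fun i _ => ?_
  rw [← Real.rpow_natCast, ← Real.rpow_mul (h0 i)]
  refine Real.rpow_le_rpow_of_exponent_le (hx i) ?_
  rw [mul_one_div, le_div_iff₀ hc]; exact hr

lemma peel (l : ℕ) (hl : 1 ≤ l) (t : ℕ) (T : Pos t → Bool) (B : Finset (Pos (20 * l + t)))
    (ω : Inp (20 * l) t) :
    av (fun a => MM (20 * l) t T B ω a ^ (1 / 63 : ℝ)) ≤ Real.exp (2 * (1 / 8) ^ l * B.card) := by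
  let c : ℕ → ℕ := fun i => 10 * l * 2 ^ i
  have cm : ∀ i k, i ≤ k → c i ≤ c k := fun i k h =>
    Nat.mul_le_mul_left _ (Nat.pow_le_pow_right (by norm_num) h)
  have c2 : ∀ i, c (i + 1) = 2 * c i := fun i => by simp only [c]; ring
  obtain ⟨Y, hY⟩ : ∃ Y : ℕ → Bf (20 * l + t) → ℝ, ∀ i a, Y i a =
    ∏ L ∈ Ico (c (i + 1)) (c (i + 2)), ML (20 * l) L t T B ω a := ⟨_, fun _ _ => rfl⟩
  have Y0 : ∀ i a, 0 ≤ Y i a := fun i a => hY i a ▸
    prod_nonneg fun L _ => zero_le_one.trans (one_le_ML _ _ _ _ _ _ _)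
  have Y1 : ∀ i b, av (fun a => Y i (mix (c i) _ a b) ^ (2 / 63 : ℝ)) ≤
      Real.exp ((1 / 8) ^ l * (1 / 2) ^ i * B.card) := by
    intro i b
    have hc : (Ico (c (i + 1)) (c (i + 2))).card = c (i + 1) := by
      rw [Nat.card_Ico, c2 (i + 1)]; omega
    have hp : 0 < c (i + 1) := by simp only [c]; positivity
    simp only [hY]
    refine (av_mono fun a => amgm _ (hc.symm ▸ hp) _ (fun L => one_le_ML _ _ _ _ _ _ _) _
      (l * 2 ^ i) ?_).trans ?_
    · rw [hc]; simp only [c]; push_cast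
      have : (0 : ℝ) ≤ l * 2 ^ i := by positivity
      rw [pow_succ]; nlinarith
    simp only [av_sum, av_mul_left]
    refine (sum_le_sum (g := fun _ => (1 / (Ico (c (i + 1)) (c (i + 2))).card : ℝ) *
      Real.exp ((1 / 8) ^ l * (1 / 2) ^ i * B.card)) fun L hL => ?_).trans (le_of_eq ?_)
    · rw [mem_Ico, c2] at hL
      refine mul_le_mul_of_nonneg_left ((ML_mix_bound _ L (c i) _ (by omega) _ _ _ _ _).trans
        (Real.exp_le_exp.2 (mul_le_mul_of_nonneg_right ?_ (by positivity)))) (by positivity)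
      have h1 : ((3 : ℝ) / 4) ^ (L - c i) ≤ ((3 / 4) ^ 10) ^ (l * 2 ^ i) := by
        rw [← pow_mul]
        exact pow_le_pow_of_le_one (by norm_num) (by norm_num) (by
          have : c i = 10 * (l * 2 ^ i) := by simp only [c]; ring
          omega)
      have h2 : l + i ≤ l * 2 ^ i := by
        have := Nat.lt_two_pow_self (n := i); nlinarith
      calc (2 : ℝ) ^ (l * 2 ^ i) * (3 / 4) ^ (L - c i)
          ≤ 2 ^ (l * 2 ^ i) * ((3 / 4) ^ 10) ^ (l * 2 ^ i) := by gcongr
        _ ≤ (1 / 8) ^ (l * 2 ^ i) := by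
          rw [← mul_pow]; exact pow_le_pow_left₀ (by norm_num) (by norm_num) _
        _ ≤ (1 / 8) ^ (l + i) := pow_le_pow_of_le_one (by norm_num) (by norm_num) h2
        _ ≤ _ := by rw [pow_add]; gcongr; norm_num
    · have : ((Ico (c (i + 1)) (c (i + 2))).card : ℝ) ≠ 0 := by rw [hc]; exact_mod_cast hp.ne'
      rw [sum_const, nsmul_eq_mul]; field_simp
  have Y2 : ∀ p m, av (fun a => (∏ k ∈ range m, Y (2 * k + p) a) ^ (2 / 63 : ℝ)) ≤
      Real.exp ((1 / 8) ^ l * (2 - 2 * (1 / 2) ^ m) * B.card) := by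
    intro p m
    induction m with
    | zero => simp [av_const]
    | succ m ih =>
      rw [← av_mix (c (2 * m + p))]
      have e : ∀ a b, ∏ k ∈ range m, Y (2 * k + p) (mix (c (2 * m + p)) _ a b) =
          ∏ k ∈ range m, Y (2 * k + p) b := fun a b => prod_congr rfl fun k hk => by
        rw [hY, hY]
        refine prod_congr rfl fun L hL => ML_mix_eq _ _ _ ?_ _ _ _ _ _ _
        rw [mem_range] at hk
        exact (mem_Ico.1 hL).2.le.trans (cm _ _ (by omega))
      have P0 : ∀ b, 0 ≤ ∏ k ∈ range m, Y (2 * k + p) b := fun b => prod_nonneg fun k _ => Y0 _ _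
      simp only [prod_range_succ, e, fun b a => Real.mul_rpow (z := (2 / 63 : ℝ)) (P0 b)
        (Y0 (2 * m + p) a), av_mul_left]
      refine (av_mono fun b => mul_le_mul_of_nonneg_left (Y1 _ b)
        (Real.rpow_nonneg (P0 b) _)).trans ?_
      rw [av_mul_right]
      refine (mul_le_mul_of_nonneg_right ih (Real.exp_pos _).le).trans ?_
      rw [← Real.exp_add, Real.exp_le_exp, ← add_mul, ← mul_add]
      have : ((1 : ℝ) / 2) ^ (2 * m + p) ≤ (1 / 2) ^ m :=
        pow_le_pow_of_le_one (by norm_num) (by norm_num) (by omega)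
      gcongr
      rw [pow_succ]; linarith
  have Y3 : ∀ m a, ∏ L ∈ Ico (20 * l) (c (2 * m + 1)), ML (20 * l) L t T B ω a =
      (∏ k ∈ range m, Y (2 * k + 0) a) * ∏ k ∈ range m, Y (2 * k + 1) a := by
    intro m a
    induction m with
    | zero => simp [c, show 10 * l * 2 = 20 * l by ring]
    | succ m ih =>
      have h1 : 20 * l ≤ c (2 * m + 1) := by
        have := cm 1 (2 * m + 1) (by omega); simp only [c] at this ⊢; omega
      rw [prod_range_succ, prod_range_succ, mul_mul_mul_comm, ← ih, hY, hY, add_zero,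
        prod_Ico_consecutive _ (cm _ _ (by omega)) (cm _ _ (by omega)),
        prod_Ico_consecutive _ h1 (cm _ _ (by omega))]
      rfl
  have hJ : 20 * l + t ≤ c (2 * t + 1) := by
    have h1 := Nat.lt_two_pow_self (n := t)
    have h2 : 2 ^ t ≤ 2 ^ (2 * t) := Nat.pow_le_pow_right (by norm_num) (by omega)
    simp only [c, pow_succ]; nlinarith
  simp only [MM_eq _ _ _ hJ, Y3]
  have P0 : ∀ p b, 0 ≤ ∏ k ∈ range t, Y (2 * k + p) b := fun p b => prod_nonneg fun k _ => Y0 _ _
  have hb : ∀ p, av (fun a => (∏ k ∈ range t, Y (2 * k + p) a) ^ (2 / 63 : ℝ)) ≤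
      Real.exp (2 * (1 / 8) ^ l * B.card) := fun p => (Y2 p t).trans (Real.exp_le_exp.2 (by
    have : (0 : ℝ) ≤ (1 / 2) ^ t := by positivity
    rw [mul_comm (2 : ℝ) ((1 / 8) ^ l)]; gcongr; linarith))
  refine le_trans (av_mono (g := fun a => ((∏ k ∈ range t, Y (2 * k + 0) a) ^ (2 / 63 : ℝ) +
    (∏ k ∈ range t, Y (2 * k + 1) a) ^ (2 / 63 : ℝ)) / 2) fun a => ?_) ?_
  · have e : ∀ x : ℝ, 0 ≤ x → x ^ (2 / 63 : ℝ) = (x ^ (1 / 63 : ℝ)) ^ 2 := fun x hx => by
      rw [← Real.rpow_natCast, ← Real.rpow_mul hx]; norm_num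
    rw [Real.mul_rpow (P0 _ _) (P0 _ _), e _ (P0 _ _), e _ (P0 _ _)]
    nlinarith [sq_nonneg ((∏ k ∈ range t, Y (2 * k + 0) a) ^ (1 / 63 : ℝ) -
      (∏ k ∈ range t, Y (2 * k + 1) a) ^ (1 / 63 : ℝ))]
  · rw [av_div, av_add]; linarith [hb 0, hb 1]

end Vale.Agent.P162
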