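import Vale.Agent.P162.Net
import Vale.Agent.P162.Loops

namespace Vale.Agent.P162

open Finset Equiv

lemma av_re {A B C A' B' C' : Type} [Fintype A] [Fintype B] [Fintype C] [Fintype A'] [Fintype B']
    [Fintype C'] (F : A → B → C → A' → B' → C' → ℝ) :
    (av fun a => av fun b => av fun c => av fun a' => av fun b' => av fun c' => F a b c a' b' c') =
    av fun a => av fun a' => av fun b => av fun b' => av fun c => av fun c' => F a b c a' b' c' := by
  refine av_congr fun a => ?_
  rw [av_congr (fun b => av_comm _), av_comm]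
  refine av_congr fun a' => av_congr fun b => av_comm _

variable (j : ℕ)

noncomputable def kap (T : Bool) (B : Finset (Pos j)) : ℝ :=
  if T then (if B.card = 1 then (1 / 2) ^ j else 1)
  else (if B = univ then 1 / Fintype.card (Perm (Pos j)) else 1)

lemma kap_nonneg (T : Bool) (B : Finset (Pos j)) : 0 ≤ kap j T B := by
  unfold kap; split_ifs <;> positivity

noncomputable def Lf : ∀ t, (Pos t → Bool) → Finset (Pos (j + t)) → Inp j t → ℝ
  | 0, T, B, _ => kap j (T ()) B
  | t + 1, T, B, ω => Lf t (hf T false) (half B ω.1 false) ω.2.1 *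
      Lf t (hf T true) (half B ω.1 true) ω.2.2

lemma Lf_nonneg (t : ℕ) (T : Pos t → Bool) (B : Finset (Pos (j + t))) (ω : Inp j t) :
    0 ≤ Lf j t T B ω := by
  induction t with
  | zero => exact kap_nonneg _ _ _
  | succ t ih => exact mul_nonneg (ih _ _ _) (ih _ _ _)

noncomputable def MM : ∀ t, (Pos t → Bool) → Finset (Pos (j + t)) → Inp j t → Bf (j + t) → ℝ
  | 0, _, _, _, _ => 1
  | t + 1, T, B, ω, a =>
      Nl (ZMod 2) (Sset B) (net j t (hf T false) ω.2.1 a.2.1) (net j t (hf T true) ω.2.2 a.2.2) *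
      (MM t (hf T false) (half B ω.1 false) ω.2.1 a.2.1 *
        MM t (hf T true) (half B ω.1 true) ω.2.2 a.2.2)

lemma MM_nonneg (t : ℕ) (T : Pos t → Bool) (B : Finset (Pos (j + t))) (ω : Inp j t)
    (a : Bf (j + t)) : 0 ≤ MM j t T B ω a := by
  induction t with
  | zero => exact zero_le_one
  | succ t ih =>
    exact mul_nonneg (zero_le_one.trans (one_le_Nl _ _ _ _)) (mul_nonneg (ih _ _ _ _) (ih _ _ _ _))

noncomputable def pK (t : ℕ) (T : Pos t → Bool) (B : Finset (Pos (j + t)))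
    (τ : Pos (j + t) → Pos (j + t)) : ℝ :=
  av fun ω => av fun a => ind (∀ x ∈ B, net j t T ω a x = τ x)

lemma pK_nonneg (t : ℕ) (T : Pos t → Bool) (B : Finset (Pos (j + t)))
    (τ : Pos (j + t) → Pos (j + t)) : 0 ≤ pK j t T B τ :=
  av_nonneg fun _ => av_nonneg fun _ => ind_nonneg _

lemma av_ind_eq {α : Type} [Fintype α] (a : α) : av (fun x => ind (x = a)) = 1 / Fintype.card α := by
  classical
  simp [av, ind_eq_ite]

lemma pK_leaf (T : Pos 0 → Bool) (B : Finset (Pos (j + 0))) (τ : Pos (j + 0) → Pos (j + 0)) :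
    pK j 0 T B τ ≤ kap j (T ()) B := by
  have h1 : pK j 0 T B τ ≤ 1 := av_le fun _ => av_le fun _ => ind_le_one _
  unfold kap
  split_ifs with c1 c2 c3
  · obtain ⟨x, rfl⟩ := card_eq_one.1 c2
    simp only [pK, av_prod, net, inp, c1, if_true, av_const, mem_singleton, forall_eq]
    rw [av_comm]
    refine av_le fun a => le_of_eq ?_
    rw [← bf_unif j x (bf j a (τ x))]
    exact av_congr fun b => ind_congr (by rw [Perm.mul_apply, Perm.inv_eq_iff_eq]; rfl)
  · exact h1
  · subst c3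
    simp only [pK, av_prod, net, inp, c1, Bool.false_eq_true, if_false, av_const]
    rw [av_comm]
    refine av_le fun a => ?_
    by_cases h : ∃ σ : Perm (Pos j), ∀ x, σ x = τ x
    · obtain ⟨σ, hσ⟩ := h
      rw [← av_ind_eq (bf j a * σ)]
      refine av_mono fun s => ind_mono fun k => ?_
      rw [← inv_mul_eq_iff_eq_mul]
      ext x; rw [hσ]; exact k x (mem_univ _)
    · refine (av_le (c := 0) fun s => (ind_neg fun k => h ⟨_, fun x => k x (mem_univ _)⟩).le).trans
        (by positivity)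
  · exact h1

lemma split_event {Q : Type} [Fintype Q] [DecidableEq Q] (B : Finset (Q × Bool)) (ε ε' : Q → Bool)
    (σ0 σ1 : Perm Q) (τ : Q × Bool → Q × Bool) :
    (∀ x ∈ B, (sw ε' * osum σ0 σ1 * sw ε) x = τ x) ↔
      (∀ x ∈ B, (sw ε' (τ x)).2 = (sw ε x).2) ∧
      (∀ u ∈ half B ε false, σ0 u = (sw ε' (τ (sw ε (u, false)))).1) ∧
      (∀ u ∈ half B ε true, σ1 u = (sw ε' (τ (sw ε (u, true)))).1) := by
  have inv : ∀ (η : Q → Bool) x, sw η (sw η x) = x := fun η x => (sw η).symm_apply_apply x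
  simp only [half, mem_filter, mem_univ, true_and, Perm.mul_apply]
  constructor
  · intro h
    refine ⟨fun x hx => ?_, fun u hu => ?_, fun u hu => ?_⟩
    · rw [← h x hx, inv]; rfl
    · rw [← h _ hu, inv, inv]; rfl
    · rw [← h _ hu, inv, inv]; rfl
  · rintro ⟨h1, h2, h3⟩ x hx
    obtain ⟨⟨u, c⟩, rfl⟩ := (sw ε).surjective x
    have := h1 _ hx
    rw [inv] at this ⊢
    rw [← inv ε' (τ _)]
    congr 1
    cases c
    · exact Prod.ext (h2 u hx) this.symm
    · exact Prod.ext (h3 u hx) this.symm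

lemma renyi (δ : ℝ) (hδ : 0 ≤ δ) (t : ℕ) (T : Pos t → Bool) (B : Finset (Pos (j + t)))
    (τ : Pos (j + t) → Pos (j + t)) :
    pK j t T B τ ^ (1 + δ) ≤ av fun ω => av fun a => ind (∀ x ∈ B, net j t T ω a x = τ x) *
      ((1 / 2) ^ (t * B.card) * Lf j t T B ω * MM j t T B ω a) ^ δ := by
  induction t with
  | zero =>
    simp only [Lf, MM, zero_mul, pow_zero, one_mul, mul_one, av_mul_right]
    rw [Real.rpow_add' (pK_nonneg _ _ _ _ _) (by linarith), Real.rpow_one]
    exact mul_le_mul_of_nonneg_left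
      (Real.rpow_le_rpow (pK_nonneg _ _ _ _ _) (pK_leaf _ _ _ _) hδ) (pK_nonneg _ _ _ _ _)
  | succ t ih =>
    obtain ⟨χ, hχ⟩ : ∃ χ : (Pos (j + t) → Bool) × (Pos (j + t) → Bool) → ℝ, ∀ e, χ e =
      ind (∀ x ∈ B, (sw e.2 (τ x)).2 = (sw e.1 x).2) := ⟨_, fun _ => rfl⟩
    have χ0 : ∀ e, 0 ≤ χ e := fun e => hχ e ▸ ind_nonneg _
    have e1 : pK j (t + 1) T B τ = av fun e => χ e *
        (pK j t (hf T false) (half B e.1 false) (fun u => (sw e.2 (τ (sw e.1 (u, false)))).1) *
         pK j t (hf T true) (half B e.1 true) (fun u => (sw e.2 (τ (sw e.1 (u, true)))).1)) := by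
      simp only [pK, av_prod, hχ, net_succ]
      rw [av_re]
      refine av_congr fun ε => av_congr fun ε' => ?_
      simp only [← av_mul_right]
      simp only [← av_mul_left]
      refine av_congr fun _ => av_congr fun _ => av_congr fun _ => av_congr fun _ => ?_
      rw [← ind_and, ← ind_and]
      exact ind_congr (split_event _ _ _ _ _ _)
    rw [e1]
    refine (av_rpow_le _ _ χ0 (fun e => mul_nonneg (pK_nonneg _ _ _ _ _) (pK_nonneg _ _ _ _ _))
      δ hδ).trans ?_
    rw [← av_mul_left]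
    simp only [av_prod (α := Pos (j + t) → Bool) (β := Inp j t × Inp j t),
      av_prod (α := Pos (j + t) → Bool) (β := Bf (j + t) × Bf (j + t)),
      av_prod (α := Inp j t), av_prod (α := Bf (j + t))]
    rw [av_re, av_prod]
    refine av_mono fun ε => av_mono fun ε' => ?_
    rw [Real.mul_rpow (pK_nonneg _ _ _ _ _) (pK_nonneg _ _ _ _ _)]
    have hA : 0 ≤ av χ ^ δ := Real.rpow_nonneg (av_nonneg χ0) _
    have hw : ∀ (T : Pos t → Bool) (B : Finset (Pos (j + t))) ω a,
        0 ≤ (1 / 2) ^ (t * B.card) * Lf j t T B ω * MM j t T B ω a := fun T B ω a =>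
      mul_nonneg (mul_nonneg (by positivity) (Lf_nonneg _ _ _ _ _)) (MM_nonneg _ _ _ _ _ _)
    refine (mul_le_mul_of_nonneg_left (mul_le_mul_of_nonneg_left (mul_le_mul (ih _ _ _) (ih _ _ _)
      (Real.rpow_nonneg (pK_nonneg _ _ _ _ _) _) (av_nonneg fun _ => av_nonneg fun _ =>
        mul_nonneg (ind_nonneg _) (Real.rpow_nonneg (hw _ _ _ _) _))) (χ0 _)) hA).trans ?_
    simp only [← av_mul_right]
    simp only [← av_mul_left]
    refine av_mono fun ω0 => av_mono fun a0 => av_mono fun ω1 => av_mono fun a1 => ?_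
    rw [mul_mul_mul_comm (ind _), hχ, ← mul_assoc (ind _), ← ind_and, ← ind_and, net_succ]
    dsimp only
    erw [← ind_congr (split_event B ε ε' (net j t (hf T false) ω0 a0) (net j t (hf T true) ω1 a1) τ)]
    rw [mul_left_comm]
    by_cases h : ∀ x ∈ B, (sw ε' * osum (net j t (hf T false) ω0 a0) (net j t (hf T true) ω1 a1) *
      sw ε) x = τ x
    swap
    · simp only [ind_neg h, zero_mul, le_refl]
    refine mul_le_mul_of_nonneg_left ?_ (ind_nonneg _)
    rw [← Real.mul_rpow (hw _ _ _ _) (hw _ _ _ _), ← Real.mul_rpow (av_nonneg χ0)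
      (mul_nonneg (hw _ _ _ _) (hw _ _ _ _))]
    refine Real.rpow_le_rpow (mul_nonneg (av_nonneg χ0) (mul_nonneg (hw _ _ _ _) (hw _ _ _ _)))
      ?_ hδ
    have k := chi_bound B _ _ ε ε' τ h
    replace k := (((av_congr hχ).trans (av_prod _)).trans_le k : av χ ≤ _)
    refine (mul_le_mul_of_nonneg_right k (mul_nonneg (hw _ _ _ _) (hw _ _ _ _))).trans
      (le_of_eq ?_)
    simp only [Lf, MM]
    rw [← card_half B ε]
    ring

end Vale.Agent.P162
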