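import Vale.Agent.P162.Ops
import Vale.Agent.P162.Peel
import Vale.Agent.P162.Leaf

namespace Vale.Agent.P162

open Finset Matrix Equiv

lemma sum_agree1 {Q : Type} [Fintype Q] [DecidableEq Q] (B : Finset Q) (g : Perm Q) :
    ∑ y : Perm Q, ind (∀ z ∈ B, g z = y z) = NB B := by
  simpa [NB] using sum_agree B g (fun _ => 1)

variable (j : ℕ)

noncomputable def AT (t : ℕ) (T : Pos t → Bool) :
    Matrix (Perm (Pos (j + t))) (Perm (Pos (j + t))) ℝ := avM fun ω => Lm (inp j t T ω)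

noncomputable def KT (t : ℕ) (T : Pos t → Bool) :
    Matrix (Perm (Pos (j + t))) (Perm (Pos (j + t))) ℝ :=
  avM fun ω => avM fun a => Lm (net j t T ω a)

lemma KT_eq (t : ℕ) (T : Pos t → Bool) : KT j t T = (AT j t T)ᵀ * AT j t T := by
  simp only [AT, avM_T, Lm_T]
  rw [mul_avM]
  simp only [avM_mul, Lm_mul]
  ext π σ
  exact (net_law j t T (fun g => Lm g π σ)).symm

lemma KT_T (t : ℕ) (T : Pos t → Bool) : (KT j t T)ᵀ = KT j t T := by simp [KT_eq]

lemma KT_psd (t : ℕ) (T : Pos t → Bool) : (KT j t T).PosSemidef :=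
  KT_eq j t T ▸ posSemidef_conjTranspose_mul_self (AT j t T)

lemma KT_LT (t : ℕ) (T : Pos t → Bool) : LT (KT j t T) := LT_avM fun _ => LT_avM fun _ => LT_Lm _

lemma KT_PB (t : ℕ) (T : Pos t → Bool) (B : Finset (Pos (j + t))) :
    PB B * KT j t T = KT j t T * PB B := by
  simp only [KT, mul_avM, avM_mul, PB_Lm]

lemma trK (l : ℕ) (hl : 1 ≤ l) (t : ℕ) (T : Pos t → Bool) (B : Finset (Pos (20 * l + t))) (E : ℝ)
    (hE : ∀ B' : Finset (Pos (20 * l + t)), B'.card = B.card →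
      av (fun ω => Lf (20 * l) t T B' ω ^ (1 / 63 : ℝ)) ≤ E) :
    trace ((KT (20 * l) t T * PB B) ^ 64) ≤ Fintype.card (Perm (Pos (20 * l + t))) / NB B *
      (1 / 2) ^ (t * B.card) * E ^ 63 * Real.exp (126 * (1 / 8) ^ l * B.card) := by
  have hN := one_le_NB B
  have c0 : 0 < 1 / NB B := by positivity
  have E0 : 0 ≤ E := (av_nonneg fun _ => Real.rpow_nonneg (Lf_nonneg _ _ _ _ _) _).trans (hE B rfl)
  have hS : (KT (20 * l) t T * PB B)ᵀ = KT (20 * l) t T * PB B := by
    rw [transpose_mul, PB_T, KT_T, KT_PB]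
  have e1 : ∀ (g x y : Perm (Pos (20 * l + t))),
      (∀ z ∈ B.map x.toEmbedding, g z = (y * x⁻¹) z) ↔ ∀ z ∈ B, (g * x) z = y z := by
    intro g x y; rw [forall_mem_map]; simp
  have e : ∀ x y, (KT (20 * l) t T * PB B) x y =
      1 / NB B * pK (20 * l) t T (B.map x.toEmbedding) (y * x⁻¹ : Perm _) := by
    intro x y
    rw [← transpose_apply (_ * _), hS]
    simp only [KT, avM_mul, pK, ← av_mul_left, e1]
    refine av_congr fun ω => av_congr fun a => ?_
    refine (Lm_mul_apply _ _ _ _).trans ?_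
    refine congrArg (_ * ·) (ind_congr (forall₂_congr fun z _ => ?_))
    rw [Perm.mul_apply, Perm.mul_apply, Perm.inv_eq_iff_eq, eq_comm]
  refine (young32 _ hS (fun x y => e x y ▸ mul_nonneg c0.le (pK_nonneg _ _ _ _ _))
    ((1 / NB B) ^ (1 / 63 : ℝ) * (((1 / 2) ^ (t * B.card)) ^ (1 / 63 : ℝ) *
      (E * Real.exp (2 * (1 / 8) ^ l * B.card)))) (by positivity) fun x => ?_).trans (le_of_eq ?_)
  · simp only [e, fun y : Perm (Pos (20 * l + t)) => Real.mul_rpow (z := 1 + 1 / 63) c0.le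
      (pK_nonneg (20 * l) t T (B.map x.toEmbedding) (y * x⁻¹ : Perm _)), ← mul_sum]
    refine (mul_le_mul_of_nonneg_left (sum_le_sum fun y _ => renyi _ _ (by norm_num) _ _ _ _)
      (by positivity)).trans ?_
    simp only [← av_sum, ← sum_mul, e1, sum_agree1]
    simp only [mul_assoc (NB B), av_mul_left]
    rw [Real.rpow_add c0, Real.rpow_one, mul_comm (1 / NB B), mul_assoc, ← mul_assoc (1 / NB B),
      one_div_mul_cancel (by positivity), one_mul]
    refine mul_le_mul_of_nonneg_left ?_ (by positivity)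
    have e3 : ∀ ω a, ((1 / 2) ^ (t * (B.map x.toEmbedding).card) *
        Lf (20 * l) t T (B.map x.toEmbedding) ω * MM (20 * l) t T (B.map x.toEmbedding) ω a) ^
          (1 / 63 : ℝ) = ((1 / 2) ^ (t * B.card)) ^ (1 / 63 : ℝ) *
        (Lf (20 * l) t T (B.map x.toEmbedding) ω ^ (1 / 63 : ℝ) *
          MM (20 * l) t T (B.map x.toEmbedding) ω a ^ (1 / 63 : ℝ)) := by
      intro ω a
      rw [mul_assoc, Real.mul_rpow (by positivity)
        (mul_nonneg (Lf_nonneg _ _ _ _ _) (MM_nonneg _ _ _ _ _ _)),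
        Real.mul_rpow (Lf_nonneg _ _ _ _ _) (MM_nonneg _ _ _ _ _ _), card_map]
    simp only [e3, av_mul_left]
    refine mul_le_mul_of_nonneg_left ?_ (by positivity)
    refine (av_mono fun ω => mul_le_mul_of_nonneg_left (peel l hl t T _ ω)
      (Real.rpow_nonneg (Lf_nonneg _ _ _ _ _) _)).trans ?_
    rw [av_mul_right, card_map]
    exact mul_le_mul_of_nonneg_right (hE _ (card_map _)) (Real.exp_pos _).le
  · have e : ∀ z : ℝ, 0 ≤ z → (z ^ (1 / 63 : ℝ)) ^ 63 = z := fun z hz => by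
      rw [← Real.rpow_natCast, ← Real.rpow_mul hz]; norm_num
    rw [mul_pow, mul_pow, mul_pow, e _ c0.le, e _ (by positivity), ← Real.exp_nat_mul]
    have : ((63 : ℕ) : ℝ) * (2 * (1 / 8) ^ l * B.card) = 126 * (1 / 8) ^ l * B.card := by
      push_cast; ring
    rw [this]; ring

lemma tr_low (l : ℕ) (hl : 1 ≤ l) (t : ℕ) (B : Finset (Pos (20 * l + t))) :
    trace ((KT (20 * l) t (fun _ => true) * PB B) ^ 64) ≤
      Real.exp (63 * ((2 ^ l * B.card) ^ 2 / 2 ^ t) + 126 * (1 / 8) ^ l * B.card) := by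
  have h : (1 : ℝ) ≤ ((1 / 2) ^ (20 * l)) ^ (1 / 63 : ℝ) * 2 ^ l := by
    have h1 : ((1 / 2 : ℝ) ^ (63 * l)) ^ (1 / 63 : ℝ) ≤ ((1 / 2) ^ (20 * l)) ^ (1 / 63 : ℝ) :=
      Real.rpow_le_rpow (by positivity)
        (pow_le_pow_of_le_one (by norm_num) (by norm_num) (by omega)) (by norm_num)
    rw [mul_comm 63, pow_mul, ← Real.rpow_natCast _ 63, ← Real.rpow_mul (by positivity)] at h1
    norm_num at h1
    refine le_trans (le_of_eq ?_) (mul_le_mul_of_nonneg_right h1 (by positivity))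
    rw [← mul_pow]; norm_num
  refine (trK l hl t _ B _ fun B' hB' => hB' ▸ Lf_true _ _ _ (by positivity) h t B').trans ?_
  have hN := one_le_NB B
  have h1 := card_le_NB B
  rw [← div_le_iff₀ (by positivity), card_pos] at h1
  have e : ∀ z : ℝ, 0 ≤ z → (z ^ (1 / 63 : ℝ)) ^ 63 = z := fun z hz => by
    rw [← Real.rpow_natCast, ← Real.rpow_mul hz]; norm_num
  rw [Real.exp_add, mul_pow, ← Real.exp_nat_mul, pow_right_comm _ B.card 63, e _ (by positivity),
    ← mul_assoc]
  refine mul_le_mul_of_nonneg_right ?_ (Real.exp_pos _).le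
  refine mul_le_of_le_one_left (Real.exp_pos _).le ?_
  refine (mul_le_mul_of_nonneg_right (mul_le_mul_of_nonneg_right h1 (by positivity))
    (by positivity)).trans (le_of_eq ?_)
  push_cast
  rw [pow_mul, ← mul_pow, ← mul_pow, pow_add]
  have : (2 : ℝ) ^ (20 * l) * 2 ^ t * (1 / 2) ^ t * (1 / 2) ^ (20 * l) = 1 := by
    simp only [one_div, inv_pow]; field_simp
  rw [this, one_pow]

lemma tr_univ (l : ℕ) (hl : 1 ≤ l) (t : ℕ) (T : Pos t → Bool) :
    trace (KT (20 * l) t T ^ 64) ≤ (2 ^ (20 * l)).factorial ^ cnt T true *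
      Real.exp (126 * (1 / 8) ^ l * 2 ^ (20 * l + t)) := by
  have := trK l hl t T univ (((1 / ((2 ^ (20 * l)).factorial : ℝ)) ^ cnt T false) ^ (1 / 63 : ℝ))
    fun B' hB' => by
      rw [eq_univ_of_card _ hB']
      exact av_le fun ω => Real.rpow_le_rpow (Lf_nonneg _ _ _ _ _) (Lf_univ _ _ _ _) (by norm_num)
  rw [PB_univ, mul_one, card_univ, card_pos, ← Real.rpow_natCast _ 63,
    ← Real.rpow_mul (by positivity), Fintype.card_perm, card_pos] at this
  norm_num at this
  refine this.trans (mul_le_mul_of_nonneg_right ?_ (Real.exp_pos _).le)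
  have h1 : ((2 ^ (20 * l + t)).factorial : ℝ) ≤ 2 ^ (t * 2 ^ (20 * l + t)) *
      (2 ^ (20 * l)).factorial ^ 2 ^ t := by
    have := fact_le t (2 ^ (20 * l))
    rw [← pow_add, add_comm] at this
    exact_mod_cast this
  have h2 := div_le_self (Nat.cast_nonneg (α := ℝ) (2 ^ (20 * l + t)).factorial)
    (one_le_NB (univ : Finset (Pos (20 * l + t))))
  rw [← cnt_add T, pow_add _ (cnt T false)] at h1
  have h3 : (0 : ℝ) < (2 ^ (20 * l)).factorial := by exact_mod_cast Nat.factorial_pos _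
  refine (mul_le_mul_of_nonneg_right (mul_le_mul_of_nonneg_right (h2.trans h1) (by positivity))
    (by positivity)).trans (le_of_eq ?_)
  simp only [one_div, inv_pow]
  field_simp

end Vale.Agent.P162
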