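import Vale.Agent.P162.Trace

namespace Vale.Agent.P162

open Finset Matrix Equiv

def osumL {Q : Type} : Perm Q →* Perm (Q × Bool) where
  toFun α := osum α 1
  map_one' := osum_one
  map_mul' α β := by rw [osum_mul, mul_one]

def osumR {Q : Type} : Perm Q →* Perm (Q × Bool) where
  toFun α := osum 1 α
  map_one' := osum_one
  map_mul' α β := by rw [osum_mul, mul_one]

lemma osum_LR {Q : Type} (α β : Perm Q) : osum α β = osumL α * osumR β := by
  change _ = osum α 1 * osum 1 β; rw [osum_mul]; simp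

lemma osum_RL {Q : Type} (α β : Perm Q) : osum α β = osumR β * osumL α := by
  change _ = osum 1 β * osum α 1; rw [osum_mul]; simp

def pairE (Q C : Type) : (Q → C) × (Q → C) ≃ (Q × Bool → C) where
  toFun := fun v x => cond x.2 v.2 v.1 x.1
  invFun := fun v => (fun u => v (u, false), fun u => v (u, true))
  left_inv := fun _ => rfl
  right_inv := fun _ => funext fun ⟨_, c⟩ => by cases c <;> rfl

variable {Γ : Type} [Fintype Γ] [DecidableEq Γ] [Group Γ]

omit [DecidableEq Γ] in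
lemma Lm_dot (g : Γ) (f : Γ → ℝ) : Lm g *ᵥ f ⬝ᵥ Lm g *ᵥ f = f ⬝ᵥ f := by
  simp only [dotProduct, Lm_mulVec]
  exact Equiv.sum_comp (Equiv.mulLeft g⁻¹) (fun x => f x * f x)

omit [DecidableEq Γ] in
lemma dot_Lm_le (g : Γ) (f : Γ → ℝ) : f ⬝ᵥ Lm g *ᵥ f ≤ f ⬝ᵥ f := by
  have := dot_nonneg (f - Lm g *ᵥ f)
  simp only [sub_dotProduct, dotProduct_sub, Lm_dot, dotProduct_comm (Lm g *ᵥ f) f] at this
  linarith

lemma contr {Ω : Type} [Fintype Ω] [Nonempty Ω] (a : Ω → Γ) :
    (1 - (avM fun ω => Lm (a ω))ᵀ * avM fun ω => Lm (a ω)).PosSemidef := by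
  refine PosSemidef.of_dotProduct_mulVec_nonneg
    (isHermitian_one.sub (isHermitian_conjTranspose_mul_self _)) fun f => ?_
  rw [avM_T, avM_mul]
  simp only [mul_avM, Lm_T, Lm_mul, sub_mulVec, one_mulVec, dotProduct_sub, star_trivial, dot_avM,
    sub_nonneg]
  exact av_le fun _ => av_le fun _ => dot_Lm_le _ _

omit [Group Γ] [DecidableEq Γ] in
lemma comm_avM {Ω : Type} [Fintype Ω] {M : Matrix Γ Γ ℝ} {F : Ω → Matrix Γ Γ ℝ}
    (h : ∀ ω, Commute M (F ω)) : Commute M (avM F) := by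
  change _ = _
  rw [mul_avM, avM_mul, funext fun ω => (h ω).eq]

omit [Group Γ] in
lemma psd_step {A A' B B' : Matrix Γ Γ ℝ} (hA : A.PosSemidef) (hA' : (A' - A).PosSemidef)
    (hB : B.PosSemidef) (hB' : (B' - B).PosSemidef) (c1 : Commute A B) (c2 : Commute A B')
    (c3 : Commute A' B') : (A' * B' - A * B).PosSemidef := by
  have := (psd_mul hA' (hB.add hB') (by rw [add_sub_cancel]; exact c3.sub_left c2)).add
    (psd_mul hA hB' (c2.sub_right c1))
  convert this using 1; noncomm_ring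

variable (j : ℕ)

def Cm (L : (Perm (Pos j) →* Γ) → Matrix Γ Γ ℝ) : Prop :=
  ∀ ψ M, (∀ g, Commute M (Lm (ψ g))) → Commute M (L ψ)

noncomputable def Ys {Q : Type} [Fintype Q] [DecidableEq Q] (φ : Perm (Q × Bool) →* Γ) :
    Matrix Γ Γ ℝ := avM fun ε => Lm (φ (sw ε))

omit [Fintype Γ] [DecidableEq Γ] in
lemma Ys_T {Q : Type} [Fintype Q] [DecidableEq Q] (φ : Perm (Q × Bool) →* Γ) :
    (Ys φ)ᴴ = Ys φ := by
  change (Ys φ)ᵀ = _
  simp only [Ys, avM_T, Lm_T, ← map_inv, sw_inv]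

noncomputable def TM : ∀ t, (Perm (Pos (j + t)) →* Γ) →
    (Pos t → (Perm (Pos j) →* Γ) → Matrix Γ Γ ℝ) → Matrix Γ Γ ℝ
  | 0, φ, L => L () φ
  | t + 1, φ, L => Ys (Q := Pos (j + t)) φ * (TM t (φ.comp osumL) (hf L false) *
      TM t (φ.comp osumR) (hf L true)) * Ys (Q := Pos (j + t)) φ

omit [DecidableEq Γ] in
lemma TM_comm (t : ℕ) (φ : Perm (Pos (j + t)) →* Γ)
    (L : Pos t → (Perm (Pos j) →* Γ) → Matrix Γ Γ ℝ) (hL : ∀ x, Cm j (L x)) (M : Matrix Γ Γ ℝ)
    (h : ∀ g, Commute M (Lm (φ g))) : Commute M (TM j t φ L) := by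
  induction t with
  | zero => exact hL _ _ _ h
  | succ t ih =>
    have hY : Commute M (Ys (Q := Pos (j + t)) φ) := comm_avM fun ε => h _
    exact (hY.mul_right ((ih _ _ (fun _ => hL _) fun g => h _).mul_right
      (ih _ _ (fun _ => hL _) fun g => h _))).mul_right hY

omit [DecidableEq Γ] in
lemma TM_cc (t : ℕ) (φ : Perm (Pos (j + t) × Bool) →* Γ)
    (L L' : Pos t → (Perm (Pos j) →* Γ) → Matrix Γ Γ ℝ) (hL : ∀ x, Cm j (L x))
    (hL' : ∀ x, Cm j (L' x)) : Commute (TM j t (φ.comp osumL) L) (TM j t (φ.comp osumR) L') :=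
  TM_comm j t _ _ hL' _ fun g => (TM_comm j t _ _ hL _ fun h => by
    change _ = _
    simp only [Lm_mul, MonoidHom.comp_apply, ← map_mul, ← osum_LR, ← osum_RL]).symm

lemma TM_mono (t : ℕ) (φ : Perm (Pos (j + t)) →* Γ)
    (L L' : Pos t → (Perm (Pos j) →* Γ) → Matrix Γ Γ ℝ) (hL : ∀ x, Cm j (L x))
    (hL' : ∀ x, Cm j (L' x)) (h : ∀ x ψ, (L x ψ).PosSemidef ∧ (L' x ψ - L x ψ).PosSemidef) :
    (TM j t φ L).PosSemidef ∧ (TM j t φ L' - TM j t φ L).PosSemidef := by
  induction t with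
  | zero => exact h _ _
  | succ t ih =>
    obtain ⟨a1, a2⟩ := ih (φ.comp osumL) (hf L false) (hf L' false) (fun _ => hL _) (fun _ => hL' _)
      fun _ => h _
    obtain ⟨b1, b2⟩ := ih (φ.comp osumR) (hf L true) (hf L' true) (fun _ => hL _) (fun _ => hL' _)
      fun _ => h _
    have c := TM_cc j t φ (hf L false) (hf L true) (fun _ => hL _) (fun _ => hL _)
    have k1 := (psd_mul a1 b1 c).conjTranspose_mul_mul_same (Ys (Q := Pos (j + t)) φ)
    have k2 := (psd_step a1 a2 b1 b2 c (TM_cc j t φ _ _ (fun _ => hL _) (fun _ => hL' _))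
      (TM_cc j t φ _ _ (fun _ => hL' _) (fun _ => hL' _))).conjTranspose_mul_mul_same
      (Ys (Q := Pos (j + t)) φ)
    rw [Ys_T] at k1 k2
    rw [mul_sub, sub_mul] at k2
    exact ⟨k1, k2⟩

lemma TM_one (t : ℕ) (φ : Perm (Pos (j + t)) →* Γ) :
    (1 - TM j t φ fun _ _ => 1).PosSemidef := by
  induction t with
  | zero => simpa [TM] using PosSemidef.zero
  | succ t ih =>
    have c : Cm j (fun _ => (1 : Matrix Γ Γ ℝ)) := fun _ _ _ => Commute.one_right _
    have p := fun φ : Perm (Pos (j + t)) →* Γ => (TM_mono j t φ (fun _ _ => 1) (fun _ _ => 1)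
      (fun _ => c) (fun _ => c) fun _ _ => ⟨PosSemidef.one, by simpa using PosSemidef.zero⟩).1
    have k := (psd_step (p _) (ih (φ.comp osumL)) (p _) (ih (φ.comp osumR))
      (TM_cc j t φ _ _ (fun _ => c) fun _ => c) (Commute.one_right _)
      (Commute.one_right _)).conjTranspose_mul_mul_same (Ys (Q := Pos (j + t)) φ)
    have k2 := contr fun ε : Pos (j + t) → Bool => φ (sw ε)
    change (1 - (Ys (Q := Pos (j + t)) φ)ᴴ * Ys (Q := Pos (j + t)) φ).PosSemidef at k2
    have := k2.add k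
    rw [Ys_T, mul_one, mul_sub, sub_mul, mul_one, sub_add_sub_cancel] at this
    exact this

omit [DecidableEq Γ] in
lemma TM_expand (w : Bool → ℝ) (m : Bool → (Perm (Pos j) →* Γ) → Matrix Γ Γ ℝ) (t : ℕ)
    (φ : Perm (Pos (j + t)) →* Γ) : TM j t φ (fun _ ψ => ∑ b, w b • m b ψ) =
      ∑ T : Pos t → Bool, (∏ x, w (T x)) • TM j t φ fun x => m (T x) := by
  induction t with
  | zero =>
    refine ((Equiv.funUnique Unit Bool).sum_comp (fun b => w b • m b φ)).symm.trans ?_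
    exact sum_congr rfl fun T _ => by simp [TM]
  | succ t ih =>
    refine Eq.trans ?_ ((pairE (Pos t) Bool).sum_comp _)
    rw [Fintype.sum_prod_type]
    change _ * (TM j t _ (fun _ ψ => ∑ b, w b • m b ψ) * TM j t _ (fun _ ψ => ∑ b, w b • m b ψ)) *
      _ = _
    rw [ih, ih, sum_mul_sum, mul_sum, sum_mul]
    refine sum_congr rfl fun T0 _ => ?_
    rw [mul_sum, sum_mul]
    refine sum_congr rfl fun T1 _ => ?_
    have : ∏ x : Pos (t + 1), w (pairE (Pos t) Bool (T0, T1) x) =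
        (∏ x, w (T0 x)) * ∏ x, w (T1 x) := by
      refine (Fintype.prod_prod_type _).trans ?_
      simp [pairE, prod_mul_distrib, mul_comm]
    rw [this, smul_mul_smul_comm, mul_smul_comm, smul_mul_assoc]
    rfl

noncomputable def Kl (b : Bool) (ψ : Perm (Pos j) →* Γ) : Matrix Γ Γ ℝ :=
  avM fun ω => avM fun a => Lm (ψ (net j 0 (fun _ => b) ω a))

omit [DecidableEq Γ] in
lemma KF_TM (t : ℕ) (φ : Perm (Pos (j + t)) →* Γ) (T : Pos t → Bool) :
    (avM fun ω => avM fun a => Lm (φ (net j t T ω a))) = TM j t φ fun x => Kl j (T x) := by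
  induction t with
  | zero => rfl
  | succ t ih =>
    change _ = _ * (TM j t _ (fun x => Kl j (hf T false x)) * TM j t _
      (fun x => Kl j (hf T true x))) * _
    rw [← ih, ← ih, Ys, mul_avM, avM_mul]
    simp only [avM_mul]
    simp only [mul_avM, avM_mul, Lm_mul, ← map_mul, MonoidHom.comp_apply, ← osum_LR]
    ext π σ
    simp only [avM, of_apply, av_prod, net_succ]
    exact av_re _

end Vale.Agent.P162
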